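import Mathlib

open Finset

namespace Vale.Agent.P039

lemma sum_avg {α β : Type*} [DecidableEq α] [DecidableEq β] (P : Finset α) (I : α → Finset β)
    (sw : β → α → α) (h1 : ∀ p ∈ P, ∀ ε ∈ I p, sw ε p ∈ P ∧ I (sw ε p) = I p ∧ sw ε (sw ε p) = p)
    (h2 : ∀ p ∈ P, (I p).Nonempty) (f : α → ℂ) :
    ∑ p ∈ P, f p = ∑ p ∈ P, ((I p).card : ℂ)⁻¹ * ∑ ε ∈ I p, f (sw ε p) := by
  have a : ∑ p ∈ P, f p = ∑ p ∈ P, ∑ ε ∈ I p, ((I p).card : ℂ)⁻¹ * f p := by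
    refine sum_congr rfl fun p hp => ?_
    have : ((I p).card : ℂ) ≠ 0 := by exact_mod_cast (card_pos.2 (h2 p hp)).ne'
    rw [sum_const, nsmul_eq_mul, ← mul_assoc, mul_inv_cancel₀ this, one_mul]
  simp only [mul_sum]
  rw [a, sum_sigma', sum_sigma']
  refine sum_nbij' (fun x => ⟨sw x.2 x.1, x.2⟩) (fun x => ⟨sw x.2 x.1, x.2⟩) ?_ ?_ ?_ ?_ ?_
  · rintro ⟨p, ε⟩ hx
    simp only [mem_sigma] at hx ⊢
    exact ⟨(h1 p hx.1 ε hx.2).1, by rw [(h1 p hx.1 ε hx.2).2.1]; exact hx.2⟩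
  · rintro ⟨p, ε⟩ hx
    simp only [mem_sigma] at hx ⊢
    exact ⟨(h1 p hx.1 ε hx.2).1, by rw [(h1 p hx.1 ε hx.2).2.1]; exact hx.2⟩
  · rintro ⟨p, ε⟩ hx
    simp only [mem_sigma] at hx ⊢
    rw [(h1 p hx.1 ε hx.2).2.2]
  · rintro ⟨p, ε⟩ hx
    simp only [mem_sigma] at hx ⊢
    rw [(h1 p hx.1 ε hx.2).2.2]
  · rintro ⟨p, ε⟩ hx
    simp only [mem_sigma] at hx ⊢
    rw [(h1 p hx.1 ε hx.2).2.2, (h1 p hx.1 ε hx.2).2.1]

lemma sum_classes {B : Type*} [Fintype B] [DecidableEq B] (R : B → B → Prop)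
    (I : Finset (B → Bool)) (hI : ∀ ε, ε ∈ I ↔ ∀ t t', R t t' → ε t = ε t')
    (v : B → Bool → ℂ) (ψ : B → ℝ)
    (h : ∀ G : Finset B, G.Nonempty → (∀ t ∈ G, ∀ t', t' ∈ G ↔ ∀ ε ∈ I, ε t = ε t') →
      ∃ m : ℝ, 0 < m ∧ ∏ t ∈ G, v t false + ∏ t ∈ G, v t true =
        m * Complex.exp ((∑ t ∈ G, ψ t : ℝ) * Complex.I)) :
    ∃ m : ℝ, 0 < m ∧ ∑ ε ∈ I, ∏ t, v t (ε t) = m * Complex.exp ((∑ t, ψ t : ℝ) * Complex.I) := by
  classical
  let s : Setoid B := ⟨fun t t' => ∀ ε ∈ I, ε t = ε t', fun _ _ _ => rfl,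
    fun h ε hε => (h ε hε).symm, fun h h' ε hε => (h ε hε).trans (h' ε hε)⟩
  let κ : B → Quotient s := Quotient.mk s
  have hκ : ∀ t t', κ t = κ t' ↔ ∀ ε ∈ I, ε t = ε t' := fun t t' => Quotient.eq
  have h' : ∀ q : Quotient s, ∃ m : ℝ, 0 < m ∧ ∏ t with κ t = q, v t false +
      ∏ t with κ t = q, v t true = m * Complex.exp ((∑ t with κ t = q, ψ t : ℝ) * Complex.I) := by
    intro q
    obtain ⟨t1, rfl⟩ := Quotient.exists_rep q
    refine h _ ⟨t1, by simp [κ]⟩ ?_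
    intro t ht t'
    simp only [mem_filter, mem_univ, true_and] at ht ⊢
    rw [← hκ, ht]
    exact eq_comm
  choose m hm0 hm using h'
  refine ⟨∏ q, m q, prod_pos fun q _ => hm0 q, ?_⟩
  have e1 : ∑ ε ∈ I, ∏ t, v t (ε t) = ∑ δ : Quotient s → Bool, ∏ t, v t (δ (κ t)) := by
    symm
    refine sum_nbij (fun δ t => δ (κ t)) ?_ ?_ ?_ ?_
    · intro δ _
      rw [hI]
      intro t t' hR
      rw [(hκ t t').2 fun ε hε => (hI ε).1 hε t t' hR]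
    · intro δ _ δ' _ hδ
      funext q
      obtain ⟨t, rfl⟩ := Quotient.exists_rep q
      exact congrFun hδ t
    · intro ε hε
      exact ⟨Quotient.lift ε (fun a b hab => hab ε hε), by simp, rfl⟩
    · intro δ _; rfl
  have e2 : ∀ δ : Quotient s → Bool, ∏ t, v t (δ (κ t)) = ∏ q, ∏ t with κ t = q, v t (δ q) := by
    intro δ
    rw [← prod_fiberwise univ κ]
    refine prod_congr rfl fun q _ => prod_congr rfl fun t ht => ?_
    rw [(mem_filter.1 ht).2]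
  rw [e1, sum_congr rfl fun δ _ => e2 δ, ← Fintype.piFinset_univ,
    ← prod_univ_sum (fun _ => univ) (fun q (c : Bool) => ∏ t with κ t = q, v t c)]
  simp only [Fintype.sum_bool]
  rw [prod_congr rfl fun q _ => by rw [add_comm, hm q], prod_mul_distrib, ← Complex.exp_sum,
    ← sum_mul, ← Complex.ofReal_sum, sum_fiberwise, Complex.ofReal_prod]

lemma exp_add_exp (y u : ℝ) : Complex.exp ((y + u : ℝ) * Complex.I) +
    Complex.exp ((y - u : ℝ) * Complex.I) = (2 * Real.cos u : ℝ) * Complex.exp (y * Complex.I) := by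
  push_cast
  rw [Complex.two_cos, add_mul, sub_mul, Complex.exp_add, sub_eq_add_neg, Complex.exp_add, neg_mul]
  ring

end Vale.Agent.P039
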