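import Vale.Agent.P039.Corner
import Vale.Agent.P039.Avg

open Finset Sum

namespace Vale.Agent.P039

universe u

set_option linter.unusedSectionVars false

variable {E B W F : Type u} [Fintype E] [Fintype B] [Fintype W] [DecidableEq E] [DecidableEq B]
  [DecidableEq W] [DecidableEq F]

/-- a flow with unit demand at every white vertex, supplied from the root -/
lemma Tri.Conn.exists_flow {T : Tri E B W F} (hc : T.Conn) (t0 : B) :
    ∃ α : E → ℝ, (∀ t, t ≠ t0 → ∑ e with T.b e = t, α e = 0) ∧ ∀ x, ∑ e with T.w e = x, α e = 1 := by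
  classical
  let P : B ⊕ W → Prop := fun y => ∃ α : E → ℝ,
    (∀ t, t ≠ t0 → ∑ e with T.b e = t, α e = if inl t = y then -1 else 0) ∧
      ∀ x, ∑ e with T.w e = x, α e = if inr x = y then 1 else 0
  have hP : ∀ e, P (inl (T.b e)) = P (inr (T.w e)) := by
    intro e0
    have a : ∀ t, ∑ e with T.b e = t, (Pi.single e0 1 : E → ℝ) e = if t = T.b e0 then 1 else 0 := by
      intro t
      rw [sum_pi_single']; simp [eq_comm]
    have b : ∀ t, ∑ e with T.w e = t, (Pi.single e0 1 : E → ℝ) e = if t = T.w e0 then 1 else 0 := by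
      intro t
      rw [sum_pi_single']; simp [eq_comm]
    apply propext
    constructor
    · rintro ⟨α, h1, h2⟩
      refine ⟨α + Pi.single e0 1, fun t ht => ?_, fun x => ?_⟩
      · simp only [Pi.add_apply, sum_add_distrib, h1 t ht, a]
        by_cases h : t = T.b e0 <;> simp [h]
      · simp only [Pi.add_apply, sum_add_distrib, h2 x, b]
        by_cases h : x = T.w e0 <;> simp [h]
    · rintro ⟨α, h1, h2⟩
      refine ⟨α - Pi.single e0 1, fun t ht => ?_, fun x => ?_⟩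
      · simp only [Pi.sub_apply, sum_sub_distrib, h1 t ht, a]
        by_cases h : t = T.b e0 <;> simp [h]
      · simp only [Pi.sub_apply, sum_sub_distrib, h2 x, b]
        by_cases h : x = T.w e0 <;> simp [h]
  have h0 : P (inl t0) := ⟨0, fun t ht => by simp [ht], fun x => by simp⟩
  have h1 : ∀ y : W, P (inr y) := fun y => hc.const P hP (inl t0) (inr y) ▸ h0
  choose α h2 h3 using h1
  refine ⟨fun e => ∑ y, α y e, fun t ht => ?_, fun x => ?_⟩
  · rw [sum_comm]; simp [h2 _ t ht]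
  · rw [sum_comm]; simp [h3]

namespace Cor

variable {T : Tri E B W F} (K : Cor T)

def Pair (t0 : B) (p : (B → Fin 3) × (B → Fin 3)) : Prop :=
  K.St t0 p.1 ∧ K.St t0 p.2 ∧ ∀ t, t ≠ t0 → p.1 t ≠ p.2 t

noncomputable def ang (t0 : B) (x : ℝ) (A : B → Fin 3 → ℝ) (t : B) (a b : Fin 3) : ℝ :=
  if t = t0 then 0 else Real.pi * sg a b / 2 - x * A t a

noncomputable def wt (t0 : B) (x : ℝ) (A : B → Fin 3 → ℝ) (p : (B → Fin 3) × (B → Fin 3)) : ℂ :=
  ∏ t, Complex.exp (ang t0 x A t (p.1 t) (p.2 t) * Complex.I)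

def sw (ε : B → Bool) (p : (B → Fin 3) × (B → Fin 3)) : (B → Fin 3) × (B → Fin 3) :=
  (fun t => if ε t then p.2 t else p.1 t, fun t => if ε t then p.1 t else p.2 t)

def Rel (t0 : B) (p : (B → Fin 3) × (B → Fin 3)) (t t' : B) : Prop :=
  t ≠ t0 ∧ t' ≠ t0 ∧ K.c t (p.2 t) = K.c t' (p.1 t')

lemma sw_sw (ε : B → Bool) (p : (B → Fin 3) × (B → Fin 3)) : sw ε (sw ε p) = p := by
  ext t <;> by_cases h : ε t <;> simp [sw, h]

lemma sw_pair {t0 : B} {p : (B → Fin 3) × (B → Fin 3)} (hp : K.Pair t0 p) {ε : B → Bool}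
    (hε : ∀ t t', K.Rel t0 p t t' → ε t = ε t') : K.Pair t0 (sw ε p) := by
  obtain ⟨h1, h2, h3⟩ := hp
  refine ⟨⟨fun t ht j => ?_, fun t t' ht ht' h => ?_⟩, ⟨fun t ht j => ?_, fun t t' ht ht' h => ?_⟩,
    fun t ht => ?_⟩
  · simp only [sw]; split_ifs
    · exact h2.1 t ht j
    · exact h1.1 t ht j
  · simp only [sw] at h; split_ifs at h with a b b
    · exact h2.2 _ _ ht ht' h
    · exact absurd (hε t t' ⟨ht, ht', h⟩) (by simp [a, b])
    · exact absurd (hε t' t ⟨ht', ht, h.symm⟩) (by simp [a, b])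
    · exact h1.2 _ _ ht ht' h
  · simp only [sw]; split_ifs
    · exact h1.1 t ht j
    · exact h2.1 t ht j
  · simp only [sw] at h; split_ifs at h with a b b
    · exact h1.2 _ _ ht ht' h
    · exact absurd (hε t' t ⟨ht', ht, h.symm⟩) (by simp [a, b])
    · exact absurd (hε t t' ⟨ht, ht', h⟩) (by simp [a, b])
    · exact h2.2 _ _ ht ht' h
  · simp only [sw]; split_ifs
    · exact (h3 t ht).symm
    · exact h3 t ht

lemma sw_inv {t0 : B} {p : (B → Fin 3) × (B → Fin 3)} (hp : K.Pair t0 p) (ε : B → Bool)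
    {δ : B → Bool} (hδ : ∀ t t', K.Rel t0 p t t' → δ t = δ t') :
    ∀ t t', K.Rel t0 (sw ε p) t t' → δ t = δ t' := by
  rintro t t' ⟨ht, ht', h⟩
  simp only [sw] at h; split_ifs at h with a b b
  · exact (hδ t' t ⟨ht', ht, h.symm⟩).symm
  · rw [hp.1.2 _ _ ht ht' h]
  · rw [hp.2.1.2 _ _ ht ht' h]
  · exact hδ t t' ⟨ht, ht', h⟩

lemma class_pos (hc : T.Conn3) (heu : T.faces.card = Fintype.card B + 2) {t0 : B}
    {α : E → ℝ} (hα1 : ∀ t, t ≠ t0 → ∑ e with T.b e = t, α e = 0)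
    (hα2 : ∀ x, ∑ e with T.w e = x, α e = 1) {A : B → Fin 3 → ℝ}
    (hA : ∀ t, t ≠ t0 → ∀ a b, a ≠ b → sg a b * α (K.eb t (thd a b)) = A t b - A t a)
    {x : ℝ} (hx0 : 0 < x) (hx : x * Fintype.card W ≤ 1)
    {p : (B → Fin 3) × (B → Fin 3)} (hp : K.Pair t0 p) (G : Finset B) (hG : G.Nonempty)
    (hcl : ∀ t ∈ G, ∀ t', t' ∈ G ↔
      ∀ ε : B → Bool, (∀ t t', K.Rel t0 p t t' → ε t = ε t') → ε t = ε t') :
    ∃ m : ℝ, 0 < m ∧ ∏ t ∈ G, Complex.exp (ang t0 x A t (p.1 t) (p.2 t) * Complex.I) +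
      ∏ t ∈ G, Complex.exp (ang t0 x A t (p.2 t) (p.1 t) * Complex.I) =
        m * Complex.exp ((∑ t ∈ G, (if t = t0 then 0 else
          -(x * (A t (p.1 t) + A t (p.2 t)) / 2)) : ℝ) * Complex.I) := by
  by_cases h0 : t0 ∈ G
  · have : G = {t0} := by
      refine eq_singleton_iff_unique_mem.2 ⟨h0, fun t ht => ?_⟩
      have := (hcl t0 h0 t).1 ht (fun t => decide (t = t0)) (by
        rintro t t' ⟨a, b, -⟩; simp [a, b])
      simpa using this
    subst this
    exact ⟨2, by norm_num, by simp [ang]; norm_num⟩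
  have hne : ∀ t ∈ G, t ≠ t0 := fun t ht h => h0 (h ▸ ht)
  have hl := hc.no_loop heu
  have hnext : ∀ t, t ≠ t0 → ∃ t', K.Rel t0 p t t' := by
    intro t ht
    obtain ⟨t', a, b⟩ := hp.1.surj hl heu (v := K.c t (p.2 t)) (by
      rw [nonroot, mem_sdiff]
      refine ⟨K.c_mem _ _, fun h => ?_⟩
      obtain ⟨j, -, hj⟩ := mem_image.1 h
      exact hp.2.1.1 t ht j hj.symm)
    exact ⟨t', ht, a, b.symm⟩
  have hmin : MinClosed (fun t => K.c t (p.1 t)) (fun t => K.c t (p.2 t)) G := by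
    refine ⟨hG, fun t ht => ?_, fun G' hsub hne' hcl' => ?_⟩
    · obtain ⟨t', h'⟩ := hnext t (hne t ht)
      exact ⟨t', (hcl t ht t').2 fun ε hε => hε _ _ h', h'.2.2⟩
    · have him : G'.image (fun t => K.c t (p.2 t)) = G'.image (fun t => K.c t (p.1 t)) := by
        refine eq_of_subset_of_card_le ?_ ?_
        · intro v hv
          obtain ⟨t, ht, rfl⟩ := mem_image.1 hv
          obtain ⟨t', a, b⟩ := hcl' t ht
          exact mem_image.2 ⟨t', a, b.symm⟩
        · refine card_image_le.trans (card_image_of_injOn ?_).ge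
          intro t ht t' ht' h
          exact hp.2.1.2 _ _ (hne _ (hsub ht)) (hne _ (hsub ht')) h
      refine Subset.antisymm hsub fun t ht => ?_
      obtain ⟨t1, ht1⟩ := hne'
      have := (hcl t1 (hsub ht1) t).1 ht (fun t => decide (t ∈ G')) (by
        rintro a b ⟨ha, hb, h⟩
        simp only [decide_eq_decide]
        constructor
        · intro h1
          obtain ⟨b', h2, h3⟩ := hcl' a h1
          rwa [hp.1.2 b b' hb (hne _ (hsub h2)) (h.symm.trans h3)]
        · intro h1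
          have : K.c b (p.1 b) ∈ G'.image (fun t => K.c t (p.2 t)) := by
            rw [him]; exact mem_image_of_mem _ h1
          obtain ⟨a', h2, h3⟩ := mem_image.1 this
          rwa [hp.2.1.2 a a' ha (hne _ (hsub h2)) (h.trans h3.symm)])
      simpa [ht1] using this
  obtain ⟨lam, hlam, hs, n, hn, hsum⟩ := hp.1.disk hc heu h0 (fun t ht => hp.2.2 t (hne t ht)) hmin
  have h1 := hsum α 0 1 hα1 hα2
  rw [sum_congr rfl (fun t ht => hA t (hne t ht) _ _ (hp.2.2 t (hne t ht))), sum_sub_distrib] at h1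
  rw [← Complex.exp_sum, ← Complex.exp_sum, ← sum_mul, ← sum_mul, ← Complex.ofReal_sum,
    ← Complex.ofReal_sum]
  set y : ℝ := ∑ t ∈ G, (if t = t0 then 0 else -(x * (A t (p.1 t) + A t (p.2 t)) / 2)) with hy
  have hy' : y = -(x * (∑ t ∈ G, A t (p.1 t) + ∑ t ∈ G, A t (p.2 t)) / 2) := by
    rw [hy, sum_congr rfl (fun t ht => if_neg (hne t ht)), ← sum_add_distrib, mul_sum, sum_div,
      ← sum_neg_distrib]
  let w : ℝ := -lam * (3 * Real.pi / 2 + x * (n + 1) / 2)
  have e1 : ∑ t ∈ G, ang t0 x A t (p.1 t) (p.2 t) = y + w := by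
    unfold ang
    rw [sum_congr rfl (fun t ht => if_neg (hne t ht)), sum_sub_distrib, ← sum_div, ← mul_sum,
      ← mul_sum, hs, hy']
    simp only [w]
    have : ∑ t ∈ G, A t (p.2 t) = ∑ t ∈ G, A t (p.1 t) - lam * (n + 1) := by linarith
    rw [this]; ring
  have e2 : ∑ t ∈ G, ang t0 x A t (p.2 t) (p.1 t) = y - w := by
    have e3 : ∑ t ∈ G, sg (p.2 t) (p.1 t) = 3 * lam := by
      rw [sum_congr rfl (fun t ht => sg_swap (hp.2.2 t (hne t ht))), sum_neg_distrib, hs]; ring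
    unfold ang
    rw [sum_congr rfl (fun t ht => if_neg (hne t ht)), sum_sub_distrib, ← sum_div, ← mul_sum,
      ← mul_sum, e3, hy']
    simp only [w]
    have : ∑ t ∈ G, A t (p.2 t) = ∑ t ∈ G, A t (p.1 t) - lam * (n + 1) := by linarith
    rw [this]; ring
  rw [e1, e2, exp_add_exp]
  refine ⟨_, ?_, rfl⟩
  have e4 : Real.cos w = Real.sin (x * (n + 1) / 2) := by
    have : Real.cos w = Real.cos (3 * Real.pi / 2 + x * (n + 1) / 2) := by
      rcases hlam with h | h <;> simp [w, h, -neg_add_rev]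
    rw [this, show 3 * Real.pi / 2 + x * (n + 1) / 2 = (x * (n + 1) / 2 - Real.pi / 2) + 2 * Real.pi
      by ring, Real.cos_add_two_pi, Real.cos_sub_pi_div_two]
  rw [e4]
  have : (n + 1 : ℝ) ≤ Fintype.card W := by exact_mod_cast hn
  have h2 : x * (n + 1) ≤ 1 := (mul_le_mul_of_nonneg_left this hx0.le).trans hx
  have h3 : 0 < x * (n + 1) := by positivity
  have := Real.sin_pos_of_pos_of_lt_pi (x := x * (n + 1) / 2) (by linarith)
    (by linarith [Real.pi_gt_three])
  linarith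


lemma exists_pot {t0 : B} {α : E → ℝ} (hα1 : ∀ t, t ≠ t0 → ∑ e with T.b e = t, α e = 0) :
    ∃ A : B → Fin 3 → ℝ,
      ∀ t, t ≠ t0 → ∀ a b, a ≠ b → sg a b * α (K.eb t (thd a b)) = A t b - A t a := by
  refine ⟨fun t j => (α (K.eb t (j + 1)) - α (K.eb t (j + 2))) / 3, fun t ht a b hab => ?_⟩
  have := hα1 t ht
  rw [K.sum_fib] at this
  have f0 : ∀ h : Fin 3, α (K.eb t h) + α (K.eb t (h + 1)) + α (K.eb t (h + 2)) = 0 := by
    intro h
    rw [← this]
    rcases (by decide : ∀ h : Fin 3, h = 0 ∨ h = 1 ∨ h = 2) h with rfl | rfl | rfl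
    · rfl
    · rw [show (1 + 1 : Fin 3) = 2 from rfl, show (1 + 2 : Fin 3) = 0 from rfl]; ring
    · rw [show (2 + 1 : Fin 3) = 0 from rfl, show (2 + 2 : Fin 3) = 1 from rfl]; ring
  have f1 : ∀ h : Fin 3, h + 2 + 1 = h ∧ h + 2 + 2 = h + 1 ∧ h + 1 + 1 = h + 2 ∧ h + 1 + 2 = h := by
    decide
  have f2 := f0 (thd a b)
  obtain ⟨g1, g2, g3, g4⟩ := f1 (thd a b)
  rcases thd_cases a b hab with ⟨h1, h2, h3⟩ | ⟨h1, h2, h3⟩
  · rw [sg, if_pos h1]
    generalize thd a b = h at *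
    subst h2 h3
    simp only [g1, g2, g3, g4]; linarith
  · rw [sg, if_neg h1]
    generalize thd a b = h at *
    subst h2 h3
    simp only [g1, g2, g3, g4]; linarith

open Classical in
lemma sum_pos (hc : T.Conn3) (heu : T.faces.card = Fintype.card B + 2) {t0 : B}
    (hP : ∃ p, K.Pair t0 p) : ∃ (x : ℝ) (A : B → Fin 3 → ℝ),
      0 < (∑ p with K.Pair t0 p, wt t0 x A p).re := by
  obtain ⟨α, hα1, hα2⟩ := hc.conn.exists_flow t0
  obtain ⟨A, hA⟩ := K.exists_pot hα1
  let M : ℝ := ∑ t, ∑ j, |A t j|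
  have hM : 0 ≤ M := sum_nonneg fun _ _ => sum_nonneg fun _ _ => abs_nonneg _
  let x : ℝ := (M + Fintype.card W + 1)⁻¹
  have hx0 : 0 < x := by positivity
  have hx1 : x * (M + Fintype.card W + 1) = 1 := inv_mul_cancel₀ (by positivity)
  have hxW : x * Fintype.card W ≤ 1 := by nlinarith
  have hxM : x * M ≤ 1 := by
    have : (0 : ℝ) ≤ Fintype.card W := by positivity
    nlinarith
  refine ⟨x, A, ?_⟩
  let I : (B → Fin 3) × (B → Fin 3) → Finset (B → Bool) := fun p =>
    univ.filter fun ε => ∀ t t', K.Rel t0 p t t' → ε t = ε t'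
  rw [sum_avg _ I sw (by
    intro p hp ε hε
    simp only [I, mem_filter, mem_univ, true_and] at hp hε ⊢
    refine ⟨K.sw_pair hp hε, ?_, sw_sw _ _⟩
    ext δ
    simp only [mem_filter, mem_univ, true_and]
    refine ⟨fun h => ?_, K.sw_inv hp ε⟩
    have := K.sw_inv (K.sw_pair hp hε) ε h
    rwa [sw_sw] at this) (fun p _ => ⟨fun _ => true, by simp [I]⟩), Complex.re_sum]
  refine Finset.sum_pos ?_ (by obtain ⟨p, hp⟩ := hP; exact ⟨p, by simpa using hp⟩)
  intro p hp
  simp only [mem_filter, mem_univ, true_and] at hp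
  obtain ⟨m, hm, h⟩ := sum_classes (K.Rel t0 p) (I p) (by simp [I])
    (fun t c => if c then Complex.exp (ang t0 x A t (p.2 t) (p.1 t) * Complex.I) else
      Complex.exp (ang t0 x A t (p.1 t) (p.2 t) * Complex.I))
    (fun t => if t = t0 then 0 else -(x * (A t (p.1 t) + A t (p.2 t)) / 2)) (by
      intro G hG hcl
      simpa using K.class_pos hc heu hα1 hα2 hA hx0 hxW hp G hG (by simpa [I] using hcl))
  have e1 : ∑ ε ∈ I p, wt t0 x A (sw ε p) = ∑ ε ∈ I p, ∏ t, (if ε t then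
      Complex.exp (ang t0 x A t (p.2 t) (p.1 t) * Complex.I) else
      Complex.exp (ang t0 x A t (p.1 t) (p.2 t) * Complex.I)) := by
    refine sum_congr rfl fun ε _ => prod_congr rfl fun t _ => ?_
    simp only [sw]
    split_ifs <;> rfl
  rw [e1, h]
  set y : ℝ := ∑ t, (if t = t0 then 0 else -(x * (A t (p.1 t) + A t (p.2 t)) / 2)) with hy
  have hy1 : |y| ≤ 1 := by
    refine (abs_sum_le_sum_abs _ _).trans (le_trans ?_ hxM)
    simp only [M, mul_sum]
    refine sum_le_sum fun t _ => ?_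
    rw [← mul_sum]
    have b1 : ∀ j, |A t j| ≤ ∑ j, |A t j| := fun j =>
      single_le_sum (f := fun j => |A t j|) (fun _ _ => abs_nonneg _) (mem_univ j)
    split_ifs
    · simp only [abs_zero]; exact mul_nonneg hx0.le ((abs_nonneg _).trans (b1 0))
    · rw [abs_neg, abs_div, abs_mul, abs_of_pos hx0, abs_two]
      have := abs_add_le (A t (p.1 t)) (A t (p.2 t))
      have := b1 (p.1 t)
      have := b1 (p.2 t)
      nlinarith
  have hcos : 0 < Real.cos y := by
    rw [abs_le] at hy1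
    exact Real.cos_pos_of_mem_Ioo ⟨by linarith [Real.pi_gt_three], by linarith [Real.pi_gt_three]⟩
  have hI : (0 : ℝ) < (I p).card := by
    exact_mod_cast card_pos.2 ⟨fun _ => true, by simp [I]⟩
  rw [← Complex.ofReal_natCast, ← Complex.ofReal_inv, Complex.re_ofReal_mul, Complex.re_ofReal_mul,
    Complex.exp_ofReal_mul_I_re]
  positivity

lemma flip_pair {t0 : B} {r s0 s : B → Fin 3} (h0 : K.Pair t0 (r, s0)) (h : K.Pair t0 (r, s))
    {G : Finset B} (ht0 : t0 ∉ G)
    (hG : MinClosed (fun t => K.c t (s0 t)) (fun t => K.c t (thd (r t) (s0 t))) G) :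
    K.Pair t0 (r, fun t => if t ∈ G then thd (r t) (s t) else s t) := by
  classical
  have hne : ∀ t ∈ G, t ≠ t0 := fun t ht h => ht0 (h ▸ ht)
  obtain ⟨g, hg, him, -, -⟩ := hG.next
  obtain ⟨hr, hs0, hrs0⟩ := h0
  obtain ⟨-, hs, hrs⟩ := h
  simp only at hr hs0 hrs0 hs hrs
  let U : Finset F := G.image fun t => K.c t (s0 t)
  have hU : ∀ t ∈ G, ∀ a, r t ≠ a → K.c t a ∈ U := by
    intro t ht a ha
    by_cases h1 : a = s0 t
    · rw [h1]; exact mem_image_of_mem _ ht
    · rw [eq_thd _ _ _ (hrs0 t (hne t ht)) ha h1, (hg t ht).2]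
      exact mem_image_of_mem _ (hg t ht).1
  have hUc : U.card = G.card :=
    card_image_of_injOn fun t ht t' ht' h => hs0.2 _ _ (hne _ ht) (hne _ ht') h
  have h1 : G.image (fun t => K.c t (s t)) = U := by
    refine eq_of_subset_of_card_le ?_ ?_
    · intro v hv
      obtain ⟨t, ht, rfl⟩ := mem_image.1 hv
      exact hU t ht _ (hrs t (hne t ht))
    · rw [hUc, card_image_of_injOn fun t ht t' ht' h => hs.2 _ _ (hne _ ht) (hne _ ht') h]
  have h2 : U ⊆ G.image (fun t => K.c t (thd (r t) (s t))) := by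
    intro v hv
    obtain ⟨t1, ht1, rfl⟩ := mem_image.1 hv
    have := ht1
    rw [← him] at this
    obtain ⟨t2, ht2, rfl⟩ := mem_image.1 this
    by_cases a : s (g t2) = s0 (g t2)
    · by_cases b : s t2 = thd (r t2) (s0 t2)
      · exfalso
        have c : t2 = g t2 := hs.2 _ _ (hne _ ht2) (hne _ ht1) (by rw [a, b, (hg t2 ht2).2])
        rw [← c, b] at a
        exact thd_ne_right _ _ (hrs0 t2 (hne _ ht2)) a
      · refine mem_image.2 ⟨t2, ht2, ?_⟩
        rw [← (hg t2 ht2).2]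
        congr 1
        exact (eq_thd _ _ _ (hrs t2 (hne _ ht2)) (thd_ne_left _ _ (hrs0 t2 (hne _ ht2))).symm
          (Ne.symm b)).symm
    · refine mem_image.2 ⟨g t2, ht1, ?_⟩
      congr 1
      exact (eq_thd _ _ _ (hrs _ (hne _ ht1)) (hrs0 _ (hne _ ht1)) (Ne.symm a)).symm
  have h3 : Set.InjOn (fun t => K.c t (thd (r t) (s t))) G :=
    injOn_of_card_image_eq (le_antisymm card_image_le (hUc ▸ card_le_card h2))
  have h4 : ∀ t ∈ G, ∀ t', t' ≠ t0 → t' ∉ G → K.c t (thd (r t) (s t)) ≠ K.c t' (s t') := by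
    intro t ht t' a b c
    have := hU t ht _ (thd_ne_left _ _ (hrs t (hne t ht))).symm
    rw [c, ← h1] at this
    obtain ⟨t'', d, e⟩ := mem_image.1 this
    exact b (hs.2 _ _ (hne _ d) a e ▸ d)
  refine ⟨hr, ⟨fun t ht j => ?_, fun t t' ht ht' h => ?_⟩, fun t ht => ?_⟩
  · simp only
    split_ifs with a
    · obtain ⟨t', b, c⟩ := mem_image.1 (hU t a _ (thd_ne_left _ _ (hrs t ht)).symm)
      rw [← c]; exact hs0.1 _ (hne _ b) j
    · exact hs.1 t ht j
  · simp only at h
    split_ifs at h with a b b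
    · exact h3 a b h
    · exact absurd h (h4 t a t' ht' b)
    · exact absurd h.symm (h4 t' b t ht a)
    · exact hs.2 _ _ ht ht' h
  · simp only
    split_ifs with a
    · exact (thd_ne_left _ _ (hrs t ht)).symm
    · exact hrs t ht

theorem exists_acyclic (hc : T.Conn3) (heu : T.faces.card = Fintype.card B + 2) {t0 : B}
    (hP : ∃ p, K.Pair t0 p) : ∃ r s, K.Pair t0 (r, s) ∧ ∀ G : Finset B, t0 ∉ G → G.Nonempty →
      ¬ Closed (fun t => K.c t (s t)) (fun t => K.c t (thd (r t) (s t))) G := by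
  classical
  by_contra hcon
  push Not at hcon
  obtain ⟨x, A, h⟩ := K.sum_pos hc heu hP
  refine h.ne' ?_
  rw [sum_filter, Fintype.sum_prod_type, sum_eq_zero, Complex.zero_re]
  intro r _
  rw [← sum_filter]
  by_cases h0 : ∃ s0, K.Pair t0 (r, s0)
  swap
  · refine sum_eq_zero fun s hs => absurd ⟨s, (mem_filter.1 hs).2⟩ h0
  obtain ⟨s0, h0⟩ := h0
  obtain ⟨G0, a, b, c⟩ := hcon r s0 h0
  obtain ⟨G, hsub, hG⟩ := exists_minClosed b c
  have ht0 : t0 ∉ G := fun h => a (hsub h)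
  have hne : ∀ t ∈ G, t ≠ t0 := fun t ht h => ht0 (h ▸ ht)
  have hodd : Odd G.card := by
    obtain ⟨lam, h1, h2, -⟩ := h0.2.1.disk hc heu ht0
      (fun t ht => (thd_ne_right _ _ (h0.2.2 t (hne t ht))).symm) hG
    exact odd_of_sum_sg G _ (fun t _ => sg_cases _ _) h1 h2
  let J : (B → Fin 3) → (B → Fin 3) := fun s t => if t ∈ G then thd (r t) (s t) else s t
  have hJ : ∀ s, J (J s) = s := by
    intro s; ext t
    by_cases h : t ∈ G <;> simp [J, h, thd_thd]
  have hw : ∀ s, K.Pair t0 (r, s) → wt t0 x A (r, J s) = - wt t0 x A (r, s) := by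
    intro s hs
    have : ∀ t, Complex.exp (ang t0 x A t (r t) (J s t) * Complex.I) =
        (if t ∈ G then -1 else 1) * Complex.exp (ang t0 x A t (r t) (s t) * Complex.I) := by
      intro t
      by_cases h : t ∈ G
      · simp only [J, if_pos h, ang, if_neg (hne t h), sg_thd (hs.2.2 t (hne t h))]
        rcases sg_cases (r t) (s t) with h1 | h1
        · rw [h1, ← Complex.exp_neg_pi_mul_I, ← Complex.exp_add]; congr 1; push_cast; ring
        · rw [h1, ← Complex.exp_pi_mul_I, ← Complex.exp_add]; congr 1; push_cast; ring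
      · simp [J, h]
    simp only [wt, this, prod_mul_distrib]
    rw [prod_ite_mem, univ_inter, prod_const, hodd.neg_one_pow, neg_one_mul]
  have : ∑ s with K.Pair t0 (r, s), wt t0 x A (r, s) =
      ∑ s with K.Pair t0 (r, s), - wt t0 x A (r, s) := by
    refine sum_nbij' J J ?_ ?_ (fun s _ => hJ s) (fun s _ => hJ s) ?_
    · intro s hs
      simp only [mem_filter, mem_univ, true_and] at hs ⊢
      exact K.flip_pair h0 hs ht0 hG
    · intro s hs
      simp only [mem_filter, mem_univ, true_and] at hs ⊢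
      exact K.flip_pair h0 hs ht0 hG
    · intro s hs
      simp only [mem_filter, mem_univ, true_and] at hs
      rw [hw s hs, neg_neg]
  rw [sum_neg_distrib] at this
  exact self_eq_neg.1 this

end Cor

end Vale.Agent.P039
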