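import Vale.Agent.P039.Induct

open Finset Sum

namespace Vale.Agent.P039

universe u

set_option linter.unusedSectionVars false

section
variable {E B W F : Type u} [Fintype E] [Fintype B] [Fintype W] [DecidableEq E] [DecidableEq B]
  [DecidableEq W] [DecidableEq F]

lemma fib_card_not {X : Type u} [Fintype X] [DecidableEq X] {g : E → X} {hd tl : E → F}
    (h : ∀ t, TriFib g hd tl t) {M : Finset E} (hM : ∀ t, ∃! e, g e = t ∧ e ∈ M)
    (p : X → Prop) [DecidablePred p] : #{e | p (g e) ∧ e ∉ M} = 2 * #{t | p t} := by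
  have a : ∀ t, #{e | g e = t ∧ e ∉ M} = 2 := by
    intro t
    have h1 := fib_card (h t)
    have h2 : #{e | g e = t ∧ e ∈ M} = 1 := by
      obtain ⟨e, a, b⟩ := hM t
      rw [card_eq_one]
      exact ⟨e, eq_singleton_iff_unique_mem.2 ⟨by simpa using a, fun e' he' =>
        b e' (by simpa using he')⟩⟩
    have h3 := card_filter_add_card_filter_not (s := univ.filter fun e => g e = t) (fun e => e ∈ M)
    rw [filter_filter, filter_filter] at h3
    omega
  rw [← filter_filter, card_filter, fib_sum_set]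
  simp only [← card_filter, filter_filter, a]
  simp [mul_comm]

namespace Tri

lemma cut_parity {T : Tri E B W F} {S : Finset (B ⊕ W)} (h3 : (T.cutB S).card = 3)
    (h0 : T.cutW S = ∅) {M : Finset E} (hB : ∀ t, ∃! e, T.b e = t ∧ e ∈ M)
    (hW : ∀ t, ∃! e, T.w e = t ∧ e ∈ M) {e1 : E} (he1 : e1 ∈ T.cutB S)
    (hM : ∀ e ∈ T.cutB S, e ∈ M ↔ e = e1) (R : Finset (B ⊕ W))
    (hR : ∀ e, e ∉ M → (inl (T.b e) ∈ R ↔ inr (T.w e) ∈ R)) :
    ∃ P : Prop, ∀ e ∈ T.cutB S, e ∉ M → (inr (T.w e) ∈ R ↔ P) := by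
  have a := fib_card_not T.blk hB (fun t => inl t ∈ R ∧ inl t ∈ S)
  have b := fib_card_not T.wht hW (fun t => inr t ∈ R ∧ inr t ∈ S)
  have c : #{e | (inl (T.b e) ∈ R ∧ inl (T.b e) ∈ S) ∧ e ∉ M} =
      #{e | (inr (T.w e) ∈ R ∧ inr (T.w e) ∈ S) ∧ e ∉ M} +
        #{e ∈ (T.cutB S).erase e1 | inr (T.w e) ∈ R} := by
    rw [← card_union_of_disjoint]
    · congr 1; ext e
      have := hR e
      have := hM e
      have := b_mem (h0 := h0) (e := e)
      simp only [mem_cutB, mem_filter, mem_univ, true_and, mem_union, mem_erase] at *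
      tauto
    · rw [disjoint_left]; intro e
      simp only [mem_cutB, mem_filter, mem_univ, true_and, mem_erase]
      tauto
  have d : ((T.cutB S).erase e1).card = 2 := by rw [card_erase_of_mem he1, h3]
  have f := card_filter_le ((T.cutB S).erase e1) (fun e => inr (T.w e) ∈ R)
  have g : ∀ e ∈ T.cutB S, e ∉ M → e ∈ (T.cutB S).erase e1 := fun e h1 h2 =>
    mem_erase.2 ⟨fun h => h2 ((hM e h1).2 h), h1⟩
  by_cases h : #{e ∈ (T.cutB S).erase e1 | inr (T.w e) ∈ R} = 0
  · rw [card_eq_zero, filter_eq_empty_iff] at h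
    exact ⟨False, fun e h1 h2 => iff_false_intro (h (g e h1 h2))⟩
  · have : #{e ∈ (T.cutB S).erase e1 | inr (T.w e) ∈ R} = ((T.cutB S).erase e1).card := by omega
    rw [card_filter_eq_iff] at this
    exact ⟨True, fun e h1 h2 => iff_true_intro (this e (g e h1 h2))⟩

end Tri
end

theorem all_good (n : ℕ) : ∀ (E B W F : Type u) [Fintype E] [Fintype B] [Fintype W] [DecidableEq E]
    [DecidableEq B] [DecidableEq W] [DecidableEq F] (T : Tri E B W F), Fintype.card B = n →
    T.Conn3 → T.faces.card = Fintype.card B + 2 → ∀ e0, ∃ M, e0 ∈ M ∧ T.Good M := by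
  induction n using Nat.strong_induction_on with
  | _ n ih =>
  intro E B W F _ _ _ _ _ _ _ T hn hc heu e0
  by_cases hno : T.NoTri (T.b e0)
  · exact Tri.core hc heu e0 hno
  simp only [Tri.NoTri, not_forall, not_exists] at hno
  obtain ⟨S, hS0, h3, h0, hS⟩ := hno
  rw [card_eq_zero] at h0
  have hl := hc.no_loop heu
  have h3' : (T.swap.cutB (swS Sᶜ)).card = 3 := by
    rw [← h3]; congr 1; ext e; simp [Tri.mem_cutB, Tri.swap, and_comm]
  have h0' : T.swap.cutW (swS Sᶜ) = ∅ := by
    rw [← h0]; ext e; simp [Tri.mem_cutW, Tri.swap, and_comm]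
  let T1 := T.contract hl S h3 h0
  let T2 := T.swap.contract hl (swS Sᶜ) h3' h0'
  have c1 : T1.Conn3 := Tri.contract_conn3 hc
  have c2 : T2.Conn3 := Tri.contract_conn3 hc.swap
  have n1 : Fintype.card (Option {t // inl t ∉ S}) + nB S = n + 1 := by
    rw [Fintype.card_option, Fintype.card_subtype, nB, ← hn, ← card_univ,
      ← card_filter_add_card_filter_not (s := univ) (fun t : B => inl t ∈ S)]
    omega
  have n2 : Fintype.card (Option {x : W // inl x ∉ swS Sᶜ}) = nB S := by
    rw [← T2.cardW, Fintype.card_subtype, nB]; congr 1; ext; simp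
  have n3 : nB S < n := by
    rw [← hn, nB, ← card_univ]
    exact card_lt_card (Finset.ssubset_iff_subset_ne.2 ⟨subset_univ _, fun h => by
      have : T.b e0 ∈ univ.filter fun t => inl t ∈ S := h.symm ▸ mem_univ _
      exact hS0 (mem_filter.1 this).2⟩)
  have n4 : 2 ≤ nB S := by
    have a := T.card_eS_B S
    have b := T.card_eS_W S
    rw [h0, card_empty] at a
    rw [h3] at b
    by_contra h
    have c : S.card = 1 := by rw [card_eq_nB_nW]; omega
    obtain ⟨x, rfl⟩ := card_eq_one.1 c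
    obtain ⟨e, he⟩ := card_pos.1 (by omega : 0 < (T.cutB {x}).card)
    exact hS _ (by rw [← mem_singleton.1 (T.mem_cutB.1 he).1])
  have f1 := c1.conn.faces_le none
  have f2 := c2.conn.faces_le none
  have f3 := card_union_add_card_inter T1.faces T2.faces
  have t1 : T1.faces = (univ.filter fun e => inr (T.w e) ∉ S).image T.hd := Tri.contract_faces
  have t2 : T2.faces = (univ.filter fun e => inr (T.b e) ∉ swS Sᶜ).image T.hd :=
    Tri.contract_faces (T := T.swap)
  have f4 : T1.faces ∪ T2.faces = T.faces := by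
    rw [t1, t2, Tri.faces, ← image_union]; congr 1; ext e
    have := Tri.b_mem (h0 := h0) (e := e)
    simp only [mem_union, mem_filter, mem_univ, true_and, mem_swS, swap_inr, mem_compl,
      not_not, iff_true]
    tauto
  have f5 : 3 ≤ (T1.faces ∩ T2.faces).card := by
    obtain ⟨a, b, c, -, -, -, h, ha, hb, hc⟩ := Tri.cut_tri hl h3 h0
    have : ({T.hd a, T.hd b, T.hd c} : Finset F).card = 3 := by
      refine card_eq_three.2 ⟨_, _, _, ?_, ?_, ?_, rfl⟩
      · rw [ha]; exact (hl b).symm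
      · rw [hc]; exact hl a
      · rw [hb]; exact (hl c).symm
    rw [← this]
    refine card_le_card ?_
    have key : ∀ e ∈ T.cutB S, T.hd e ∈ T1.faces ∩ T2.faces := by
      intro e he
      rw [Tri.mem_cutB] at he
      rw [t1, t2, mem_inter]
      exact ⟨mem_image_of_mem _ (by simpa using he.2),
        mem_image_of_mem _ (by simpa using he.1)⟩
    intro v hv
    simp only [mem_insert, mem_singleton] at hv
    rcases hv with rfl | rfl | rfl <;> exact key _ ((h _).2 (by simp))
  rw [f4, heu, hn] at f3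
  have hw0 : inr (T.w e0) ∉ S := fun h => hS0 (Tri.b_mem (h0 := h0) h)
  obtain ⟨M1, hM1, g1⟩ := ih _ (by omega) _ _ _ _ T1 rfl c1 (by omega) ⟨e0, hw0⟩
  obtain ⟨e1, he1, he1'⟩ := Tri.contract_none g1
  obtain ⟨M2, hM2, g2⟩ := ih _ (by omega) _ _ _ _ T2 rfl c2 (by omega)
    ⟨e1.1, by simpa [Tri.swap] using he1⟩
  obtain ⟨e2, he2, he2'⟩ := Tri.contract_none g2
  have he12 : e1.1 = e2.1 :=
    congrArg Subtype.val ((he2' _ (by simpa [Tri.swap] using e1.2)).1 hM2)
  let M : Finset E := M1.image Subtype.val ∪ M2.image Subtype.val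
  have m1 : ∀ e : {e // inr (T.w e) ∉ S}, e.1 ∈ M ↔ e ∈ M1 := by
    intro e
    refine ⟨fun h => ?_, fun h => mem_union_left _ (mem_image_of_mem _ h)⟩
    rcases mem_union.1 h with h | h
    · obtain ⟨e', a, b⟩ := mem_image.1 h
      exact Subtype.ext b ▸ a
    · obtain ⟨e', a, b⟩ := mem_image.1 h
      have c : e' = e2 := (he2' e' (by simpa [Tri.swap, b] using e.2)).1 a
      have d : e = e1 := Subtype.ext (by rw [← b, c, he12])
      rw [d]; exact (he1' e1 he1).2 rfl
  have m2 : ∀ e : {e // inr (T.swap.w e) ∉ swS Sᶜ}, e.1 ∈ M ↔ e ∈ M2 := by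
    intro e
    refine ⟨fun h => ?_, fun h => mem_union_right _ (mem_image_of_mem _ h)⟩
    rcases mem_union.1 h with h | h
    · obtain ⟨e', a, b⟩ := mem_image.1 h
      have c : e' = e1 := (he1' e' (by simpa [Tri.swap, b] using e.2)).1 a
      have d : e = e2 := Subtype.ext (by rw [← b, c, he12])
      rw [d]; exact (he2' e2 he2).2 rfl
    · obtain ⟨e', a, b⟩ := mem_image.1 h
      exact Subtype.ext b ▸ a
  obtain ⟨p1, p2, p3⟩ := Tri.contract_good g1 m1
  obtain ⟨q1, q2, q3⟩ := Tri.contract_good g2 m2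
  have hB : ∀ t, ∃! e, T.b e = t ∧ e ∈ M := by
    intro t
    by_cases h : inl t ∈ S
    · exact q2 t (by simpa using h)
    · exact p1 t h
  have hW : ∀ t, ∃! e, T.w e = t ∧ e ∈ M := by
    intro t
    by_cases h : inr t ∈ S
    · exact q1 t (by simpa using h)
    · exact p2 t h
  refine ⟨M, (m1 ⟨e0, hw0⟩).2 hM1, hB, hW, fun R hR => ?_⟩
  obtain ⟨P, hP⟩ := Tri.cut_parity h3 h0 hB hW (e1 := e1.1) (T.mem_cutB.2 ⟨he1, e1.2⟩) (by
    intro e he
    rw [Tri.mem_cutB] at he
    rw [m1 ⟨e, he.2⟩, he1' _ he.1, Subtype.ext_iff]) R hR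
  have r1 := p3 R P hR hP
  have r2 := q3 (swS R) P (fun e he => by simpa [Tri.swap] using (hR e he).symm) (by
    intro e he hM
    have : e ∈ T.cutB S := by simpa [Tri.mem_cutB, Tri.swap, and_comm] using he
    rw [← hP e this hM, ← hR e hM]; simp [Tri.swap])
  have r3 : ∀ x, x ∈ R ↔ P := by
    intro x
    by_cases h : x ∈ S
    · simpa using r2 x.swap (by simpa using h)
    · exact r1 x h
  by_cases h : P
  · exact Or.inr (eq_univ_of_forall fun x => (r3 x).2 h)
  · exact Or.inl (eq_empty_of_forall_notMem fun x hx => h ((r3 x).1 hx))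

end Vale.Agent.P039
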