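import Mathlib

open Finset

namespace Vale.Agent.P039

universe u

/-- three elements forming the fibre of `g` over `t`, arranged as a directed triangle -/
def TriFib {E X F : Type u} (g : E → X) (hd tl : E → F) (t : X) : Prop :=
  ∃ e0 e1 e2 : E, e0 ≠ e1 ∧ e1 ≠ e2 ∧ e0 ≠ e2 ∧ (∀ e, g e = t ↔ e = e0 ∨ e = e1 ∨ e = e2) ∧
    hd e0 = tl e1 ∧ hd e1 = tl e2 ∧ hd e2 = tl e0

/-- A cubic bipartite map together with its dual oriented edges. -/
structure Tri (E B W F : Type u) where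
  b : E → B
  w : E → W
  hd : E → F
  tl : E → F
  blk : ∀ t, TriFib b hd tl t
  wht : ∀ t, TriFib w hd tl t

section fib
variable {E X F : Type u} [Fintype E] [DecidableEq E] [DecidableEq X] {g : E → X} {hd tl : E → F}

lemma fib_sum {M : Type*} [AddCommMonoid M] {t : X} {e0 e1 e2 : E} (h01 : e0 ≠ e1) (h12 : e1 ≠ e2)
    (h02 : e0 ≠ e2) (h : ∀ e, g e = t ↔ e = e0 ∨ e = e1 ∨ e = e2) (α : E → M) :
    ∑ e with g e = t, α e = α e0 + α e1 + α e2 := by
  have : (univ.filter fun e => g e = t) = {e0, e1, e2} := by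
    ext e; simp [h]
  rw [this, sum_insert (by simp [h01, h02]), sum_insert (by simp [h12]), sum_singleton, add_assoc]

lemma fib_card {t : X} (h : TriFib g hd tl t) : #{e | g e = t} = 3 := by
  obtain ⟨e0, e1, e2, h01, h12, h02, h, -⟩ := h
  rw [card_eq_sum_ones, fib_sum h01 h12 h02 h]

lemma fib_orth {K : Type*} [CommRing K] [Fintype X] (h : ∀ t, TriFib g hd tl t) (η : X → K)
    (f : F → K) : ∑ e, η (g e) * (f (hd e) - f (tl e)) = 0 := by
  rw [← sum_fiberwise univ g]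
  refine sum_eq_zero fun t _ => ?_
  obtain ⟨e0, e1, e2, h01, h12, h02, h, a0, a1, a2⟩ := h t
  rw [fib_sum h01 h12 h02 h, (h e0).2 (by simp), (h e1).2 (by simp), (h e2).2 (by simp),
    a0, a1, a2]
  ring

omit [DecidableEq E] in
lemma fib_sum_set {M : Type*} [AddCommMonoid M] [Fintype X] (p : X → Prop) [DecidablePred p]
    (α : E → M) : ∑ e with p (g e), α e = ∑ t with p t, ∑ e with g e = t, α e := by
  rw [← sum_fiberwise_of_maps_to (s := univ.filter fun e => p (g e)) (t := univ.filter p) (g := g)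
    (by intro e he; simpa using he)]
  refine sum_congr rfl fun t ht => sum_congr ?_ fun _ _ => rfl
  ext e
  simp only [mem_filter, mem_univ, true_and] at ht ⊢
  constructor
  · exact fun h => h.2
  · rintro rfl; exact ⟨ht, rfl⟩

lemma fib_card_set [Fintype X] (h : ∀ t, TriFib g hd tl t) (p : X → Prop) [DecidablePred p] :
    #{e | p (g e)} = 3 * #{t | p t} := by
  rw [card_eq_sum_ones, fib_sum_set]
  simp only [← card_eq_sum_ones, fib_card (h _)]
  simp [mul_comm]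

omit [Fintype E] [DecidableEq E] [DecidableEq X] in
lemma fib_const {K : Type*} {t : X} (h : TriFib g hd tl t) (f : F → K)
    (hf : ∀ e, g e = t → f (hd e) = f (tl e)) {e e' : E} (he : g e = t) (he' : g e' = t) :
    f (hd e) = f (hd e') := by
  obtain ⟨e0, e1, e2, h01, h12, h02, h, a0, a1, a2⟩ := h
  have b0 := hf e0 ((h e0).2 (by simp))
  have b1 := hf e1 ((h e1).2 (by simp))
  have b2 := hf e2 ((h e2).2 (by simp))
  rw [← a2] at b0; rw [← a0] at b1; rw [← a1] at b2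
  have key : ∀ e, g e = t → f (hd e) = f (hd e0) := by
    intro e he
    rcases (h e).1 he with rfl | rfl | rfl
    · rfl
    · exact b1
    · exact b0.symm
  rw [key e he, key e' he']

omit [Fintype E] [DecidableEq E] [DecidableEq X] in
lemma fib_tl {t : X} (h : TriFib g hd tl t) {e : E} (he : g e = t) :
    ∃ e', g e' = t ∧ hd e' = tl e := by
  obtain ⟨e0, e1, e2, h01, h12, h02, h, a0, a1, a2⟩ := h
  rcases (h e).1 he with rfl | rfl | rfl
  · exact ⟨e2, (h _).2 (by simp), a2⟩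
  · exact ⟨e0, (h _).2 (by simp), a0⟩
  · exact ⟨e1, (h _).2 (by simp), a1⟩

omit [Fintype E] [DecidableEq E] [DecidableEq X] in
lemma fib_ne {t : X} (h : TriFib g hd tl t) : ∃ e, g e = t := by
  obtain ⟨e0, e1, e2, h01, h12, h02, h, a0, a1, a2⟩ := h
  exact ⟨e0, (h _).2 (by simp)⟩

end fib

section la
variable {X E F : Type*} [Fintype X] [Fintype E] [Fintype F] [DecidableEq X] [DecidableEq E]
  [DecidableEq F]

/-- extension by zero -/
def ext0 (S : Finset X) : (S → ℝ) →ₗ[ℝ] (X → ℝ) where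
  toFun η x := if h : x ∈ S then η ⟨x, h⟩ else 0
  map_add' η η' := by ext x; by_cases h : x ∈ S <;> simp [h]
  map_smul' c η := by ext x; by_cases h : x ∈ S <;> simp [h]

omit [Fintype X] in
lemma ext0_not {S : Finset X} (η : S → ℝ) {x : X} (h : x ∉ S) : ext0 S η x = 0 := by
  simp [ext0, h]

omit [Fintype X] in
lemma ext0_inj {S : Finset X} (η : S → ℝ) (h : ext0 S η = 0) : η = 0 := by
  ext ⟨x, hx⟩
  have := congrFun h x
  simpa [ext0, hx] using this

/-- the combined map -/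
def comb (SX : Finset X) (SE : Finset E) (SF : Finset F) (p : (X → ℝ) →ₗ[ℝ] (E → ℝ))
    (q : (F → ℝ) →ₗ[ℝ] (E → ℝ)) : ((SX → ℝ) × (SF → ℝ)) →ₗ[ℝ] (SE → ℝ) :=
  (LinearMap.funLeft ℝ ℝ (Subtype.val : SE → E)) ∘ₗ
    (LinearMap.coprod (p ∘ₗ ext0 SX) (q ∘ₗ ext0 SF))

omit [Fintype X] [Fintype F] [DecidableEq E] in
lemma comb_inj (SX : Finset X) (SE : Finset E) (SF : Finset F) (p : (X → ℝ) →ₗ[ℝ] (E → ℝ))
    (q : (F → ℝ) →ₗ[ℝ] (E → ℝ)) (orth : ∀ η f, ∑ e, p η e * q f e = 0)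
    (hsupp : ∀ η : X → ℝ, (∀ x, x ∉ SX → η x = 0) → ∀ e, e ∉ SE → p η e = 0)
    (hp : ∀ η : X → ℝ, (∀ x, x ∉ SX → η x = 0) → p η = 0 → η = 0)
    (hq : ∀ f : F → ℝ, (∀ x, x ∉ SF → f x = 0) → (∀ e ∈ SE, q f e = 0) → f = 0) :
    Function.Injective (comb SX SE SF p q) := by
  rw [injective_iff_map_eq_zero]
  rintro ⟨η, f⟩ h
  have h1 : ∀ e ∈ SE, p (ext0 SX η) e + q (ext0 SF f) e = 0 := fun e he => by
    simpa [comb] using congrFun h ⟨e, he⟩
  have h2 := hsupp (ext0 SX η) (fun x hx => ext0_not η hx)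
  have h3 : ∑ e, p (ext0 SX η) e * p (ext0 SX η) e = 0 := by
    have := orth (ext0 SX η) (ext0 SF f)
    rw [← neg_eq_zero, ← sum_neg_distrib] at this
    rw [← this]
    refine sum_congr rfl fun e _ => ?_
    by_cases he : e ∈ SE
    · have := h1 e he
      rw [eq_neg_of_add_eq_zero_right this]; ring
    · simp [h2 e he]
  rw [sum_eq_zero_iff_of_nonneg (fun e _ => mul_self_nonneg _)] at h3
  have h4 : p (ext0 SX η) = 0 := by
    ext e; simpa using h3 e (mem_univ _)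
  have h5 := ext0_inj η (hp _ (fun x hx => ext0_not η hx) h4)
  have h6 := ext0_inj f (hq _ (fun x hx => ext0_not f hx) (fun e he => by
    simpa [h4] using h1 e he))
  simp [h5, h6]

omit [Fintype X] [Fintype F] [DecidableEq E] in
lemma ineq_general (SX : Finset X) (SE : Finset E) (SF : Finset F) (p : (X → ℝ) →ₗ[ℝ] (E → ℝ))
    (q : (F → ℝ) →ₗ[ℝ] (E → ℝ)) (orth : ∀ η f, ∑ e, p η e * q f e = 0)
    (hsupp : ∀ η : X → ℝ, (∀ x, x ∉ SX → η x = 0) → ∀ e, e ∉ SE → p η e = 0)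
    (hp : ∀ η : X → ℝ, (∀ x, x ∉ SX → η x = 0) → p η = 0 → η = 0)
    (hq : ∀ f : F → ℝ, (∀ x, x ∉ SF → f x = 0) → (∀ e ∈ SE, q f e = 0) → f = 0) :
    SX.card + SF.card ≤ SE.card := by
  have := LinearMap.finrank_le_finrank_of_injective (comb_inj SX SE SF p q orth hsupp hp hq)
  simpa [Module.finrank_prod] using this

omit [Fintype X] [Fintype F] [DecidableEq E] in
lemma exact_general (SX : Finset X) (SF : Finset F) (p : (X → ℝ) →ₗ[ℝ] (E → ℝ))
    (q : (F → ℝ) →ₗ[ℝ] (E → ℝ)) (orth : ∀ η f, ∑ e, p η e * q f e = 0)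
    (hp : ∀ η : X → ℝ, (∀ x, x ∉ SX → η x = 0) → p η = 0 → η = 0)
    (hq : ∀ f : F → ℝ, (∀ x, x ∉ SF → f x = 0) → (∀ e, q f e = 0) → f = 0)
    (hc : SX.card + SF.card = Fintype.card E) (z : E → ℝ) (hz : ∀ f, ∑ e, z e * q f e = 0) :
    ∃ η : X → ℝ, (∀ x, x ∉ SX → η x = 0) ∧ p η = z := by
  have hi := comb_inj SX univ SF p q orth (by simp) hp (fun f h1 h2 => hq f h1 (by simpa using h2))
  have hs : Function.Surjective (comb SX univ SF p q) := by
    rwa [← LinearMap.injective_iff_surjective_of_finrank_eq_finrank]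
    simpa [Module.finrank_prod] using hc
  obtain ⟨⟨η, f⟩, h⟩ := hs (fun e => z e)
  have h1 : ∀ e, p (ext0 SX η) e + q (ext0 SF f) e = z e := fun e => by
    simpa [comb] using congrFun h ⟨e, mem_univ _⟩
  refine ⟨ext0 SX η, fun x hx => ext0_not η hx, ?_⟩
  have h3 : ∑ e, q (ext0 SF f) e * q (ext0 SF f) e = 0 := by
    have a1 := orth (ext0 SX η) (ext0 SF f)
    have a2 := hz (ext0 SF f)
    simp only [← h1, add_mul, sum_add_distrib, a1, zero_add] at a2
    exact a2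
  rw [sum_eq_zero_iff_of_nonneg (fun e _ => mul_self_nonneg _)] at h3
  ext e
  have := h3 e (mem_univ _)
  rw [← h1 e, mul_self_eq_zero.1 this, add_zero]

end la

end Vale.Agent.P039
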