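import Vale.Agent.P039.Disk

open Finset Sum

namespace Vale.Agent.P039

universe u

set_option linter.unusedSectionVars false

variable {E B W F : Type u} [Fintype E] [Fintype B] [Fintype W] [DecidableEq E] [DecidableEq B]
  [DecidableEq W] [DecidableEq F]

structure Cor (T : Tri E B W F) where
  eb : B → Fin 3 → E
  c : B → Fin 3 → F
  b_eb : ∀ t j, T.b (eb t j) = t
  fib : ∀ e, ∃ j, e = eb (T.b e) j
  inj : ∀ t j j', eb t j = eb t j' → j = j'
  tl_eb : ∀ t j, T.tl (eb t j) = c t (j + 1)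
  hd_eb : ∀ t j, T.hd (eb t j) = c t (j + 2)

lemma Tri.exists_cor (T : Tri E B W F) : Nonempty (Cor T) := by
  choose e0 e1 e2 h01 h12 h02 h a0 a1 a2 using T.blk
  refine ⟨⟨fun t => ![e0 t, e1 t, e2 t], fun t => ![T.tl (e2 t), T.tl (e0 t), T.tl (e1 t)],
    ?_, ?_, ?_, ?_, ?_⟩⟩
  · intro t j
    fin_cases j <;> simp [h]
  · intro e
    rcases (h (T.b e) e).1 rfl with h | h | h
    · exact ⟨0, h⟩
    · exact ⟨1, h⟩
    · exact ⟨2, h⟩
  · intro t j j'
    have := h01 t; have := h12 t; have := h02 t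
    have := (h01 t).symm; have := (h12 t).symm; have := (h02 t).symm
    fin_cases j <;> fin_cases j' <;> simp [*]
  · intro t j
    fin_cases j <;> rfl
  · intro t j
    fin_cases j
    · exact a0 t
    · exact a1 t
    · exact a2 t

/-- third index -/
def thd (a b : Fin 3) : Fin 3 := -a - b

noncomputable def sg (a b : Fin 3) : ℝ := if b = a + 1 then 1 else -1

lemma thd_ne_left : ∀ a b : Fin 3, a ≠ b → thd a b ≠ a := by decide
lemma thd_ne_right : ∀ a b : Fin 3, a ≠ b → thd a b ≠ b := by decide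
lemma thd_thd : ∀ a b : Fin 3, thd a (thd a b) = b := by decide
lemma thd_comm : ∀ a b : Fin 3, thd a b = thd b a := by decide
lemma thd_thd' : ∀ a b : Fin 3, thd b (thd a b) = a := by decide
lemma eq_thd : ∀ a b c : Fin 3, a ≠ b → a ≠ c → c ≠ b → c = thd a b := by decide
lemma thd_cases : ∀ a b : Fin 3, a ≠ b → (b = a + 1 ∧ thd a b + 1 = a ∧ thd a b + 2 = b) ∨
    (b ≠ a + 1 ∧ thd a b + 2 = a ∧ thd a b + 1 = b) := by decide
lemma sg_swap {a b : Fin 3} (h : a ≠ b) : sg b a = - sg a b := by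
  have : ∀ a b : Fin 3, a ≠ b → (a = b + 1 ↔ ¬ b = a + 1) := by decide
  unfold sg
  by_cases h1 : b = a + 1
  · rw [if_pos h1, if_neg (by rw [this a b h]; exact not_not.2 h1)]
  · rw [if_neg h1, if_pos ((this a b h).2 h1), neg_neg]
lemma sg_thd {a b : Fin 3} (h : a ≠ b) : sg a (thd a b) = - sg a b := by
  have : ∀ a b : Fin 3, a ≠ b → (thd a b = a + 1 ↔ ¬ b = a + 1) := by decide
  unfold sg
  by_cases h1 : b = a + 1
  · rw [if_pos h1, if_neg (by rw [this a b h]; exact not_not.2 h1)]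
  · rw [if_neg h1, if_pos ((this a b h).2 h1), neg_neg]
lemma sg_cases (a b : Fin 3) : sg a b = 1 ∨ sg a b = -1 := by
  unfold sg; split_ifs <;> simp

namespace Cor

variable {T : Tri E B W F} (K : Cor T)

lemma fib_iff (t : B) (e : E) : T.b e = t ↔ e = K.eb t 0 ∨ e = K.eb t 1 ∨ e = K.eb t 2 := by
  constructor
  · rintro rfl
    obtain ⟨j, hj⟩ := K.fib e
    fin_cases j
    · exact Or.inl hj
    · exact Or.inr (Or.inl hj)
    · exact Or.inr (Or.inr hj)
  · rintro (rfl | rfl | rfl) <;> exact K.b_eb _ _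

lemma sum_fib {M : Type*} [AddCommMonoid M] (t : B) (α : E → M) :
    ∑ e with T.b e = t, α e = α (K.eb t 0) + α (K.eb t 1) + α (K.eb t 2) :=
  fib_sum (fun h => by simpa using K.inj _ _ _ h) (fun h => by simpa using K.inj _ _ _ h)
    (fun h => by simpa using K.inj _ _ _ h) (K.fib_iff t) α

lemma dir (t : B) {a b : Fin 3} (h : a ≠ b) :
    T.Dir t (K.eb t (thd a b)) (sg a b) (K.c t a) (K.c t b) := by
  refine ⟨K.b_eb _ _, ?_⟩
  rw [K.tl_eb, K.hd_eb]
  rcases thd_cases a b h with ⟨h1, h2, h3⟩ | ⟨h1, h2, h3⟩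
  · left; rw [h2, h3]; exact ⟨if_pos h1, rfl, rfl⟩
  · right; rw [h2, h3]; exact ⟨if_neg h1, rfl, rfl⟩

lemma c_hd (t : B) (j : Fin 3) : K.c t j = T.hd (K.eb t (j + 1)) := by
  rw [K.hd_eb]; congr 1; revert j; decide

lemma c_mem (t : B) (j : Fin 3) : K.c t j ∈ T.faces := by
  rw [K.c_hd]; exact T.hd_mem_faces _

lemma c_inj (hl : ∀ e, T.hd e ≠ T.tl e) (t : B) : Function.Injective (K.c t) := by
  intro a b h
  by_contra hne
  have := hl (K.eb t (thd a b))
  rcases (K.dir t hne).2 with ⟨-, h1, h2⟩ | ⟨-, h1, h2⟩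
  · exact this (by rw [h1, h2, h])
  · exact this (by rw [h1, h2, h])

/-- states as choices of corners -/
def St (t0 : B) (r : B → Fin 3) : Prop :=
  (∀ t, t ≠ t0 → ∀ j, K.c t (r t) ≠ K.c t0 j) ∧
    ∀ t t', t ≠ t0 → t' ≠ t0 → K.c t (r t) = K.c t' (r t') → t = t'

def nonroot (t0 : B) : Finset F := T.faces \ univ.image (K.c t0)

lemma card_nonroot (hl : ∀ e, T.hd e ≠ T.tl e) (heu : T.faces.card = Fintype.card B + 2)
    (t0 : B) : (K.nonroot t0).card = (univ.erase t0).card := by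
  rw [nonroot, card_sdiff_of_subset (by
    intro v hv
    obtain ⟨j, -, rfl⟩ := mem_image.1 hv
    exact K.c_mem _ _), card_image_of_injective _ (K.c_inj hl t0), heu,
    card_erase_of_mem (mem_univ _), card_univ, card_univ]
  have : 0 < Fintype.card B := Fintype.card_pos_iff.2 ⟨t0⟩
  simp only [Fintype.card_fin]; omega

lemma St.surj {K : Cor T} (hl : ∀ e, T.hd e ≠ T.tl e) (heu : T.faces.card = Fintype.card B + 2)
    {t0 : B} {r : B → Fin 3} (h : K.St t0 r) {v : F} (hv : v ∈ K.nonroot t0) :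
    ∃ t, t ≠ t0 ∧ K.c t (r t) = v := by
  have h1 : (univ.erase t0).image (fun t => K.c t (r t)) = K.nonroot t0 := by
    refine eq_of_subset_of_card_le ?_ ?_
    · intro v hv
      obtain ⟨t, ht, rfl⟩ := mem_image.1 hv
      rw [nonroot, mem_sdiff]
      refine ⟨K.c_mem _ _, fun h' => ?_⟩
      obtain ⟨j, -, hj⟩ := mem_image.1 h'
      exact h.1 t (ne_of_mem_erase ht) j hj.symm
    · rw [K.card_nonroot hl heu, card_image_of_injOn]
      intro t ht t' ht' h'
      exact h.2 t t' (ne_of_mem_erase ht) (ne_of_mem_erase ht') h'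
  rw [← h1] at hv
  obtain ⟨t, ht, rfl⟩ := mem_image.1 hv
  exact ⟨t, ne_of_mem_erase ht, rfl⟩

lemma St.isState {K : Cor T} (hl : ∀ e, T.hd e ≠ T.tl e)
    (heu : T.faces.card = Fintype.card B + 2) {t0 : B} {r : B → Fin 3} (h : K.St t0 r) :
    T.IsState t0 (fun t => K.c t (r t)) where
  corner t _ := ⟨K.eb t (r t + 1), K.b_eb _ _, (K.c_hd _ _).symm⟩
  inj := h.2
  surj v hv h' := h.surj hl heu (by
    rw [nonroot, mem_sdiff]
    refine ⟨hv, fun h'' => ?_⟩
    obtain ⟨j, -, hj⟩ := mem_image.1 h''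
    exact h' (K.eb t0 (j + 1)) (K.b_eb _ _) (by rw [← K.c_hd, hj]))

lemma St.disk {K : Cor T} (hc : T.Conn3) (heu : T.faces.card = Fintype.card B + 2)
    {t0 : B} {r s : B → Fin 3} (h : K.St t0 r) {G : Finset B} (ht0 : t0 ∉ G)
    (hrs : ∀ t ∈ G, r t ≠ s t)
    (hG : MinClosed (fun t => K.c t (r t)) (fun t => K.c t (s t)) G) :
    ∃ lam : ℝ, (lam = 1 ∨ lam = -1) ∧ ∑ t ∈ G, sg (r t) (s t) = -3 * lam ∧
      ∃ n : ℕ, n + 1 ≤ Fintype.card W ∧
      ∀ (α : E → ℝ) (p q : ℝ), (∀ t, t ≠ t0 → ∑ e with T.b e = t, α e = p) →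
        (∀ x, ∑ e with T.w e = x, α e = q) →
        ∑ t ∈ G, sg (r t) (s t) * α (K.eb t (thd (r t) (s t))) = lam * (p * n - q * (n + 1)) := by
  obtain ⟨lam, h1, n, h2, h3⟩ := Tri.disk hc.conn heu (h.isState (hc.no_loop heu) heu) ht0 hG
    (ed := fun t => K.eb t (thd (r t) (s t))) (σ := fun t => sg (r t) (s t))
    (fun t ht => K.dir t (hrs t ht))
  refine ⟨lam, h1, ?_, n, h2, h3⟩
  have := h3 (fun _ => 1) 3 3 (fun t _ => by simp [fib_card (T.blk t)])
    (fun t => by simp [fib_card (T.wht t)])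
  simp only [mul_one] at this
  rw [this]; ring

end Cor

lemma odd_of_sum_sg {B : Type*} [DecidableEq B] (G : Finset B) (σ : B → ℝ)
    (h : ∀ t ∈ G, σ t = 1 ∨ σ t = -1) {lam : ℝ} (hl : lam = 1 ∨ lam = -1)
    (hs : ∑ t ∈ G, σ t = -3 * lam) : Odd G.card := by
  have : ∃ k : ℤ, ∑ t ∈ G, σ t = G.card - 2 * k := by
    clear hs
    induction G using Finset.induction_on with
    | empty => exact ⟨0, by simp⟩
    | insert a G ha ih =>
      obtain ⟨k, hk⟩ := ih (fun t ht => h t (mem_insert_of_mem ht))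
      rw [sum_insert ha, card_insert_of_notMem ha, hk]
      rcases h a (mem_insert_self _ _) with h | h
      · exact ⟨k, by rw [h]; push_cast; ring⟩
      · exact ⟨k + 1, by rw [h]; push_cast; ring⟩
  obtain ⟨k, hk⟩ := this
  rw [hk] at hs
  rw [Nat.odd_iff]
  rcases hl with rfl | rfl
  · have h1 : (G.card : ℝ) + 3 = 2 * k := by linarith
    have : (G.card : ℤ) + 3 = 2 * k := by exact_mod_cast h1
    omega
  · have h1 : (G.card : ℝ) = 2 * k + 3 := by linarith
    have : (G.card : ℤ) = 2 * k + 3 := by exact_mod_cast h1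
    omega

end Vale.Agent.P039
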