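import Vale.Agent.P039.Corner

open Finset Sum

namespace Vale.Agent.P039

universe u

set_option linter.unusedSectionVars false

lemma ineq_dual {X E F : Type*} [Fintype E] [DecidableEq E] (SE : Finset E) (SX : Finset X)
    (SF : Finset F) (P : X → E → ℝ) (Q : F → E → ℝ)
    (h : ∀ z : E → ℝ, (∀ e, e ∉ SE → z e = 0) → (∀ x ∈ SX, ∑ e, z e * P x e = 0) →
      (∀ v ∈ SF, ∑ e, z e * Q v e = 0) → z = 0) : SE.card ≤ SX.card + SF.card := by
  let L : (E → ℝ) →ₗ[ℝ] ((SX → ℝ) × (SF → ℝ)) :=
    { toFun := fun z => (fun x => ∑ e, z e * P x e, fun v => ∑ e, z e * Q v e)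
      map_add' := by intro z z'; ext <;> simp [add_mul, sum_add_distrib]
      map_smul' := by intro c z; ext <;> simp [mul_sum, mul_assoc] }
  have hi : Function.Injective (L ∘ₗ ext0 SE) := by
    rw [injective_iff_map_eq_zero]
    intro z hz
    refine ext0_inj z (h _ (fun e he => ext0_not z he) (fun x hx => ?_) (fun v hv => ?_))
    · exact congrFun (congrArg Prod.fst hz) ⟨x, hx⟩
    · exact congrFun (congrArg Prod.snd hz) ⟨v, hv⟩
  have := LinearMap.finrank_le_finrank_of_injective hi
  simpa [Module.finrank_prod] using this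

variable {E B W F : Type u} [Fintype E] [Fintype B] [Fintype W] [DecidableEq E] [DecidableEq B]
  [DecidableEq W] [DecidableEq F]

namespace Tri

/-- no nontrivial 3-cut with black ends away from the root -/
def NoTri (T : Tri E B W F) (t0 : B) : Prop :=
  ∀ S : Finset (B ⊕ W), inl t0 ∉ S → (T.cutB S).card = 3 → (T.cutW S).card = 0 → ∃ t, S = {inl t}

lemma region_count {T : Tri E B W F} (hc : T.Conn3) (heu : T.faces.card = Fintype.card B + 2)
    {t0 : B} (hn : T.NoTri t0) (Z : Finset F) (hZ : ∀ e, T.b e = t0 → T.hd e ∈ Z) :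
    #{e | T.hd e ∈ Z ∧ T.tl e ∈ Z} + 3 ≤
      2 * Z.card + #{t | t ≠ t0 ∧ ∀ e, T.b e = t → T.hd e ∈ Z} := by
  classical
  set EZ : Finset E := {e | T.hd e ∈ Z ∧ T.tl e ∈ Z} with hEZ
  have hZ' : ∀ e, T.b e = t0 → e ∈ EZ := by
    intro e he
    obtain ⟨e', a, b⟩ := fib_tl (T.blk t0) he
    simp only [EZ, mem_filter, mem_univ, true_and]
    exact ⟨hZ e he, b ▸ hZ e' a⟩
  let s : Setoid (B ⊕ W) := ⟨fun x y => ∀ S : Finset (B ⊕ W),
      (∀ e, e ∉ EZ → (inl (T.b e) ∈ S ↔ inr (T.w e) ∈ S)) → (x ∈ S ↔ y ∈ S),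
    fun _ _ _ => Iff.rfl, fun h S hS => (h S hS).symm, fun h h' S hS => (h S hS).trans (h' S hS)⟩
  let κ : B ⊕ W → Quotient s := Quotient.mk s
  have hκ : ∀ x y, κ x = κ y ↔ ∀ S : Finset (B ⊕ W),
      (∀ e, e ∉ EZ → (inl (T.b e) ∈ S ↔ inr (T.w e) ∈ S)) → (x ∈ S ↔ y ∈ S) :=
    fun x y => Quotient.eq
  have hκe : ∀ e, e ∉ EZ → κ (inl (T.b e)) = κ (inr (T.w e)) :=
    fun e he => (hκ _ _).2 fun S hS => hS e he
  obtain ⟨e0, he0⟩ := fib_ne (T.blk t0)
  have hA : EZ.card ≤ (univ.erase (κ (inl t0))).card + (Z.erase (T.hd e0)).card := by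
    refine ineq_dual EZ _ _ (fun q => T.D2 fun x => if κ x = q then 1 else 0)
      (fun v => T.D1 fun x => if x = v then 1 else 0) ?_
    intro z hz h1 h2
    obtain ⟨η, hη0, hη⟩ := hc.conn.exact heu t0 z (by
      intro f
      have : ∀ e, z e * T.D1 f e = ∑ v ∈ Z.erase (T.hd e0), (f v - f (T.hd e0)) *
          (z e * T.D1 (fun x => if x = v then 1 else 0) e) := by
        intro e
        by_cases he : e ∈ EZ
        · have key : ∀ a ∈ Z, ∑ v ∈ Z.erase (T.hd e0), (f v - f (T.hd e0)) *
              (if a = v then 1 else 0) = f a - f (T.hd e0) := by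
            intro a ha
            simp only [mul_ite, mul_one, mul_zero, sum_ite_eq, mem_erase, ha, and_true]
            split_ifs with h
            · rfl
            · rw [not_not.1 h, sub_self]
          simp only [EZ, mem_filter, mem_univ, true_and] at he
          simp only [D1_apply, mul_left_comm _ (z e), ← mul_sum, mul_sub, sum_sub_distrib,
            key _ he.1, key _ he.2]
          ring
        · simp [hz e he]
      simp only [this]
      rw [sum_comm]
      refine sum_eq_zero fun v hv => ?_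
      rw [← mul_sum, h2 v hv, mul_zero])
    have hc' : ∀ x y, κ x = κ y → η x = η y := by
      intro x y h
      have := (hκ x y).1 h (univ.filter fun a => η a = η y) (by
        intro e he
        have := congrFun hη e
        rw [hz e he, D2_apply, sub_eq_zero] at this
        simp [this])
      simpa using this
    let ζ : Quotient s → ℝ := Quotient.lift η (fun a b h => hc' a b (Quotient.sound h))
    have hζ : ∀ x, η x = ∑ q ∈ univ.erase (κ (inl t0)), ζ q * (if κ x = q then 1 else 0) := by
      intro x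
      simp only [mul_ite, mul_one, mul_zero, sum_ite_eq, mem_erase, mem_univ, and_true]
      split_ifs with h
      · rfl
      · rw [hc' _ _ (not_not.1 h), hη0]
    have h3 : ∑ e, z e * z e = 0 := by
      have : ∀ e, z e * z e = ∑ q ∈ univ.erase (κ (inl t0)), ζ q *
          (z e * T.D2 (fun x => if κ x = q then 1 else 0) e) := by
        intro e
        simp only [D2_apply, mul_left_comm _ (z e), ← mul_sum, mul_sub, sum_sub_distrib, ← hζ]
        rw [← mul_sub, ← D2_apply, hη]
      simp only [this]
      rw [sum_comm]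
      refine sum_eq_zero fun v hv => ?_
      rw [← mul_sum, h1 v hv, mul_zero]
    rw [sum_eq_zero_iff_of_nonneg (fun e _ => mul_self_nonneg _)] at h3
    ext e; simpa using h3 e (mem_univ _)
  let R : Quotient s → Finset (B ⊕ W) := fun q => univ.filter fun x => κ x = q
  let C3 : Finset B := {t | t ≠ t0 ∧ ∀ e, T.b e = t → T.hd e ∈ Z}
  let E' : Finset E := univ.filter fun e => κ (inl (T.b e)) ≠ κ (inr (T.w e))
  have hE' : E' ⊆ EZ := by
    intro e he
    by_contra h
    exact (mem_filter.1 he).2 (hκe e h)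
  have s1 : ∑ q, (T.cutB (R q)).card = E'.card := by
    rw [card_eq_sum_card_fiberwise (s := E') (t := univ) (f := fun e => κ (inl (T.b e))) (by simp)]
    refine sum_congr rfl fun q _ => ?_
    congr 1; ext e
    simp only [mem_cutB, R, E', mem_filter, mem_univ, true_and]
    constructor
    · rintro ⟨rfl, h⟩; exact ⟨fun h' => h h'.symm, rfl⟩
    · rintro ⟨h, rfl⟩; exact ⟨rfl, fun h' => h h'.symm⟩
  have s2 : ∑ q, (T.cutW (R q)).card = E'.card := by
    rw [card_eq_sum_card_fiberwise (s := E') (t := univ) (f := fun e => κ (inr (T.w e))) (by simp)]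
    refine sum_congr rfl fun q _ => ?_
    congr 1; ext e
    simp only [mem_cutW, R, E', mem_filter, mem_univ, true_and]
    constructor
    · rintro ⟨rfl, h⟩; exact ⟨h, rfl⟩
    · rintro ⟨h, rfl⟩; exact ⟨rfl, h⟩
  have s3 : ∑ q, #{t ∈ C3 | κ (inl t) = q} = C3.card :=
    (card_eq_sum_card_fiberwise (s := C3) (t := univ) (f := fun t => κ (inl t)) (by simp)).symm
  have hRne : ∀ q, (R q).Nonempty := by
    intro q
    obtain ⟨x, rfl⟩ := Quotient.exists_rep q
    exact ⟨x, by simp [R, κ]⟩
  have hq : ∀ q, 6 ≤ (T.cutB (R q)).card + 2 * (T.cutW (R q)).card +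
      3 * #{t ∈ C3 | κ (inl t) = q} + (if q = κ (inl t0) then 3 else 0) := by
    intro q
    split_ifs with h
    · have := hc (R q) (hRne q) (by
        intro h1
        have h2 : inr (T.w e0) ∈ R q := by rw [h1]; exact mem_univ _
        simp only [R, mem_filter, mem_univ, true_and, h] at h2
        have := (hκ _ _).1 h2 {inl t0} (by
          intro e he
          simp only [mem_singleton, inl.injEq, reduceCtorEq, iff_false]
          exact fun h => he (hZ' e h))
        simp at this)
      omega
    · have h0 : inl t0 ∉ R q := fun h' => h (mem_filter.1 h').2.symm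
      have a := hc (R q) (hRne q) (fun h1 => h0 (h1 ▸ mem_univ _))
      have b := T.card_eS_B (R q)
      have c := T.card_eS_W (R q)
      by_cases d : (T.cutB (R q)).card = 3 ∧ (T.cutW (R q)).card = 0
      · obtain ⟨t, ht⟩ := hn _ h0 d.1 d.2
        have h1 : inl t ∈ R q := by rw [ht]; exact mem_singleton_self _
        have : 0 < #{t ∈ C3 | κ (inl t) = q} := by
          refine card_pos.2 ⟨t, ?_⟩
          simp only [C3, mem_filter, mem_univ, true_and]
          refine ⟨⟨fun h => h0 (h ▸ h1), fun e he => ?_⟩, by simpa [R] using h1⟩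
          have h2 : inr (T.w e) ∉ R q := by rw [ht]; simp
          have : e ∈ E' := by
            simp only [R, E', mem_filter, mem_univ, true_and] at h1 h2 ⊢
            rw [he, h1]; exact Ne.symm h2
          exact (mem_filter.1 (hE' this)).2.1
        omega
      · omega
  have := sum_le_sum (s := univ) fun q _ => hq q
  simp only [sum_add_distrib, ← mul_sum, s1, s2, s3, sum_ite_eq', mem_univ, if_true, sum_const,
    smul_eq_mul] at this
  rw [card_erase_of_mem (mem_univ _), card_erase_of_mem (hZ e0 he0)] at hA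
  have h1 := card_le_card hE'
  have h2 : 0 < Z.card := card_pos.2 ⟨_, hZ e0 he0⟩
  have h3 : 0 < (univ : Finset (Quotient s)).card := card_pos.2 ⟨_, mem_univ (κ (inl t0))⟩
  change _ ≤ _ + C3.card
  omega

end Tri

end Vale.Agent.P039
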