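import Vale.Agent.P039.Basic

open Finset Sum

namespace Vale.Agent.P039

universe u

set_option linter.unusedSectionVars false

namespace Tri

variable {E B W F : Type u} [Fintype E] [Fintype B] [Fintype W] [DecidableEq E] [DecidableEq B]
  [DecidableEq W] [DecidableEq F] (T : Tri E B W F)

def D2 : (B ⊕ W → ℝ) →ₗ[ℝ] (E → ℝ) where
  toFun η e := η (inl (T.b e)) - η (inr (T.w e))
  map_add' η η' := by ext e; simp; ring
  map_smul' c η := by ext e; simp; ring

def D1 : (F → ℝ) →ₗ[ℝ] (E → ℝ) where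
  toFun f e := f (T.hd e) - f (T.tl e)
  map_add' η η' := by ext e; simp; ring
  map_smul' c η := by ext e; simp; ring

lemma D2_apply (η : B ⊕ W → ℝ) (e : E) : T.D2 η e = η (inl (T.b e)) - η (inr (T.w e)) := rfl
lemma D1_apply (f : F → ℝ) (e : E) : T.D1 f e = f (T.hd e) - f (T.tl e) := rfl

lemma orthK {K : Type*} [CommRing K] (η : B ⊕ W → K) (f : F → K) :
    ∑ e, (η (inl (T.b e)) - η (inr (T.w e))) * (f (T.hd e) - f (T.tl e)) = 0 := by
  simp only [sub_mul, sum_sub_distrib]
  rw [fib_orth T.blk (fun t => η (inl t)) f, fib_orth T.wht (fun t => η (inr t)) f, sub_self]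

lemma orth (η : B ⊕ W → ℝ) (f : F → ℝ) : ∑ e, T.D2 η e * T.D1 f e = 0 := T.orthK η f

def cutB (S : Finset (B ⊕ W)) : Finset E := {e | inl (T.b e) ∈ S ∧ inr (T.w e) ∉ S}
def cutW (S : Finset (B ⊕ W)) : Finset E := {e | inr (T.w e) ∈ S ∧ inl (T.b e) ∉ S}
def eS (S : Finset (B ⊕ W)) : Finset E := {e | inl (T.b e) ∈ S ∨ inr (T.w e) ∈ S}
def faces : Finset F := univ.image T.hd

def Conn : Prop :=
  ∀ S : Finset (B ⊕ W), (∀ e, inl (T.b e) ∈ S ↔ inr (T.w e) ∈ S) → S = ∅ ∨ S = univ

def Conn3 : Prop :=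
  ∀ S : Finset (B ⊕ W), S.Nonempty → S ≠ univ → 3 ≤ (T.cutB S).card + (T.cutW S).card

end Tri

def nB {B W : Type u} [Fintype B] [DecidableEq B] [DecidableEq W] (S : Finset (B ⊕ W)) : ℕ :=
  #{t : B | inl t ∈ S}
def nW {B W : Type u} [Fintype W] [DecidableEq B] [DecidableEq W] (S : Finset (B ⊕ W)) : ℕ :=
  #{t : W | inr t ∈ S}

lemma card_eq_nB_nW {B W : Type u} [Fintype B] [Fintype W] [DecidableEq B] [DecidableEq W]
    (S : Finset (B ⊕ W)) : S.card = nB S + nW S := by
  rw [← Finset.card_toLeft_add_card_toRight]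
  congr 1
  · unfold nB; congr 1; ext; simp
  · unfold nW; congr 1; ext; simp

namespace Tri

variable {E B W F : Type u} [Fintype E] [Fintype B] [Fintype W] [DecidableEq E] [DecidableEq B]
  [DecidableEq W] [DecidableEq F] (T : Tri E B W F)

lemma mem_cutB {S : Finset (B ⊕ W)} {e : E} :
    e ∈ T.cutB S ↔ inl (T.b e) ∈ S ∧ inr (T.w e) ∉ S := by simp [cutB]
lemma mem_cutW {S : Finset (B ⊕ W)} {e : E} :
    e ∈ T.cutW S ↔ inr (T.w e) ∈ S ∧ inl (T.b e) ∉ S := by simp [cutW]
lemma mem_eS {S : Finset (B ⊕ W)} {e : E} :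
    e ∈ T.eS S ↔ inl (T.b e) ∈ S ∨ inr (T.w e) ∈ S := by simp [eS]

lemma hd_mem_faces (e : E) : T.hd e ∈ T.faces := by simp [faces]
lemma tl_mem_faces (e : E) : T.tl e ∈ T.faces := by
  obtain ⟨e', -, h⟩ := fib_tl (T.blk (T.b e)) rfl
  rw [← h]; exact T.hd_mem_faces _

include T in
lemma cardE : Fintype.card E = 3 * Fintype.card B := by
  simpa using fib_card_set T.blk (fun _ => True)

include T in
lemma cardW : Fintype.card W = Fintype.card B := by
  have := T.cardE
  have h2 : Fintype.card E = 3 * Fintype.card W := by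
    simpa using fib_card_set T.wht (fun _ => True)
  omega

lemma card_eS_B (S : Finset (B ⊕ W)) : (T.eS S).card = 3 * nB S + (T.cutW S).card := by
  rw [nB, ← fib_card_set T.blk (fun t => inl t ∈ S), ← card_union_of_disjoint]
  · congr 1; ext e; simp [eS, cutW]; tauto
  · rw [disjoint_left]; intro e; simp [cutW]; tauto

lemma card_eS_W (S : Finset (B ⊕ W)) : (T.eS S).card = 3 * nW S + (T.cutB S).card := by
  rw [nW, ← fib_card_set T.wht (fun t => inr t ∈ S), ← card_union_of_disjoint]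
  · congr 1; ext e; simp [eS, cutB]; tauto
  · rw [disjoint_left]; intro e; simp [cutB]; tauto

lemma Conn3.conn {T : Tri E B W F} (h : T.Conn3) : T.Conn := by
  intro S hS
  by_contra hc
  push Not at hc
  have := h S hc.1 hc.2
  have a : T.cutB S = ∅ := by ext e; simp [mem_cutB, hS]
  have b : T.cutW S = ∅ := by ext e; simp [mem_cutW, hS]
  simp [a, b] at this

lemma Conn.const {T : Tri E B W F} (h : T.Conn) {K : Type*} (η : B ⊕ W → K)
    (hη : ∀ e, η (inl (T.b e)) = η (inr (T.w e))) (x y : B ⊕ W) : η x = η y := by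
  classical
  rcases h (univ.filter fun z => η z = η y) (by intro e; simp [hη e]) with h | h
  · have : y ∈ (univ.filter fun z => η z = η y) := by simp
    rw [h] at this; simp at this
  · have : x ∈ (univ.filter fun z => η z = η y) := by rw [h]; simp
    simpa using this

lemma Conn.face_zero {T : Tri E B W F} (hc : T.Conn) (S : Finset (B ⊕ W)) (f : F → ℝ)
    (hf : ∀ e ∈ T.eS S, f (T.hd e) = f (T.tl e))
    (hcut : ∀ e, ¬ (inl (T.b e) ∈ S ↔ inr (T.w e) ∈ S) → f (T.hd e) = 0)
    (e0 : E) (h0 : f (T.hd e0) = 0) : ∀ e ∈ T.eS S, f (T.hd e) = 0 := by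
  classical
  let S' : Finset (B ⊕ W) := {x ∈ S | ∃ e, (x = inl (T.b e) ∨ x = inr (T.w e)) ∧ f (T.hd e) ≠ 0}
  have hb : ∀ e, inl (T.b e) ∈ S' ↔ inl (T.b e) ∈ S ∧ f (T.hd e) ≠ 0 := by
    intro e
    simp only [S', mem_filter]
    refine and_congr_right fun hS => ⟨?_, fun h => ⟨e, Or.inl rfl, h⟩⟩
    rintro ⟨e', h1, h2⟩
    have h3 : T.b e' = T.b e := by simpa [eq_comm] using h1
    rwa [fib_const (T.blk (T.b e)) f (fun e'' he => hf _ (by simp [mem_eS, he, hS])) rfl h3]
  have hw : ∀ e, inr (T.w e) ∈ S' ↔ inr (T.w e) ∈ S ∧ f (T.hd e) ≠ 0 := by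
    intro e
    simp only [S', mem_filter]
    refine and_congr_right fun hS => ⟨?_, fun h => ⟨e, Or.inr rfl, h⟩⟩
    rintro ⟨e', h1, h2⟩
    have h3 : T.w e' = T.w e := by simpa [eq_comm] using h1
    rwa [fib_const (T.wht (T.w e)) f (fun e'' he => hf _ (by simp [mem_eS, he, hS])) rfl h3]
  rcases hc S' (by intro e; rw [hb, hw]; have := hcut e; tauto) with h | h
  · intro e he
    have h1 := hb e
    have h2 := hw e
    rw [h] at h1 h2
    rw [mem_eS] at he
    simp only [notMem_empty] at h1 h2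
    tauto
  · have h1 := hb e0
    rw [h] at h1
    simp [h0] at h1

/-- Euler inequality for a proper region. -/
lemma Conn.ineqS {T : Tri E B W F} (hc : T.Conn) (S : Finset (B ⊕ W)) (x1 : B ⊕ W) (hx : x1 ∉ S)
    (e1 : E) (he1 : e1 ∈ T.eS S)
    (hcut : ∀ f : F → ℝ, (∀ e ∈ T.eS S, f (T.hd e) = f (T.tl e)) → f (T.hd e1) = 0 →
      ∀ e, ¬ (inl (T.b e) ∈ S ↔ inr (T.w e) ∈ S) → f (T.hd e) = 0) :
    S.card + ((T.eS S).image T.hd).card ≤ (T.eS S).card + 1 := by
  have := ineq_general S (T.eS S) (((T.eS S).image T.hd).erase (T.hd e1)) T.D2 T.D1 T.orth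
    (by
      intro η hη e he
      rw [mem_eS, not_or] at he
      rw [D2_apply, hη _ he.1, hη _ he.2, sub_self])
    (by
      intro η hη h
      ext x
      rw [hc.const η (fun e => sub_eq_zero.1 (congrFun h e)) x x1, hη _ hx]; rfl)
    (by
      intro f hf h
      have h' : ∀ e ∈ T.eS S, f (T.hd e) = f (T.tl e) := fun e he => sub_eq_zero.1 (h e he)
      have h0 : f (T.hd e1) = 0 := hf _ (by simp)
      have := hc.face_zero S f h' (hcut f h' h0) e1 h0
      ext v
      by_cases hv : v ∈ (T.eS S).image T.hd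
      · obtain ⟨e, he, rfl⟩ := mem_image.1 hv
        exact this e he
      · exact hf v (by simp [hv]))
  rw [card_erase_of_mem (mem_image_of_mem _ he1)] at this
  have h2 : 0 < ((T.eS S).image T.hd).card := card_pos.2 ⟨_, mem_image_of_mem _ he1⟩
  omega

lemma Conn.hq {T : Tri E B W F} (hc : T.Conn) (e0 : E) (f : F → ℝ)
    (hf : ∀ x, x ∉ T.faces.erase (T.hd e0) → f x = 0) (h : ∀ e, T.D1 f e = 0) : f = 0 := by
  have h0 : f (T.hd e0) = 0 := hf _ (by simp)
  have := hc.face_zero univ f (fun e _ => sub_eq_zero.1 (h e)) (by simp) e0 h0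
  ext v
  by_cases hv : v ∈ T.faces
  · obtain ⟨e, he, rfl⟩ := mem_image.1 hv
    exact this e (by simp [mem_eS])
  · exact hf v (by simp [hv])

lemma Conn.hp {T : Tri E B W F} (hc : T.Conn) (x0 : B ⊕ W) (η : B ⊕ W → ℝ)
    (hη : ∀ x, x ∉ (univ : Finset (B ⊕ W)).erase x0 → η x = 0) (h : T.D2 η = 0) : η = 0 := by
  ext x
  rw [hc.const η (fun e => sub_eq_zero.1 (congrFun h e)) x x0, hη _ (by simp)]; rfl

/-- Euler inequality. -/
lemma Conn.faces_le {T : Tri E B W F} (hc : T.Conn) (t0 : B) :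
    T.faces.card ≤ Fintype.card B + 2 := by
  obtain ⟨e0, -⟩ := fib_ne (T.blk t0)
  have := ineq_general (univ.erase (inl t0)) univ (T.faces.erase (T.hd e0)) T.D2 T.D1 T.orth
    (by simp) (hc.hp _) (fun f h1 h2 => hc.hq e0 f h1 (by simpa using h2))
  rw [card_erase_of_mem (mem_univ _), card_erase_of_mem (T.hd_mem_faces _), card_univ, card_univ,
    Fintype.card_sum, T.cardE, T.cardW] at this
  have : 0 < Fintype.card B := Fintype.card_pos_iff.2 ⟨t0⟩
  omega

/-- On the sphere every cycle of the dual is a cut. -/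
lemma Conn.exact {T : Tri E B W F} (hc : T.Conn) (heu : T.faces.card = Fintype.card B + 2)
    (t0 : B) (z : E → ℝ) (hz : ∀ f, ∑ e, z e * T.D1 f e = 0) :
    ∃ η : B ⊕ W → ℝ, η (inl t0) = 0 ∧ T.D2 η = z := by
  obtain ⟨e0, -⟩ := fib_ne (T.blk t0)
  obtain ⟨η, h1, h2⟩ := exact_general (univ.erase (inl t0)) (T.faces.erase (T.hd e0)) T.D2 T.D1
    T.orth (hc.hp _) (hc.hq e0) (by
      rw [card_erase_of_mem (mem_univ _), card_erase_of_mem (T.hd_mem_faces _), card_univ,
        Fintype.card_sum, T.cardE, T.cardW, heu]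
      have : 0 < Fintype.card B := Fintype.card_pos_iff.2 ⟨t0⟩
      omega) z hz
  exact ⟨η, h1 _ (by simp), h2⟩

lemma Conn3.no_loop {T : Tri E B W F} (hc : T.Conn3) (heu : T.faces.card = Fintype.card B + 2)
    (e0 : E) : T.hd e0 ≠ T.tl e0 := by
  intro h
  obtain ⟨η, h1, h2⟩ := hc.conn.exact heu (T.b e0) (Pi.single e0 1) (by
    intro f
    rw [sum_eq_single e0 (by intro e _ he; simp [he]) (by simp), D1_apply, h]; simp)
  have h3 : ∀ e, e ≠ e0 → η (inl (T.b e)) = η (inr (T.w e)) := by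
    intro e he
    have := congrFun h2 e
    rw [D2_apply, Pi.single_eq_of_ne he] at this
    exact sub_eq_zero.1 this
  have h4 : η (inr (T.w e0)) ≠ 0 := by
    have := congrFun h2 e0
    rw [D2_apply, h1, Pi.single_eq_same] at this
    intro h5; rw [h5] at this; simp at this
  have := hc (univ.filter fun x => η x ≠ 0) ⟨inr (T.w e0), by simpa using h4⟩ (by
    intro h5
    have : inl (T.b e0) ∈ (univ.filter fun x => η x ≠ 0) := by rw [h5]; simp
    simp [h1] at this)
  have a : (T.cutB (univ.filter fun x => η x ≠ 0)).card ≤ 1 := by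
    refine (card_le_card (t := {e0}) ?_).trans (by simp)
    intro e he
    by_contra hne
    simp [mem_cutB, h3 e (by simpa using hne)] at he
  have b : (T.cutW (univ.filter fun x => η x ≠ 0)).card ≤ 1 := by
    refine (card_le_card (t := {e0}) ?_).trans (by simp)
    intro e he
    by_contra hne
    simp [mem_cutW, h3 e (by simpa using hne)] at he
  omega

/-- summing an edge function against the coboundary of an indicator -/
lemma sum_D2_ind (S : Finset (B ⊕ W)) (α : E → ℝ) :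
    ∑ e, α e * T.D2 (fun x => if x ∈ S then 1 else 0) e =
      ∑ t with inl t ∈ S, ∑ e with T.b e = t, α e - ∑ t with inr t ∈ S, ∑ e with T.w e = t, α e := by
  rw [← fib_sum_set (g := T.b) (fun t => inl t ∈ S), ← fib_sum_set (g := T.w) (fun t => inr t ∈ S),
    sum_filter, sum_filter, ← sum_sub_distrib]
  refine sum_congr rfl fun e _ => ?_
  rw [D2_apply]
  split_ifs <;> simp

end Tri

end Vale.Agent.P039
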