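import Mathlib

namespace Vale.Agent.P039

/-- `G` is planar: it has a drawing in the Euclidean plane. Vertices are distinct points, each
edge is a simple arc joining the points of its two ends, the interior of an arc contains no
vertex, and two different arcs meet only at their ends. -/
def IsPlanar {V : Type*} (G : SimpleGraph V) : Prop :=
  ∃ (p : V → EuclideanSpace ℝ (Fin 2))
    (γ : G.edgeSet → C(unitInterval, EuclideanSpace ℝ (Fin 2))),
    Function.Injective p ∧
    (∀ e : G.edgeSet, Function.Injective (γ e)) ∧
    (∀ e : G.edgeSet, s(γ e 0, γ e 1) = Sym2.map p (e : Sym2 V)) ∧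
    (∀ (e : G.edgeSet) (t : unitInterval) (v : V), γ e t = p v → t = 0 ∨ t = 1) ∧
    (∀ (e e' : G.edgeSet) (s t : unitInterval), e ≠ e' → γ e s = γ e' t →
      (s = 0 ∨ s = 1) ∧ (t = 0 ∨ t = 1))

/-- `G` is 3-vertex-connected: at least four vertices, and deleting at most two vertices leaves a
connected graph. -/
def IsThreeConnected {V : Type*} [Fintype V] (G : SimpleGraph V) : Prop :=
  4 ≤ Fintype.card V ∧ ∀ S : Finset V, S.card ≤ 2 → (G.induce (↑S : Set V)ᶜ).Connected

end Vale.Agent.P039
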