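import Vale.Agent.P039.Cuts

open Finset Sum

namespace Vale.Agent.P039

universe u

set_option linter.unusedSectionVars false

def Closed {B F : Type u} (tail head : B → F) (G : Finset B) : Prop :=
  ∀ t ∈ G, ∃ t' ∈ G, head t = tail t'

def MinClosed {B F : Type u} (tail head : B → F) (G : Finset B) : Prop :=
  G.Nonempty ∧ Closed tail head G ∧ ∀ G' ⊆ G, G'.Nonempty → Closed tail head G' → G' = G

lemma exists_minClosed {B F : Type u} {tail head : B → F} {G : Finset B} (h1 : G.Nonempty)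
    (h2 : Closed tail head G) : ∃ G' ⊆ G, MinClosed tail head G' := by
  induction G using Finset.strongInduction with
  | H G ih =>
    by_cases h : ∀ G' ⊆ G, G'.Nonempty → Closed tail head G' → G' = G
    · exact ⟨G, Subset.rfl, h1, h2, h⟩
    · push Not at h
      obtain ⟨G', a, b, c, d⟩ := h
      obtain ⟨G'', e, f⟩ := ih G' (Finset.ssubset_iff_subset_ne.2 ⟨a, d⟩) b c
      exact ⟨G'', e.trans a, f⟩

lemma MinClosed.next {B F : Type u} [DecidableEq B] {tail head : B → F} {G : Finset B}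
    (h : MinClosed tail head G) : ∃ g : B → B, (∀ t ∈ G, g t ∈ G ∧ head t = tail (g t)) ∧
      G.image g = G ∧ Set.InjOn g G ∧
      ∀ {K : Type} (u : B → K), (∀ t ∈ G, u (g t) = u t) → ∀ t ∈ G, ∀ t' ∈ G, u t = u t' := by
  classical
  obtain ⟨hne, hcl, hmin⟩ := h
  have : ∀ t, ∃ t', t ∈ G → t' ∈ G ∧ head t = tail t' := by
    intro t
    by_cases ht : t ∈ G
    · obtain ⟨t', a, b⟩ := hcl t ht
      exact ⟨t', fun _ => ⟨a, b⟩⟩
    · exact ⟨t, fun h => absurd h ht⟩
  choose g hg using this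
  have him : G.image g = G := by
    refine hmin _ ?_ (hne.image g) ?_
    · intro t ht
      obtain ⟨t', a, rfl⟩ := mem_image.1 ht
      exact (hg t' a).1
    · intro t ht
      obtain ⟨t', a, rfl⟩ := mem_image.1 ht
      exact ⟨g (g t'), mem_image_of_mem _ (hg t' a).1, (hg _ (hg t' a).1).2⟩
  refine ⟨g, hg, him, injOn_of_card_image_eq (by rw [him]), ?_⟩
  intro K u hu t ht t' ht'
  have := hmin (G.filter fun x => u x = u t') (filter_subset _ _) ⟨t', by simp [ht']⟩ (by
    intro x hx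
    rw [mem_filter] at hx
    exact ⟨g x, mem_filter.2 ⟨(hg x hx.1).1, by rw [hu x hx.1, hx.2]⟩, (hg x hx.1).2⟩)
  rw [← this] at ht
  exact (mem_filter.1 ht).2

namespace Tri

variable {E B W F : Type u} [Fintype E] [Fintype B] [Fintype W] [DecidableEq E] [DecidableEq B]
  [DecidableEq W] [DecidableEq F] (T : Tri E B W F)

/-- `tail` matches the non-root black vertices with the faces not touching the root. -/
structure IsState (t0 : B) (tail : B → F) : Prop where
  corner : ∀ t, t ≠ t0 → ∃ e, T.b e = t ∧ T.hd e = tail t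
  inj : ∀ t t', t ≠ t0 → t' ≠ t0 → tail t = tail t' → t = t'
  surj : ∀ v ∈ T.faces, (∀ e, T.b e = t0 → T.hd e ≠ v) → ∃ t, t ≠ t0 ∧ tail t = v

/-- the edge `e` of `t` joins `a` to `c`, with sign `s` -/
def Dir (t : B) (e : E) (s : ℝ) (a c : F) : Prop :=
  T.b e = t ∧ ((s = 1 ∧ T.tl e = a ∧ T.hd e = c) ∨ (s = -1 ∧ T.hd e = a ∧ T.tl e = c))

lemma compl_eS (S : Finset (B ⊕ W)) :
    (T.eS S).card + (T.eS Sᶜ).card = Fintype.card E + ((T.cutB S).card + (T.cutW S).card) := by
  rw [← card_union_add_card_inter, ← card_union_of_disjoint (s := T.cutB S)]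
  · congr 1
    · rw [← card_univ]; congr 1; ext e; simp [mem_eS]; tauto
    · congr 1; ext e; simp [mem_eS, mem_cutB, mem_cutW]; tauto
  · rw [disjoint_left]; intro e; simp [mem_cutB, mem_cutW]; tauto

theorem diskA {T : Tri E B W F} (hc : T.Conn) (heu : T.faces.card = Fintype.card B + 2)
    {t0 : B} {tail head : B → F} (hst : T.IsState t0 tail) {G : Finset B} (ht0 : t0 ∉ G)
    (hG : MinClosed tail head G) {ed : B → E} {σ : B → ℝ}
    (hd : ∀ t ∈ G, T.Dir t (ed t) (σ t) (tail t) (head t)) :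
    ∃ lam : ℝ, (lam = 1 ∨ lam = -1) ∧ ∃ S : Finset (B ⊕ W), inl t0 ∉ S ∧
      (∀ e, ¬ (inl (T.b e) ∈ S ↔ inr (T.w e) ∈ S) ↔ e ∈ G.image ed) ∧
      ∀ α : E → ℝ, ∑ e, α e * T.D2 (fun x => if x ∈ S then 1 else 0) e =
        lam * ∑ t ∈ G, σ t * α (ed t) := by
  classical
  obtain ⟨g, hg, him, hginj, hinv⟩ := hG.next
  have hne : ∀ t ∈ G, t ≠ t0 := fun t ht h => ht0 (h ▸ ht)
  have hb : ∀ t ∈ G, T.b (ed t) = t := fun t ht => (hd t ht).1
  have hedinj : Set.InjOn ed G := fun t ht t' ht' h => by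
    rw [← hb t ht, h, hb t' ht']
  have hσ : ∀ t ∈ G, σ t * σ t = 1 := fun t ht => by
    rcases (hd t ht).2 with h | h <;> simp [h.1]
  have hkey : ∀ t ∈ G, ∀ f : F → ℝ, σ t * T.D1 f (ed t) = f (head t) - f (tail t) := by
    intro t ht f
    rcases (hd t ht).2 with ⟨h1, h2, h3⟩ | ⟨h1, h2, h3⟩ <;> simp [D1_apply, h1, h2, h3]
  let C : Finset E := G.image ed
  have hsum : ∀ z : E → ℝ, (∀ e, e ∉ C → z e = 0) → ∀ h : E → ℝ,
      ∑ e, z e * h e = ∑ t ∈ G, z (ed t) * h (ed t) := by
    intro z hz h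
    rw [← sum_subset (subset_univ C) (by intro e _ he; simp [hz e he]), sum_image hedinj]
  let γ : E → ℝ := fun e => if e ∈ C then σ (T.b e) else 0
  have hγ0 : ∀ e, e ∉ C → γ e = 0 := fun e he => by simp [γ, he]
  have hγ1 : ∀ t ∈ G, γ (ed t) = σ t := fun t ht => by
    simp only [γ]; rw [if_pos (mem_image_of_mem _ ht), hb t ht]
  have hγorth : ∀ f, ∑ e, γ e * T.D1 f e = 0 := by
    intro f
    rw [hsum γ hγ0, sum_congr rfl (fun t ht => by rw [hγ1 t ht, hkey t ht, (hg t ht).2]),
      sum_sub_distrib, ← sum_image (f := fun t => f (tail t)) hginj, him, sub_self]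
  have hrigid : ∀ z : E → ℝ, (∀ e, e ∉ C → z e = 0) → (∀ f, ∑ e, z e * T.D1 f e = 0) →
      ∃ lam : ℝ, ∀ e, z e = lam * γ e := by
    intro z hz hzo
    let u : B → ℝ := fun t => z (ed t) * σ t
    have hu : ∀ t ∈ G, u (g t) = u t := by
      intro t1 ht1
      have := hzo (fun v => if v = tail (g t1) then 1 else 0)
      rw [hsum z hz, sum_congr rfl (g := fun t => u t * ((if head t = tail (g t1) then 1 else 0) -
        (if tail t = tail (g t1) then 1 else 0))) (by
          intro t ht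
          rw [← hkey t ht (fun v => if v = tail (g t1) then 1 else 0)]
          simp only [u]
          rw [mul_assoc, ← mul_assoc (σ t), hσ t ht, one_mul])] at this
      simp only [mul_sub, sum_sub_distrib] at this
      rw [sum_eq_single t1, sum_eq_single (g t1)] at this
      · simp [(hg t1 ht1).2] at this; linarith
      · intro t ht h
        rw [if_neg (fun h' => h (hst.inj _ _ (hne _ ht) (hne _ (hg t1 ht1).1) h')), mul_zero]
      · intro h; exact absurd (hg t1 ht1).1 h
      · intro t ht h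
        rw [if_neg, mul_zero]
        intro h'
        rw [(hg t ht).2] at h'
        exact h (hginj ht ht1 (hst.inj _ _ (hne _ (hg t ht).1) (hne _ (hg t1 ht1).1) h'))
      · intro h; exact absurd ht1 h
    obtain ⟨t1, ht1⟩ := hG.1
    refine ⟨u t1, fun e => ?_⟩
    by_cases he : e ∈ C
    · obtain ⟨t, ht, rfl⟩ := mem_image.1 he
      rw [hγ1 t ht, ← hinv u hu t ht t1 ht1]
      simp only [u]
      rw [mul_assoc, hσ t ht, mul_one]
    · rw [hz e he, hγ0 e he, mul_zero]
  obtain ⟨η, hη0, hη⟩ := hc.exact heu t0 γ hγorth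
  let S : Finset (B ⊕ W) := univ.filter fun x => η x ≠ 0
  have hS0 : inl t0 ∉ S := by simp [S, hη0]
  let χ : B ⊕ W → ℝ := fun x => if x ∈ S then 1 else 0
  obtain ⟨lam, hlam⟩ := hrigid (T.D2 χ) (by
    intro e he
    have := congrFun hη e
    rw [hγ0 e he, D2_apply, sub_eq_zero] at this
    simp [D2_apply, χ, S, this]) (T.orth χ)
  have hχ : ∀ x, χ x = lam * η x := by
    intro x
    have := hc.const (fun x => χ x - lam * η x) (by
      intro e
      have a := hlam e
      rw [← hη, D2_apply, D2_apply] at a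
      linarith) x (inl t0)
    simp only [hη0, χ, if_neg hS0] at this ⊢
    linarith
  obtain ⟨t1, ht1⟩ := hG.1
  have hσne : ∀ t ∈ G, σ t ≠ 0 := fun t ht h => by simpa [h] using hσ t ht
  have hlam0 : lam ≠ 0 := by
    intro h
    have h1 : η = 0 := by
      ext x
      by_contra hx
      have := hχ x
      simp [h, χ, S] at this
      exact hx this
    have := congrFun hη (ed t1)
    rw [h1, hγ1 t1 ht1] at this
    exact hσne t1 ht1 (by simpa using this.symm)
  have hcut : ∀ e, ¬ (inl (T.b e) ∈ S ↔ inr (T.w e) ∈ S) ↔ e ∈ C := by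
    intro e
    have a := hlam e
    rw [D2_apply] at a
    constructor
    · intro h
      by_contra he
      rw [hγ0 e he, mul_zero] at a
      simp only [χ] at a
      split_ifs at a with h1 h2 h2
      · exact h (by tauto)
      · simp at a
      · simp at a
      · exact h (by tauto)
    · intro he h
      obtain ⟨t, ht, rfl⟩ := mem_image.1 he
      rw [hγ1 t ht] at a
      have : lam * σ t = 0 := by rw [← a]; simp only [χ, h, sub_self]
      simp [hlam0, hσne t ht] at this
  have hlam1 : lam = 1 ∨ lam = -1 := by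
    have a := hlam (ed t1)
    have b := (hcut (ed t1)).2 (mem_image_of_mem _ ht1)
    rw [D2_apply, hγ1 t1 ht1] at a
    have c : (lam * σ t1) * (lam * σ t1) = 1 := by
      rw [← a]; simp only [χ]
      split_ifs with h1 h2 h2
      · exact absurd (by tauto) b
      · simp
      · simp
      · exact absurd (by tauto) b
    have d : lam * lam = 1 := by
      have := hσ t1 ht1
      calc lam * lam = lam * lam * (σ t1 * σ t1) := by rw [this, mul_one]
        _ = 1 := by rw [← c]; ring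
    exact mul_self_eq_one_iff.1 d
  refine ⟨lam, hlam1, S, hS0, hcut, fun α => ?_⟩
  change ∑ e, α e * T.D2 χ e = _
  simp only [hlam]
  have e1 : ∑ t ∈ G, σ t * α (ed t) = ∑ t ∈ G, γ (ed t) * α (ed t) :=
    sum_congr rfl (fun t ht => by rw [hγ1 t ht])
  rw [e1, ← hsum γ hγ0, mul_sum]
  exact sum_congr rfl fun e _ => by ring

theorem diskB {T : Tri E B W F} (hc : T.Conn) (heu : T.faces.card = Fintype.card B + 2)
    {t0 : B} {tail head : B → F} (hst : T.IsState t0 tail) {G : Finset B} (ht0 : t0 ∉ G)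
    (hG : MinClosed tail head G) {ed : B → E} {σ : B → ℝ}
    (hd : ∀ t ∈ G, T.Dir t (ed t) (σ t) (tail t) (head t)) {S : Finset (B ⊕ W)}
    (hS0 : inl t0 ∉ S) (hcut : ∀ e, ¬ (inl (T.b e) ∈ S ↔ inr (T.w e) ∈ S) ↔ e ∈ G.image ed) :
    nW S = nB S + 1 := by
  classical
  obtain ⟨g, hg, him, hginj, hinv⟩ := hG.next
  have hne : ∀ t ∈ G, t ≠ t0 := fun t ht h => ht0 (h ▸ ht)
  have hb : ∀ t ∈ G, T.b (ed t) = t := fun t ht => (hd t ht).1
  have hedinj : Set.InjOn ed G := fun t ht t' ht' h => by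
    rw [← hb t ht, h, hb t' ht']
  let C : Finset E := G.image ed
  obtain ⟨t1, ht1⟩ := hG.1
  let U : Finset F := G.image tail
  have hUcard : U.card = G.card :=
    card_image_of_injOn fun t ht t' ht' h => hst.inj _ _ (hne _ ht) (hne _ ht') h
  have hCcard : (T.cutB S).card + (T.cutW S).card = G.card := by
    rw [← card_image_of_injOn hedinj, ← card_union_of_disjoint]
    · congr 1; ext e
      rw [← hcut e]; simp [mem_cutB, mem_cutW]; tauto
    · rw [disjoint_left]; intro e; simp [mem_cutB, mem_cutW]; tauto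
  have hconst : ∀ f : F → ℝ, (∀ e ∈ C, f (T.hd e) = f (T.tl e)) → f (T.hd (ed t1)) = 0 →
      ∀ e ∈ C, f (T.hd e) = 0 := by
    intro f hf h0 e he
    have h1 : ∀ t ∈ G, f (T.hd (ed t)) = f (tail t) ∧ f (head t) = f (tail t) := by
      intro t ht
      have := hf _ (mem_image_of_mem _ ht)
      rcases (hd t ht).2 with ⟨h1, h2, h3⟩ | ⟨h1, h2, h3⟩
      · rw [← h2, ← h3]; exact ⟨this, this⟩
      · rw [← h2, ← h3]; exact ⟨rfl, this.symm⟩
    obtain ⟨t, ht, rfl⟩ := mem_image.1 he
    rw [(h1 t ht).1, hinv (fun t => f (tail t)) (fun t ht => by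
      rw [← (hg t ht).2, (h1 t ht).2]) t ht t1 ht1, ← (h1 t1 ht1).1, h0]
  have hCS : ∀ e ∈ C, e ∈ T.eS S ∧ e ∈ T.eS Sᶜ := by
    intro e he
    rw [← hcut] at he
    simp only [mem_eS, mem_compl]; tauto
  have hSne : ∃ x, x ∉ Sᶜ := by
    have := (T.mem_eS.1 (hCS _ (mem_image_of_mem _ ht1)).1)
    rcases this with h | h
    · exact ⟨_, by simpa using h⟩
    · exact ⟨_, by simpa using h⟩
  obtain ⟨x1, hx1⟩ := hSne
  have i1 := hc.ineqS S _ hS0 (ed t1) (hCS _ (mem_image_of_mem _ ht1)).1 (by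
    intro f hf h0 e he
    exact hconst f (fun e he => hf e (hCS e he).1) h0 e ((hcut e).1 he))
  have i2 := hc.ineqS Sᶜ _ hx1 (ed t1) (hCS _ (mem_image_of_mem _ ht1)).2 (by
    intro f hf h0 e he
    refine hconst f (fun e he => hf e (hCS e he).2) h0 e ((hcut e).1 ?_)
    simp only [mem_compl] at he; tauto)
  have htl : ∀ S' : Finset (B ⊕ W), ∀ e ∈ T.eS S', T.tl e ∈ (T.eS S').image T.hd := by
    intro S' e he
    rcases T.mem_eS.1 he with h | h
    · obtain ⟨e', a, b⟩ := fib_tl (T.blk (T.b e)) rfl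
      exact mem_image.2 ⟨e', by simp [mem_eS, a, h], b⟩
    · obtain ⟨e', a, b⟩ := fib_tl (T.wht (T.w e)) rfl
      exact mem_image.2 ⟨e', by simp [mem_eS, a, h], b⟩
  have hUsub : U ⊆ (T.eS S).image T.hd ∩ (T.eS Sᶜ).image T.hd := by
    intro v hv
    obtain ⟨t, ht, rfl⟩ := mem_image.1 hv
    have := hCS _ (mem_image_of_mem _ ht)
    rcases (hd t ht).2 with ⟨h1, h2, h3⟩ | ⟨h1, h2, h3⟩
    · rw [← h2]; exact mem_inter.2 ⟨htl _ _ this.1, htl _ _ this.2⟩
    · rw [← h2]; exact mem_inter.2 ⟨mem_image_of_mem _ this.1, mem_image_of_mem _ this.2⟩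
  have hun : (T.eS S).image T.hd ∪ (T.eS Sᶜ).image T.hd = T.faces := by
    rw [← image_union, faces]; congr 1; ext e; simp [mem_eS]; tauto
  have i3 := card_union_add_card_inter ((T.eS S).image T.hd) ((T.eS Sᶜ).image T.hd)
  have i4 := T.compl_eS S
  have i5 := card_le_card hUsub
  have i6 : S.card + Sᶜ.card = Fintype.card B + Fintype.card W := by
    rw [card_add_card_compl, Fintype.card_sum]
  rw [hun, heu] at i3
  have i7 := T.cardE
  have i8 := T.cardW
  have hUeq : U = (T.eS S).image T.hd ∩ (T.eS Sᶜ).image T.hd :=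
    eq_of_subset_of_card_le hUsub (by omega)
  have i9 : S.card + ((T.eS S).image T.hd).card = (T.eS S).card + 1 := by omega
  -- counting black vertices inside
  have i10 : #{t : B | inl t ∈ S ∧ t ∉ G} = ((T.eS S).image T.hd \ U).card := by
    refine card_bij (fun t _ => tail t) ?_ ?_ ?_
    · intro t ht
      simp only [mem_filter, mem_univ, true_and] at ht
      have h0 : t ≠ t0 := fun h => hS0 (h ▸ ht.1)
      rw [mem_sdiff]
      constructor
      · obtain ⟨e, a, b⟩ := hst.corner t h0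
        exact mem_image.2 ⟨e, by simp [mem_eS, a, ht.1], b⟩
      · intro h
        obtain ⟨t', a, b⟩ := mem_image.1 h
        exact ht.2 (hst.inj _ _ (hne _ a) h0 b ▸ a)
    · intro t ht t' ht' h
      simp only [mem_filter, mem_univ, true_and] at ht ht'
      exact hst.inj _ _ (fun h => hS0 (h ▸ ht.1)) (fun h => hS0 (h ▸ ht'.1)) h
    · intro v hv
      rw [mem_sdiff] at hv
      have h1 : v ∉ (T.eS Sᶜ).image T.hd := fun h => hv.2 (hUeq ▸ mem_inter.2 ⟨hv.1, h⟩)
      obtain ⟨t, a, b⟩ := hst.surj v (hun ▸ mem_union_left _ hv.1) (by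
        intro e he h
        exact h1 (mem_image.2 ⟨e, by simp [mem_eS, he, hS0], h⟩))
      refine ⟨t, ?_, b⟩
      simp only [mem_filter, mem_univ, true_and]
      constructor
      · by_contra h
        obtain ⟨e, c, d⟩ := hst.corner t a
        exact h1 (mem_image.2 ⟨e, by simp [mem_eS, c, h], d.trans b⟩)
      · intro h
        exact hv.2 (b ▸ mem_image_of_mem _ h)
  have i11 : #{t : B | inl t ∈ S ∧ t ∈ G} = (T.cutB S).card := by
    refine card_bij (fun t _ => ed t) ?_ ?_ ?_
    · intro t ht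
      simp only [mem_filter, mem_univ, true_and] at ht
      have := (hcut (ed t)).2 (mem_image_of_mem _ ht.2)
      rw [mem_cutB]
      rw [hb t ht.2] at this ⊢
      tauto
    · intro t ht t' ht' h
      simp only [mem_filter, mem_univ, true_and] at ht ht'
      exact hedinj ht.2 ht'.2 h
    · intro e he
      rw [mem_cutB] at he
      obtain ⟨t, a, rfl⟩ := mem_image.1 ((hcut e).1 (by tauto))
      exact ⟨t, by simpa [a, hb t a] using he.1, rfl⟩
  have i12 : nB S = #{t : B | inl t ∈ S ∧ t ∈ G} + #{t : B | inl t ∈ S ∧ t ∉ G} := by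
    rw [nB, ← card_filter_add_card_filter_not (s := univ.filter fun t : B => inl t ∈ S)
      (fun t => t ∈ G), filter_filter, filter_filter]
  have i13 := card_sdiff_add_card_eq_card (hUsub.trans inter_subset_left)
  have i14 := T.card_eS_B S
  have i15 := card_eq_nB_nW S
  omega

theorem disk {T : Tri E B W F} (hc : T.Conn) (heu : T.faces.card = Fintype.card B + 2)
    {t0 : B} {tail head : B → F} (hst : T.IsState t0 tail) {G : Finset B} (ht0 : t0 ∉ G)
    (hG : MinClosed tail head G) {ed : B → E} {σ : B → ℝ}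
    (hd : ∀ t ∈ G, T.Dir t (ed t) (σ t) (tail t) (head t)) :
    ∃ lam : ℝ, (lam = 1 ∨ lam = -1) ∧ ∃ n : ℕ, n + 1 ≤ Fintype.card W ∧
      ∀ (α : E → ℝ) (p q : ℝ), (∀ t, t ≠ t0 → ∑ e with T.b e = t, α e = p) →
        (∀ x, ∑ e with T.w e = x, α e = q) →
        ∑ t ∈ G, σ t * α (ed t) = lam * (p * n - q * (n + 1)) := by
  obtain ⟨lam, hlam1, S, hS0, hcut, b⟩ := diskA hc heu hst ht0 hG hd
  have hW := diskB hc heu hst ht0 hG hd hS0 hcut
  refine ⟨lam, hlam1, nB S, hW ▸ card_le_univ _, fun α p q hp hq => ?_⟩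
  have a := T.sum_D2_ind S α
  have e1 : ∑ t with inl t ∈ S, ∑ e with T.b e = t, α e = nB S * p := by
    rw [sum_congr rfl (g := fun _ => p) (by
      intro t ht
      exact hp t (fun h => hS0 (h ▸ (mem_filter.1 ht).2))), sum_const, nsmul_eq_mul, nB]
  have e2 : ∑ t with inr t ∈ S, ∑ e with T.w e = t, α e = nW S * q := by
    rw [sum_congr rfl (g := fun _ => q) (fun x _ => hq x), sum_const, nsmul_eq_mul, nW]
  rw [e1, e2, hW, b] at a
  simp only [Nat.cast_add, Nat.cast_one] at a
  rcases hlam1 with h | h <;> rw [h] at a ⊢ <;> linarith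

end Tri

end Vale.Agent.P039
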