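import Vale.Agent.P039.Acyc

open Finset Sum

namespace Vale.Agent.P039

universe u

set_option linter.unusedSectionVars false

variable {E B W F : Type u} [Fintype E] [Fintype B] [Fintype W] [DecidableEq E] [DecidableEq B]
  [DecidableEq W] [DecidableEq F]

/-- a perfect matching whose complement is connected -/
def Tri.Good (T : Tri E B W F) (M : Finset E) : Prop :=
  (∀ t, ∃! e, T.b e = t ∧ e ∈ M) ∧ (∀ x, ∃! e, T.w e = x ∧ e ∈ M) ∧
    ∀ S : Finset (B ⊕ W), (∀ e, e ∉ M → (inl (T.b e) ∈ S ↔ inr (T.w e) ∈ S)) → S = ∅ ∨ S = univ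

lemma solve {t0 : B} {tail head : B → F}
    (hinj : ∀ t t', t ≠ t0 → t' ≠ t0 → tail t = tail t' → t = t')
    (hac : ∀ G : Finset B, t0 ∉ G → G.Nonempty → ¬ Closed tail head G) (y : B → ZMod 2)
    (ρ : F → ZMod 2) : ∃ f : F → ZMod 2, (∀ v, (∀ t, t ≠ t0 → tail t ≠ v) → f v = ρ v) ∧
      ∀ t, t ≠ t0 → f (head t) - f (tail t) = y t := by
  classical
  let ext : (B → ZMod 2) → F → ZMod 2 := fun u v =>
    if h : ∃ t, t ≠ t0 ∧ tail t = v then u h.choose else ρ v
  have h1 : ∀ u t, t ≠ t0 → ext u (tail t) = u t := by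
    intro u t ht
    have h : ∃ t', t' ≠ t0 ∧ tail t' = tail t := ⟨t, ht, rfl⟩
    simp only [ext, dif_pos h]
    rw [hinj _ _ h.choose_spec.1 ht h.choose_spec.2]
  let Ψ : (B → ZMod 2) → B → ZMod 2 := fun u t => if t = t0 then u t else ext u (head t) - u t
  have h2 : Function.Injective Ψ := by
    intro u u' h
    by_contra hne
    refine hac (univ.filter fun t => t ≠ t0 ∧ u t ≠ u' t) (by simp) ?_ ?_
    · obtain ⟨t, ht⟩ := Function.ne_iff.1 hne
      refine ⟨t, ?_⟩
      simp only [mem_filter, mem_univ, true_and]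
      refine ⟨fun h0 => ht ?_, ht⟩
      simpa [Ψ, h0] using congrFun h t
    · intro t ht
      simp only [mem_filter, mem_univ, true_and] at ht ⊢
      have a := congrFun h t
      simp only [Ψ, if_neg ht.1] at a
      have b : ext u (head t) ≠ ext u' (head t) := fun b => ht.2 (by
        rw [b] at a; exact sub_right_injective a)
      by_cases c : ∃ t', t' ≠ t0 ∧ tail t' = head t
      · obtain ⟨t', c, d⟩ := c
        refine ⟨t', ⟨c, ?_⟩, d.symm⟩
        rwa [← d, h1 _ _ c, h1 _ _ c] at b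
      · simp only [ext, dif_neg c] at b
        exact absurd rfl b
  obtain ⟨u, hu⟩ := Finite.injective_iff_surjective.1 h2 y
  refine ⟨ext u, fun v hv => ?_, fun t ht => ?_⟩
  · simp only [ext]
    rw [dif_neg]
    rintro ⟨t, a, b⟩
    exact hv t a b
  · rw [h1 _ _ ht, ← hu]
    simp only [Ψ, if_neg ht]

lemma mono_unique : ∀ x0 x1 x2 : ZMod 2, ∀ a b : Fin 3, ![x0, x1, x2] a ≠ ![x0, x1, x2] b →
    ∃ j : Fin 3, ∀ j' : Fin 3, ![x0, x1, x2] (j' + 2) = ![x0, x1, x2] (j' + 1) ↔ j' = j := by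
  decide

lemma mono_unique' (x : Fin 3 → ZMod 2) {a b : Fin 3} (h : x a ≠ x b) :
    ∃ j : Fin 3, ∀ j' : Fin 3, x (j' + 2) = x (j' + 1) ↔ j' = j := by
  have : x = ![x 0, x 1, x 2] := by ext j; fin_cases j <;> rfl
  rw [this] at h ⊢
  exact mono_unique _ _ _ a b h

lemma mono_exists : ∀ x0 x1 x2 : ZMod 2, x0 = x2 ∨ x1 = x0 ∨ x2 = x1 := by decide

lemma fin_ne : ∀ j : Fin 3, j + 1 ≠ j ∧ j + 2 ≠ j := by decide

namespace Cor

variable {T : Tri E B W F} (K : Cor T)

theorem good_of_acyclic (hc : T.Conn3) (heu : T.faces.card = Fintype.card B + 2) {t0 : B}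
    {r s : B → Fin 3} (hp : K.Pair t0 (r, s)) (hac : ∀ G : Finset B, t0 ∉ G → G.Nonempty →
      ¬ Closed (fun t => K.c t (s t)) (fun t => K.c t (thd (r t) (s t))) G) (j0 : Fin 3) :
    ∃ M, K.eb t0 j0 ∈ M ∧ T.Good M := by
  classical
  have hl := hc.no_loop heu
  obtain ⟨hr, hs, hrs⟩ := hp
  simp only at hr hs hrs
  obtain ⟨χ, hχ0, hχ1⟩ := solve hs.2 hac (fun _ => 1) (fun v => if v = K.c t0 j0 then 1 else 0)
  have hroot : ∀ j, χ (K.c t0 j) = if j = j0 then 1 else 0 := by
    intro j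
    rw [hχ0 _ (fun t ht => hs.1 t ht j)]
    simp only [(K.c_inj hl t0).eq_iff]
  let M : Finset E := univ.filter fun e => χ (T.hd e) = χ (T.tl e)
  have hM : ∀ t j, K.eb t j ∈ M ↔ χ (K.c t (j + 2)) = χ (K.c t (j + 1)) := by
    intro t j; simp [M, K.hd_eb, K.tl_eb]
  have hm : ∀ t, ∃ j, ∀ j', K.eb t j' ∈ M ↔ j' = j := by
    intro t
    simp only [hM]
    by_cases ht : t = t0
    · subst ht
      refine mono_unique' (fun j => χ (K.c t j)) (a := j0) (b := j0 + 1) ?_
      rw [hroot, hroot, if_pos rfl, if_neg (fin_ne j0).1]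
      decide
    · refine mono_unique' (fun j => χ (K.c t j)) (a := thd (r t) (s t)) (b := s t) ?_
      intro h
      have := hχ1 t ht
      simp only [h, sub_self] at this
      exact absurd this (by decide)
  choose m hm using hm
  have hm0 : K.eb t0 j0 ∈ M := by
    rw [hM, hroot, hroot, if_neg (fin_ne j0).2, if_neg (fin_ne j0).1]
  have hmr : ∀ t, t ≠ t0 → r t ≠ m t := by
    intro t ht h
    have a := (hm t (r t)).2 h
    have b := hχ1 t ht
    have c := (K.dir t (thd_ne_right _ _ (hrs t ht)).symm).2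
    rw [thd_thd'] at c
    simp only [M, mem_filter, mem_univ, true_and] at a
    rcases c with ⟨-, c1, c2⟩ | ⟨-, c1, c2⟩
    · rw [← c1, ← c2, a, sub_self] at b; exact absurd b (by decide)
    · rw [← c1, ← c2, a, sub_self] at b; exact absurd b (by decide)
  have hMe : ∀ e ∈ M, e = K.eb (T.b e) (m (T.b e)) := by
    intro e he
    obtain ⟨j, hj⟩ := K.fib e
    rw [← (hm (T.b e) j).1 (hj ▸ he)]; exact hj
  have hB : ∀ t, ∃! e, T.b e = t ∧ e ∈ M := by
    intro t
    refine ⟨K.eb t (m t), ⟨K.b_eb _ _, (hm _ _).2 rfl⟩, ?_⟩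
    rintro e ⟨rfl, he⟩
    exact hMe e he
  have hBc : ∀ t, #{e ∈ M | T.b e = t} = 1 := by
    intro t
    obtain ⟨e, h1, h2⟩ := hB t
    rw [card_eq_one]
    refine ⟨e, eq_singleton_iff_unique_mem.2 ⟨mem_filter.2 ⟨h1.2, h1.1⟩, fun e' he' => ?_⟩⟩
    exact h2 e' ⟨(mem_filter.1 he').2, (mem_filter.1 he').1⟩
  have hWc : ∀ x, #{e ∈ M | T.w e = x} = 1 := by
    have a := card_eq_sum_card_fiberwise (s := M) (t := univ) (f := T.b) (by simp)
    have b := card_eq_sum_card_fiberwise (s := M) (t := univ) (f := T.w) (by simp)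
    simp only [hBc, sum_const, card_univ, smul_eq_mul, mul_one] at a
    have c : ∀ x ∈ (univ : Finset W), 1 ≤ #{e ∈ M | T.w e = x} := by
      intro x _
      obtain ⟨e0, e1, e2, -, -, -, h, a0, a1, a2⟩ := T.wht x
      rw [Nat.one_le_iff_ne_zero, ← Nat.pos_iff_ne_zero, card_pos]
      rcases mono_exists (χ (T.hd e0)) (χ (T.hd e1)) (χ (T.hd e2)) with h1 | h1 | h1
      · exact ⟨e0, by simp [M, h, h1, a2]⟩
      · exact ⟨e1, by simp [M, h, h1, a0]⟩
      · exact ⟨e2, by simp [M, h, h1, a1]⟩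
    have d := (sum_eq_sum_iff_of_le c).1 (by rw [← b, a, ← T.cardW]; simp)
    exact fun x => (d x (mem_univ _)).symm
  have hW : ∀ x, ∃! e, T.w e = x ∧ e ∈ M := by
    intro x
    obtain ⟨e, he⟩ := card_eq_one.1 (hWc x)
    have : ∀ e', T.w e' = x ∧ e' ∈ M ↔ e' = e := by
      intro e'; rw [← mem_singleton (a := e), ← he, and_comm]; exact (mem_filter (p := fun e => T.w e = x)).symm
    exact ⟨e, (this e).2 rfl, fun e' h => (this e').1 h⟩
  have hac2 : ∀ G : Finset B, t0 ∉ G → G.Nonempty →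
      ¬ Closed (fun t => K.c t (r t)) (fun t => K.c t (thd (r t) (m t))) G := by
    intro G0 a b c
    obtain ⟨G, hsub, hG⟩ := exists_minClosed b c
    have ht0 : t0 ∉ G := fun h => a (hsub h)
    have hne : ∀ t ∈ G, t ≠ t0 := fun t ht h => ht0 (h ▸ ht)
    obtain ⟨lam, h1, h2, n, -, h3⟩ := hr.disk hc heu ht0
      (fun t ht => (thd_ne_left _ _ (hmr t (hne t ht))).symm) hG
    have := h3 (fun e => if e ∈ M then 1 else 0) 1 1 (fun t _ => by
      rw [sum_boole, filter_comm]
      simp only [filter_mem_eq_inter, univ_inter, hBc, Nat.cast_one]) (fun t => by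
      rw [sum_boole, filter_comm]
      simp only [filter_mem_eq_inter, univ_inter, hWc, Nat.cast_one])
    simp only [thd_thd, hm, if_true, mul_one] at this
    rw [h2] at this
    rcases h1 with h1 | h1 <;> rw [h1] at this <;> linarith
  refine ⟨M, hm0, hB, hW, fun S hS => hc.conn S ?_⟩
  let z : E → ZMod 2 := fun e => (if inl (T.b e) ∈ S then 1 else 0) - (if inr (T.w e) ∈ S then 1 else 0)
  have hz : ∀ f : F → ZMod 2, ∑ e, z e * (f (T.hd e) - f (T.tl e)) = 0 :=
    fun f => T.orthK (fun x => if x ∈ S then 1 else 0) f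
  have hz0 : ∀ e, e ∉ M → z e = 0 := fun e he => by simp [z, hS e he]
  have hz1 : ∀ e1, T.b e1 ≠ t0 → z e1 = 0 := by
    intro e1 h1
    by_cases h2 : e1 ∈ M
    swap
    · exact hz0 e1 h2
    obtain ⟨f, hf0, hf1⟩ := solve hr.2 hac2 (fun t => if t = T.b e1 then 1 else 0) (fun _ => 0)
    have hf2 : ∀ e ∈ M, f (T.hd e) - f (T.tl e) = if T.b e = T.b e1 then 1 else 0 := by
      intro e he
      by_cases h3 : T.b e = t0
      · rw [hMe e he, K.hd_eb, K.tl_eb, h3, hf0 _ (fun t ht => hr.1 t ht _),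
          hf0 _ (fun t ht => hr.1 t ht _), K.b_eb, if_neg (Ne.symm h1), sub_self]
      · have c := (K.dir (T.b e) (thd_ne_left _ _ (hmr _ h3)).symm).2
        rw [thd_thd, ← hMe e he] at c
        rw [← hf1 _ h3]
        rcases c with ⟨-, c1, c2⟩ | ⟨-, c1, c2⟩
        · rw [c1, c2]
        · rw [c1, c2]; exact (by decide : ∀ a b : ZMod 2, a - b = b - a) _ _
    have := hz f
    rw [sum_eq_single e1 (by
      intro e _ he
      by_cases h3 : e ∈ M
      · rw [hf2 e h3, if_neg, mul_zero]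
        intro h4
        exact he ((hB _).unique ⟨h4, h3⟩ ⟨rfl, h2⟩)
      · rw [hz0 e h3, zero_mul]) (by simp), hf2 e1 h2] at this
    simpa using this
  have hz2 : ∀ e, z e = 0 := by
    intro e1
    by_cases h1 : T.b e1 = t0
    swap
    · exact hz1 e1 h1
    by_cases h2 : e1 ∈ M
    swap
    · exact hz0 e1 h2
    have := hz (fun v => if v = T.hd e1 then 1 else 0)
    rw [sum_eq_single e1 (by
      intro e _ he
      by_cases h3 : e ∈ M
      · rw [hz1 e (fun h4 => he ((hB _).unique ⟨h4, h3⟩ ⟨h1, h2⟩)), zero_mul]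
      · rw [hz0 e h3, zero_mul]) (by simp)] at this
    simpa [(hl e1).symm] using this
  intro e
  have := hz2 e
  simp only [z] at this
  split_ifs at this with a b b
  · tauto
  · exact absurd this (by decide)
  · exact absurd this (by decide)
  · tauto

end Cor

end Vale.Agent.P039
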