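import Vale.Agent.P039.Count
import Vale.Agent.P039.Match

open Finset Sum

namespace Vale.Agent.P039

universe u

set_option linter.unusedSectionVars false

variable {E B W F : Type u} [Fintype E] [Fintype B] [Fintype W] [DecidableEq E] [DecidableEq B]
  [DecidableEq W] [DecidableEq F]

namespace Cor

variable {T : Tri E B W F} (K : Cor T)

lemma star (hc : T.Conn3) (heu : T.faces.card = Fintype.card B + 2) {t0 : B} (hn : T.NoTri t0)
    (Y : Finset F) (hY : Y ⊆ K.nonroot t0) :
    2 * Y.card ≤ ∑ t ∈ univ.erase t0, min 2 #{j | K.c t j ∈ Y} := by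
  classical
  have hY' : Y ⊆ T.faces := hY.trans sdiff_subset
  have hroot : ∀ j, K.c t0 j ∉ Y := fun j h => (mem_sdiff.1 (hY h)).2 (mem_image_of_mem _ (mem_univ _))
  have hZ : ∀ t j, K.c t j ∈ T.faces \ Y ↔ K.c t j ∉ Y := fun t j => by simp [K.c_mem]
  have h1 := Tri.region_count hc heu hn (T.faces \ Y) (by
    intro e he
    obtain ⟨j, hj⟩ := K.fib e
    rw [hj, K.hd_eb, hZ, he]; exact hroot _)
  set EZ : Finset E := {e | T.hd e ∈ T.faces \ Y ∧ T.tl e ∈ T.faces \ Y} with hEZ
  have h2 : ∀ t, #{e ∈ EZ | T.b e = t} + min 2 #{j | K.c t j ∈ Y} =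
      2 + if (∀ e, T.b e = t → T.hd e ∈ T.faces \ Y) then 1 else 0 := by
    intro t
    have a : #{e ∈ EZ | T.b e = t} = ∑ e with T.b e = t, if e ∈ EZ then 1 else 0 := by
      rw [← card_filter]; congr 1; ext e; simp only [mem_filter, mem_univ, true_and]; exact and_comm
    have b : (∀ e, T.b e = t → T.hd e ∈ T.faces \ Y) ↔
        K.c t 0 ∉ Y ∧ K.c t 1 ∉ Y ∧ K.c t 2 ∉ Y := by
      simp only [K.fib_iff, or_imp, forall_and, forall_eq, K.hd_eb, hZ]
      exact ⟨fun h => ⟨h.2.1, h.2.2, h.1⟩, fun h => ⟨h.2.2, h.1, h.2.1⟩⟩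
    have c : ∀ j, K.eb t j ∈ EZ ↔ K.c t (j + 2) ∉ Y ∧ K.c t (j + 1) ∉ Y := by
      intro j
      simp only [EZ, mem_filter, mem_univ, true_and, K.hd_eb, K.tl_eb, hZ]
    rw [a, K.sum_fib, card_filter, Fin.sum_univ_three]
    simp only [b, c, show (0 + 2 : Fin 3) = 2 from rfl, show (0 + 1 : Fin 3) = 1 from rfl,
      show (1 + 2 : Fin 3) = 0 from rfl, show (1 + 1 : Fin 3) = 2 from rfl,
      show (2 + 2 : Fin 3) = 1 from rfl, show (2 + 1 : Fin 3) = 0 from rfl]
    by_cases a0 : K.c t 0 ∈ Y <;> by_cases a1 : K.c t 1 ∈ Y <;> by_cases a2 : K.c t 2 ∈ Y <;>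
      simp [a0, a1, a2]
  have h3 := card_eq_sum_card_fiberwise (s := EZ) (t := univ) (f := T.b) (by simp)
  rw [← add_sum_erase _ _ (mem_univ t0)] at h3
  have h4 := h2 t0
  rw [if_pos (by
    intro e he
    obtain ⟨j, hj⟩ := K.fib e
    rw [hj, K.hd_eb, hZ, he]; exact hroot _)] at h4
  have h5 : #{j | K.c t0 j ∈ Y} = 0 := by simp [hroot]
  have h6 := sum_congr rfl (s₁ := univ.erase t0) fun t _ => h2 t
  rw [sum_add_distrib, sum_add_distrib, ← card_filter, sum_const, card_erase_of_mem (mem_univ _),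
    card_univ, smul_eq_mul] at h6
  have h7 : (filter (fun t => ∀ e, T.b e = t → T.hd e ∈ T.faces \ Y) (univ.erase t0)) =
      ({t | t ≠ t0 ∧ ∀ e, T.b e = t → T.hd e ∈ T.faces \ Y} : Finset B) := by
    ext t; simp
  rw [h7] at h6
  have h8 := card_sdiff_add_card_eq_card hY'
  have : 0 < Fintype.card B := Fintype.card_pos_iff.2 ⟨t0⟩
  omega

lemma hall1 (hc : T.Conn3) (heu : T.faces.card = Fintype.card B + 2) {t0 : B} (hn : T.NoTri t0) :
    ∃ (h : B → Fin 3) (lab : B → Fin 3 → Bool),
      (∀ t j, t ≠ t0 → j ≠ h t → K.c t j ∈ K.nonroot t0) ∧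
      ∀ t j t' j', t ≠ t0 → j ≠ h t → t' ≠ t0 → j' ≠ h t' → K.c t j = K.c t' j' →
        lab t j = lab t' j' → t = t' ∧ j = j' := by
  classical
  let nb : {t // t ≠ t0} ⊕ (K.nonroot t0 × Bool) → Finset (B × Fin 3) :=
    Sum.elim (fun t => univ.filter fun p => p.1 = t.1)
      (fun v => univ.filter fun p => p.1 ≠ t0 ∧ K.c p.1 p.2 = v.1.1)
  obtain ⟨ψ, hψ, hmem⟩ := (all_card_le_biUnion_card_iff_existsInjective' nb).1 (by
    intro s
    let X : Finset B := s.toLeft.image Subtype.val
    let Y : Finset F := s.toRight.image fun v => v.1.1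
    have hY : Y ⊆ K.nonroot t0 := by
      intro v hv
      obtain ⟨x, -, rfl⟩ := mem_image.1 hv
      exact x.1.2
    have hX : X ⊆ univ.erase t0 := by
      intro t ht
      obtain ⟨x, -, rfl⟩ := mem_image.1 ht
      simpa using x.2
    have a1 : s.toLeft.card = X.card := (card_image_of_injective _ Subtype.val_injective).symm
    have a2 : s.toRight.card ≤ Y.card * 2 := by
      have : s.toRight.card ≤ (Y ×ˢ (univ : Finset Bool)).card := by
        refine card_le_card_of_injOn (fun v => (v.1.1, v.2)) ?_ ?_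
        · intro v hv
          simp only [coe_product, coe_univ, Set.mem_prod, mem_coe, Set.mem_univ, and_true]
          exact mem_image_of_mem _ hv
        · intro v _ v' _ h
          simp only [Prod.mk.injEq] at h
          exact Prod.ext (Subtype.ext h.1) h.2
      simpa using this
    have a3 := K.star hc heu hn Y hY
    have a4 := card_eq_sum_card_fiberwise (s := s.biUnion nb) (t := univ.erase t0) (f := Prod.fst)
      (by
        intro p hp
        simp only [coe_biUnion, mem_coe, Set.mem_iUnion] at hp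
        obtain ⟨x, -, hx⟩ := hp
        rcases x with x | x
        · simp only [nb, Sum.elim_inl, mem_filter, mem_univ, true_and] at hx
          simpa [hx] using x.2
        · simp only [nb, Sum.elim_inr, mem_filter, mem_univ, true_and] at hx
          simpa using hx.1)
    have a5 : ∀ t ∈ univ.erase t0, (if t ∈ X then 1 else 0) + min 2 #{j | K.c t j ∈ Y} ≤
        #{p ∈ s.biUnion nb | p.1 = t} := by
      intro t ht
      have ht' := ne_of_mem_erase ht
      split_ifs with h
      · have : (univ : Finset (Fin 3)).card ≤ #{p ∈ s.biUnion nb | p.1 = t} := by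
          refine card_le_card_of_injOn (fun j => (t, j)) ?_ (fun j _ j' _ h => by simpa using h)
          intro j _
          obtain ⟨x, hx, rfl⟩ := mem_image.1 h
          simp only [coe_filter, mem_biUnion, Set.mem_ofPred_eq, and_true]
          exact ⟨inl x, by simpa using hx, by simp [nb]⟩
        simp only [card_univ, Fintype.card_fin] at this
        omega
      · have : #{j | K.c t j ∈ Y} ≤ #{p ∈ s.biUnion nb | p.1 = t} := by
          refine card_le_card_of_injOn (fun j => (t, j)) ?_ (fun j _ j' _ h => by simpa using h)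
          intro j hj
          simp only [coe_filter, mem_univ, true_and, Set.mem_ofPred_eq] at hj
          obtain ⟨x, hx, hx'⟩ := mem_image.1 hj
          simp only [coe_filter, mem_biUnion, Set.mem_ofPred_eq, and_true]
          exact ⟨inr x, by simpa using hx, by simp [nb, ht', hx']⟩
        omega
    have a6 := sum_le_sum a5
    rw [sum_add_distrib, ← card_filter, filter_mem_eq_inter, inter_eq_right.2 hX] at a6
    rw [← card_toLeft_add_card_toRight]
    omega)
  have hsurj : ∀ t j, t ≠ t0 → ∃ x, ψ x = (t, j) := by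
    have : univ.image ψ = (univ.erase t0) ×ˢ univ := by
      refine eq_of_subset_of_card_le ?_ ?_
      · intro p hp
        obtain ⟨x, -, rfl⟩ := mem_image.1 hp
        have hx := hmem x
        rcases x with x | x
        · simp only [nb, Sum.elim_inl, mem_filter, mem_univ, true_and] at hx
          simpa [hx] using x.2
        · simp only [nb, Sum.elim_inr, mem_filter, mem_univ, true_and] at hx
          simpa using hx.1
      · rw [card_image_of_injective _ hψ, card_product, card_univ (α := _ ⊕ _), Fintype.card_sum,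
          Fintype.card_prod, Fintype.card_coe, K.card_nonroot (hc.no_loop heu) heu,
          Fintype.card_subtype, filter_ne']
        simp only [card_univ, Fintype.card_fin, Fintype.card_bool]
        omega
    intro t j ht
    have h1 : (t, j) ∈ univ.image ψ := by rw [this]; simp [ht]
    obtain ⟨x, -, hx⟩ := mem_image.1 h1
    exact ⟨x, hx⟩
  let h : B → Fin 3 := fun t => if ht : t ≠ t0 then (ψ (inl ⟨t, ht⟩)).2 else 0
  have hQ : ∀ t j, ∃ i, t ≠ t0 → j ≠ h t →
      ∃ v : K.nonroot t0, ψ (inr (v, i)) = (t, j) ∧ K.c t j = v := by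
    intro t j
    by_cases ht : t = t0
    · exact ⟨true, fun h => absurd ht h⟩
    obtain ⟨x, hx⟩ := hsurj t j ht
    have hx' := hmem x
    rcases x with x | ⟨v, i⟩
    · refine ⟨true, fun _ hj => absurd ?_ hj⟩
      simp only [nb, Sum.elim_inl, mem_filter, mem_univ, true_and, hx] at hx'
      obtain ⟨x, hx0⟩ := x
      subst hx'
      simp only [h, dif_pos hx0, hx]
    · refine ⟨i, fun _ _ => ⟨v, hx, ?_⟩⟩
      simp only [nb, Sum.elim_inr, mem_filter, mem_univ, true_and, hx] at hx'
      exact hx'.2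
  choose lab hlab using hQ
  refine ⟨h, lab, fun t j ht hj => ?_, fun t j t' j' ht hj ht' hj' h1 h2 => ?_⟩
  · obtain ⟨v, -, hv⟩ := hlab t j ht hj
    rw [hv]; exact v.2
  · obtain ⟨v, a, b⟩ := hlab t j ht hj
    obtain ⟨v', a', b'⟩ := hlab t' j' ht' hj'
    have : v = v' := Subtype.ext (by rw [← b, ← b', h1])
    rw [this, h2, a'] at a
    simpa [eq_comm] using a

theorem exists_pair (hc : T.Conn3) (heu : T.faces.card = Fintype.card B + 2) {t0 : B}
    (hn : T.NoTri t0) : ∃ p, K.Pair t0 p := by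
  classical
  obtain ⟨h, lab, h1, h2⟩ := K.hall1 hc heu hn
  let nb : {t // t ≠ t0} → Finset F := fun t => (univ.erase (h t)).image (K.c t)
  obtain ⟨φ, hφ, hmem⟩ := (all_card_le_biUnion_card_iff_existsInjective' nb).1 (by
    intro s
    have : (s.sigma fun t => univ.erase (h t)).card ≤ ((s.biUnion nb) ×ˢ (univ : Finset Bool)).card := by
      refine card_le_card_of_injOn (fun p => (K.c p.1 p.2, lab p.1 p.2)) ?_ ?_
      · rintro ⟨t, j⟩ hp
        simp only [coe_sigma, Set.mem_sigma_iff, mem_coe] at hp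
        simp only [coe_product, coe_univ, Set.mem_prod, mem_coe, Set.mem_univ, and_true, mem_biUnion]
        exact ⟨t, hp.1, mem_image_of_mem _ hp.2⟩
      · rintro ⟨t, j⟩ hp ⟨t', j'⟩ hp' h3
        simp only [coe_sigma, Set.mem_sigma_iff, mem_coe] at hp hp'
        simp only [Prod.mk.injEq] at h3
        obtain ⟨a, b⟩ := h2 _ _ _ _ t.2 (ne_of_mem_erase hp.2) t'.2 (ne_of_mem_erase hp'.2) h3.1 h3.2
        obtain rfl : t = t' := Subtype.ext a
        rw [b]
    simp only [card_sigma, card_erase_of_mem (mem_univ _), card_univ, Fintype.card_fin, sum_const,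
      smul_eq_mul, card_product, Fintype.card_bool] at this
    omega)
  have : ∀ t, ∃ j, ∀ ht : t ≠ t0, j ≠ h t ∧ K.c t j = φ ⟨t, ht⟩ := by
    intro t
    by_cases ht : t = t0
    · exact ⟨0, fun h => absurd ht h⟩
    obtain ⟨j, a, b⟩ := mem_image.1 (hmem ⟨t, ht⟩)
    exact ⟨j, fun _ => ⟨ne_of_mem_erase a, b⟩⟩
  choose r hr using this
  have hnr : ∀ t j, t ≠ t0 → j ≠ h t → ∀ j', K.c t j ≠ K.c t0 j' := fun t j a b j' c =>
    (mem_sdiff.1 (h1 t j a b)).2 (c ▸ mem_image_of_mem _ (mem_univ _))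
  have hst : K.St t0 r := ⟨fun t ht => hnr t _ ht (hr t ht).1, fun t t' ht ht' h3 => by
    rw [(hr t ht).2, (hr t' ht').2] at h3
    exact congrArg Subtype.val (hφ h3)⟩
  have hs1 : ∀ t, t ≠ t0 → thd (h t) (r t) ≠ h t := fun t ht => thd_ne_left _ _ (hr t ht).1.symm
  have hs2 : ∀ t, t ≠ t0 → thd (h t) (r t) ≠ r t := fun t ht => thd_ne_right _ _ (hr t ht).1.symm
  refine ⟨(r, fun t => thd (h t) (r t)), hst, ⟨fun t ht => hnr t _ ht (hs1 t ht),
    fun t t' ht ht' h3 => ?_⟩, fun t ht => (hs2 t ht).symm⟩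
  obtain ⟨t'', a, b⟩ := hst.surj (hc.no_loop heu) heu (h1 t _ ht (hs1 t ht))
  by_cases c : lab t (thd (h t) (r t)) = lab t' (thd (h t') (r t'))
  · exact (h2 _ _ _ _ ht (hs1 t ht) ht' (hs1 t' ht') h3 c).1
  by_cases d : lab t (thd (h t) (r t)) = lab t'' (r t'')
  · obtain ⟨rfl, f⟩ := h2 _ _ _ _ ht (hs1 t ht) a (hr _ a).1 b.symm d
    exact absurd f (hs2 t ht)
  · obtain ⟨rfl, f⟩ := h2 _ _ _ _ ht' (hs1 t' ht') a (hr _ a).1 (h3.symm.trans b.symm) (by
      revert c d
      cases lab t (thd (h t) (r t)) <;> cases lab t' (thd (h t') (r t')) <;> cases lab t'' (r t'') <;>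
        simp)
    exact absurd f (hs2 t' ht')

end Cor

theorem Tri.core {T : Tri E B W F} (hc : T.Conn3) (heu : T.faces.card = Fintype.card B + 2)
    (e0 : E) (hn : T.NoTri (T.b e0)) : ∃ M, e0 ∈ M ∧ T.Good M := by
  obtain ⟨K⟩ := T.exists_cor
  obtain ⟨r, s, h1, h2⟩ := K.exists_acyclic hc heu (K.exists_pair hc heu hn)
  obtain ⟨j, hj⟩ := K.fib e0
  obtain ⟨M, h3, h4⟩ := K.good_of_acyclic hc heu h1 h2 j
  exact ⟨M, hj ▸ h3, h4⟩

end Vale.Agent.P039
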