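import Vale.Agent.P039.Hall

open Finset Sum

namespace Vale.Agent.P039

universe u

set_option linter.unusedSectionVars false

variable {E B W F : Type u} [Fintype E] [Fintype B] [Fintype W] [DecidableEq E] [DecidableEq B]
  [DecidableEq W] [DecidableEq F]

def swS (S : Finset (B ⊕ W)) : Finset (W ⊕ B) := univ.filter fun y => y.swap ∈ S

@[simp] lemma mem_swS {S : Finset (B ⊕ W)} {y : W ⊕ B} : y ∈ swS S ↔ y.swap ∈ S := by simp [swS]

namespace Tri

def swap (T : Tri E B W F) : Tri E W B F := ⟨T.w, T.b, T.hd, T.tl, T.wht, T.blk⟩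

lemma swap_cutB (T : Tri E B W F) (S : Finset (W ⊕ B)) : T.swap.cutB S = T.cutW (swS S) := by
  ext e; simp [mem_cutB, mem_cutW, swap]
lemma swap_cutW (T : Tri E B W F) (S : Finset (W ⊕ B)) : T.swap.cutW S = T.cutB (swS S) := by
  ext e; simp [mem_cutB, mem_cutW, swap]

lemma Conn3.swap {T : Tri E B W F} (h : T.Conn3) : T.swap.Conn3 := by
  intro S h1 h2
  rw [swap_cutB, swap_cutW, add_comm]
  refine h _ ?_ ?_
  · obtain ⟨x, hx⟩ := h1
    exact ⟨x.swap, by simpa using hx⟩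
  · intro h3
    refine h2 (eq_univ_of_forall fun x => ?_)
    have : x.swap ∈ swS S := h3 ▸ mem_univ _
    simpa using this

lemma cut_tri {T : Tri E B W F} (hl : ∀ e, T.hd e ≠ T.tl e) {S : Finset (B ⊕ W)}
    (h3 : (T.cutB S).card = 3) (h0 : T.cutW S = ∅) : ∃ e0 e1 e2 : E, e0 ≠ e1 ∧ e1 ≠ e2 ∧ e0 ≠ e2 ∧
      (∀ e, e ∈ T.cutB S ↔ e = e0 ∨ e = e1 ∨ e = e2) ∧
      T.hd e0 = T.tl e1 ∧ T.hd e1 = T.tl e2 ∧ T.hd e2 = T.tl e0 := by
  obtain ⟨a, b, c, hab, hac, hbc, h⟩ := card_eq_three.1 h3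
  have key : ∀ f : F → ℤ, f (T.hd a) + f (T.hd b) + f (T.hd c) =
      f (T.tl a) + f (T.tl b) + f (T.tl c) := by
    intro f
    have h1 := T.orthK (fun x => if x ∈ S then (1 : ℤ) else 0) f
    rw [← sum_subset (subset_univ (T.cutB S)) (by
      intro e _ he
      have : e ∉ T.cutW S := by simp [h0]
      rw [mem_cutB] at he; rw [mem_cutW] at this
      have : inl (T.b e) ∈ S ↔ inr (T.w e) ∈ S := by tauto
      simp [this]), sum_congr rfl (g := fun e => f (T.hd e) - f (T.tl e)) (by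
        intro e he
        rw [mem_cutB] at he
        simp [he.1, he.2]), h, sum_insert (by simp [hab, hac]), sum_insert (by simp [hbc]),
      sum_singleton] at h1
    linarith
  have k1 : ∀ v, (if T.hd a = v then 1 else 0) + (if T.hd b = v then 1 else 0) +
      (if T.hd c = v then 1 else 0) = (if T.tl a = v then 1 else 0) +
      (if T.tl b = v then 1 else 0) + (if T.tl c = v then (1 : ℤ) else 0) :=
    fun v => key fun x => if x = v then 1 else 0
  have la := hl a; have lb := hl b; have lc := hl c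
  by_cases h1 : T.hd a = T.tl b
  · have h2 : T.hd c = T.tl a := by
      by_contra h2
      have := k1 (T.hd c)
      rw [h1, if_pos rfl, if_neg (Ne.symm h2), if_neg lc.symm] at this
      split_ifs at this <;> omega
    have h3 : T.hd b = T.tl c := by
      by_contra h3
      have := k1 (T.hd b)
      rw [h1, h2, if_pos rfl, if_neg (Ne.symm h3)] at this
      omega
    exact ⟨a, b, c, hab, hbc, hac, by simp [h], h1, h3, h2⟩
  · have h1' : T.hd a = T.tl c := by
      by_contra h2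
      have := k1 (T.hd a)
      rw [if_pos rfl, if_neg (Ne.symm h2), if_neg la.symm, if_neg (Ne.symm h1)] at this
      split_ifs at this <;> omega
    have h2 : T.hd b = T.tl a := by
      by_contra h2
      have := k1 (T.hd b)
      rw [h1', if_pos rfl, if_neg (Ne.symm h2), if_neg lb.symm] at this
      split_ifs at this <;> omega
    have h3 : T.hd c = T.tl b := by
      by_contra h3
      have := k1 (T.hd c)
      rw [h1', h2, if_pos rfl, if_neg (Ne.symm h3)] at this
      omega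
    exact ⟨a, c, b, hac, hbc.symm, hab, by simp [h]; tauto, h1', h3, h2⟩

lemma triFib_sub {E X' F : Type u} {p : E → Prop} {hd tl : E → F} {g' : {e // p e} → X'}
    {t' : X'} {q : E → Prop} (h1 : ∀ e, q e → p e) (h2 : ∀ e, g' e = t' ↔ q e.1)
    (h : ∃ e0 e1 e2 : E, e0 ≠ e1 ∧ e1 ≠ e2 ∧ e0 ≠ e2 ∧ (∀ e, q e ↔ e = e0 ∨ e = e1 ∨ e = e2) ∧
      hd e0 = tl e1 ∧ hd e1 = tl e2 ∧ hd e2 = tl e0) :
    TriFib g' (fun e => hd e.1) (fun e => tl e.1) t' := by
  obtain ⟨e0, e1, e2, a, b, c, d, f⟩ := h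
  refine ⟨⟨e0, h1 _ ((d _).2 (by simp))⟩, ⟨e1, h1 _ ((d _).2 (by simp))⟩,
    ⟨e2, h1 _ ((d _).2 (by simp))⟩, by simpa using a, by simpa using b, by simpa using c, ?_, f⟩
  intro e
  simp only [h2, d, Subtype.ext_iff]

/-- contracting one side of a 3-cut to a black vertex -/
def contract (T : Tri E B W F) (hl : ∀ e, T.hd e ≠ T.tl e) (S : Finset (B ⊕ W))
    (h3 : (T.cutB S).card = 3) (h0 : T.cutW S = ∅) :
    Tri {e // inr (T.w e) ∉ S} (Option {t // inl t ∉ S}) {x // inr x ∉ S} F where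
  b e := if h : inl (T.b e) ∈ S then none else some ⟨_, h⟩
  w e := ⟨T.w e, e.2⟩
  hd e := T.hd e.1
  tl e := T.tl e.1
  blk t := by
    rcases t with _ | ⟨t, ht⟩
    · refine triFib_sub (q := fun e => e ∈ T.cutB S) (fun e he => (T.mem_cutB.1 he).2)
        (fun e => ?_) (cut_tri hl h3 h0)
      rw [mem_cutB]
      by_cases h : inl (T.b e) ∈ S <;> simp [h, e.2]
    · refine triFib_sub (q := fun e => T.b e = t) (fun e he h => ?_)
        (fun e => ?_) (T.blk t)
      · have : e ∈ T.cutW S := T.mem_cutW.2 ⟨h, he ▸ ht⟩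
        simp [h0] at this
      · by_cases h : inl (T.b e) ∈ S
        · simp only [h, dif_pos, reduceCtorEq, false_iff]
          rintro rfl; exact ht h
        · simp [h]
  wht x := triFib_sub (q := fun e => T.w e = x.1) (fun e he => he ▸ x.2)
    (fun e => Subtype.ext_iff) (T.wht x.1)

def proj (S : Finset (B ⊕ W)) : B ⊕ W → Option {t // inl t ∉ S} ⊕ {x // inr x ∉ S}
  | inl t => if h : inl t ∈ S then inl none else inl (some ⟨t, h⟩)
  | inr x => if h : inr x ∈ S then inl none else inr ⟨x, h⟩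

section
variable {T : Tri E B W F} {hl : ∀ e, T.hd e ≠ T.tl e} {S : Finset (B ⊕ W)}
    {h3 : (T.cutB S).card = 3} {h0 : T.cutW S = ∅}

lemma proj_b (e : {e // inr (T.w e) ∉ S}) :
    proj S (inl (T.b e)) = inl ((T.contract hl S h3 h0).b e) := by
  simp only [proj, contract]; split_ifs <;> rfl

lemma proj_w (e : {e // inr (T.w e) ∉ S}) :
    proj S (inr (T.w e)) = inr ((T.contract hl S h3 h0).w e) := by
  simp only [proj, contract, dif_neg e.2]

lemma proj_mem {x : B ⊕ W} (h : x ∈ S) : proj S x = inl none := by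
  rcases x with x | x <;> simp [proj, h]

include h0 in
lemma b_mem {e : E} (h : inr (T.w e) ∈ S) : inl (T.b e) ∈ S := by
  by_contra h'
  have : e ∈ T.cutW S := T.mem_cutW.2 ⟨h, h'⟩
  simp [h0] at this

include h3 in
lemma proj_surj : Function.Surjective (proj S) := by
  rintro ((_ | ⟨t, ht⟩) | ⟨x, hx⟩)
  · obtain ⟨e, he⟩ := card_pos.1 (by omega : 0 < (T.cutB S).card)
    exact ⟨_, proj_mem (T.mem_cutB.1 he).1⟩
  · exact ⟨inl t, by simp [proj, ht]⟩
  · exact ⟨inr x, by simp [proj, hx]⟩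

lemma contract_conn3 (hc : T.Conn3) : (T.contract hl S h3 h0).Conn3 := by
  classical
  intro R h1 h2
  have := hc (univ.filter fun x => proj S x ∈ R) (by
    obtain ⟨y, hy⟩ := h1
    obtain ⟨x, rfl⟩ := proj_surj (h3 := h3) y
    exact ⟨x, by simpa using hy⟩) (by
    intro h
    refine h2 (eq_univ_of_forall fun y => ?_)
    obtain ⟨x, rfl⟩ := proj_surj (h3 := h3) y
    have : x ∈ univ.filter fun x => proj S x ∈ R := h.symm ▸ mem_univ _
    simpa using this)
  refine this.trans (add_le_add ?_ ?_)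
  · refine le_trans (card_le_card ?_) (card_image_le (f := Subtype.val))
    intro e he
    simp only [mem_cutB, mem_filter, mem_univ, true_and] at he
    have a : inr (T.w e) ∉ S := fun h => by
      rw [proj_mem h, proj_mem (b_mem (h0 := h0) h)] at he; exact he.2 he.1
    refine mem_image.2 ⟨⟨e, a⟩, ?_, rfl⟩
    rw [mem_cutB, ← proj_b, ← proj_w]; exact he
  · refine le_trans (card_le_card ?_) (card_image_le (f := Subtype.val))
    intro e he
    simp only [mem_cutW, mem_filter, mem_univ, true_and] at he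
    have a : inr (T.w e) ∉ S := fun h => by
      rw [proj_mem h, proj_mem (b_mem (h0 := h0) h)] at he; exact he.2 he.1
    refine mem_image.2 ⟨⟨e, a⟩, ?_, rfl⟩
    rw [mem_cutW, ← proj_b, ← proj_w]; exact he

lemma contract_faces :
    (T.contract hl S h3 h0).faces = (univ.filter fun e => inr (T.w e) ∉ S).image T.hd := by
  ext v
  simp only [faces, contract, mem_image, mem_univ, true_and, mem_filter, Subtype.exists, exists_prop]

/-- what a good matching of the contraction gives upstairs -/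
lemma contract_good {M1 : Finset {e // inr (T.w e) ∉ S}} (hM1 : (T.contract hl S h3 h0).Good M1)
    {M : Finset E} (hM : ∀ e : {e // inr (T.w e) ∉ S}, e.1 ∈ M ↔ e ∈ M1) :
    (∀ t, inl t ∉ S → ∃! e, T.b e = t ∧ e ∈ M) ∧ (∀ x, inr x ∉ S → ∃! e, T.w e = x ∧ e ∈ M) ∧
    ∀ (R : Finset (B ⊕ W)) (P : Prop), (∀ e, e ∉ M → (inl (T.b e) ∈ R ↔ inr (T.w e) ∈ R)) →
      (∀ e ∈ T.cutB S, e ∉ M → (inr (T.w e) ∈ R ↔ P)) → ∀ x, x ∉ S → (x ∈ R ↔ P) := by
  classical
  refine ⟨fun t ht => ?_, fun x hx => ?_, fun R P h1 h2 => ?_⟩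
  · obtain ⟨e, ⟨a, b⟩, c⟩ := hM1.1 (some ⟨t, ht⟩)
    have d : ∀ e : {e // inr (T.w e) ∉ S}, (T.contract hl S h3 h0).b e = some ⟨t, ht⟩ ↔
        T.b e = t := by
      intro e
      simp only [contract]
      split_ifs with h
      · simp only [false_iff]
        rintro rfl; exact ht h
      · simp
    refine ⟨e.1, ⟨(d e).1 a, (hM e).2 b⟩, ?_⟩
    rintro e' ⟨a', b'⟩
    have f : inr (T.w e') ∉ S := fun h => ht (a' ▸ b_mem (h0 := h0) h)
    exact congrArg Subtype.val (c ⟨e', f⟩ ⟨(d _).2 a', (hM ⟨e', f⟩).1 b'⟩)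
  · obtain ⟨e, ⟨a, b⟩, c⟩ := hM1.2.1 ⟨x, hx⟩
    refine ⟨e.1, ⟨congrArg Subtype.val a, (hM e).2 b⟩, ?_⟩
    rintro e' ⟨a', b'⟩
    have f : inr (T.w e') ∉ S := a' ▸ hx
    exact congrArg Subtype.val (c ⟨e', f⟩ ⟨Subtype.ext a', (hM ⟨e', f⟩).1 b'⟩)
  · let Q : Option {t // inl t ∉ S} ⊕ {x // inr x ∉ S} → Prop :=
      Sum.elim (fun o => o.elim P fun t => inl t.1 ∈ R) fun x => inr x.1 ∈ R
    have hQ : ∀ x, x ∉ S → (Q (proj S x) ↔ x ∈ R) := by
      rintro (x | x) hx <;> simp [Q, proj, hx]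
    have := hM1.2.2 (univ.filter Q) (by
      intro e he
      rw [← hM] at he
      simp only [mem_filter, mem_univ, true_and]
      rw [← proj_b, ← proj_w, hQ _ e.2]
      by_cases h : inl (T.b e) ∈ S
      · rw [proj_mem h, h2 e (T.mem_cutB.2 ⟨h, e.2⟩) he]; rfl
      · rw [hQ _ h, h1 e he])
    intro x hx
    rw [← hQ x hx]
    have a : ∀ y, Q y ↔ y ∈ univ.filter Q := by simp
    change _ ↔ Q (inl none)
    rw [a, a]
    rcases this with h | h <;> simp [h]

lemma contract_none {M1 : Finset {e // inr (T.w e) ∉ S}}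
    (hM1 : (T.contract hl S h3 h0).Good M1) :
    ∃ e1 : {e // inr (T.w e) ∉ S}, inl (T.b e1) ∈ S ∧
      ∀ e : {e // inr (T.w e) ∉ S}, inl (T.b e) ∈ S → (e ∈ M1 ↔ e = e1) := by
  obtain ⟨e, ⟨a, b⟩, c⟩ := hM1.1 none
  have d : ∀ e : {e // inr (T.w e) ∉ S}, (T.contract hl S h3 h0).b e = none ↔
      inl (T.b e) ∈ S := by
    intro e
    simp only [contract]
    split_ifs with h <;> simp [h]
  exact ⟨e, (d e).1 a, fun e' h => ⟨fun h' => c e' ⟨(d _).2 h, h'⟩, fun h' => h' ▸ b⟩⟩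

end

end Tri

end Vale.Agent.P039
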