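import Vale.Agent.P039.Wind2
import Vale.Agent.P039.All

open Finset

namespace Vale.Agent.P039

universe u

set_option linter.unusedSectionVars false

variable {E B W : Type u} [Fintype E] [Fintype B] [Fintype W] [DecidableEq E] [DecidableEq B]
  [DecidableEq W] {b : E → B} {w : E → W}

def Three {E X : Type u} (g : E → X) : Prop :=
  ∀ t, ∃ e0 e1 e2 : E, e0 ≠ e1 ∧ e1 ≠ e2 ∧ e0 ≠ e2 ∧ ∀ e, g e = t ↔ e = e0 ∨ e = e1 ∨ e = e2

noncomputable def Sys.tri (S : Sys b w) (hb : Three b) (hw : Three w) :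
    Tri E B W ({z : E → ℤ // Circ b w z} → ZMod 2) where
  b := b
  w := w
  hd e z := (S.N e z.1 : ℤ)
  tl e z := (S.N e z.1 + z.1 e : ℤ)
  blk t := by
    obtain ⟨e0, e1, e2, h01, h12, h02, h⟩ := hb t
    exact S.triFib h01 h12 h02 h
  wht t := by
    obtain ⟨e0, e1, e2, h01, h12, h02, h⟩ := hw t
    obtain ⟨e0, e1, e2, h01, h12, h02, h, a0, a1, a2⟩ := S.rev.triFib h01 h12 h02 h
    have key : ∀ e e', ((fun z : {z : E → ℤ // Circ w b z} => ((S.rev.N e z.1 : ℤ) : ZMod 2)) =
        fun z => ((S.rev.N e' z.1 + z.1 e' : ℤ) : ZMod 2)) →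
        ((fun z : {z : E → ℤ // Circ b w z} => ((S.N e' z.1 : ℤ) : ZMod 2)) =
        fun z => ((S.N e z.1 + z.1 e : ℤ) : ZMod 2)) := by
      intro e e' h
      funext z
      have := congrFun h ⟨z.1, z.2.2, z.2.1⟩
      simp only [S.N_rev _ z.2] at this
      push_cast at this ⊢
      linear_combination this
    exact ⟨e0, e2, e1, h02, h12.symm, h01, fun e => by rw [h]; tauto, key _ _ a2, key _ _ a1,
      key _ _ a0⟩

lemma Sys.tri_faces (S : Sys b w) (hb : Three b) (hw : Three w) (t0 : B)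
    [DecidableEq ({z : E → ℤ // Circ b w z} → ZMod 2)] :
    Fintype.card B + 2 ≤ (S.tri hb hw).faces.card := by
  classical
  let d : (E → ℤ) →ₗ[ℤ] (({t // t ≠ t0} → ℤ) × (W → ℤ)) :=
    { toFun := fun z => (fun t => ∑ e with b e = t, z e, fun x => ∑ e with w e = x, z e)
      map_add' := by intro z z'; ext <;> simp [sum_add_distrib]
      map_smul' := by intro c z; ext <;> simp [mul_sum] }
  have hd : ∀ z : LinearMap.ker d, Circ b w z.1 := by
    rintro ⟨z, hz⟩
    rw [LinearMap.mem_ker] at hz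
    have h1 : ∀ t, t ≠ t0 → ∑ e with b e = t, z e = 0 := fun t ht =>
      congrFun (congrArg Prod.fst hz) ⟨t, ht⟩
    have h2 : ∀ t, ∑ e with w e = t, z e = 0 := fun t => congrFun (congrArg Prod.snd hz) t
    refine ⟨fun t => ?_, h2⟩
    by_cases ht : t = t0
    swap
    · exact h1 t ht
    have a := sum_fiberwise univ b z
    have c := sum_fiberwise univ w z
    rw [sum_eq_single t0 (fun t _ ht => h1 t ht) (by simp)] at a
    simp only [h2, sum_const_zero] at c
    rw [ht, a, ← c]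
  have hE := (S.tri hb hw).cardE
  have hW := (S.tri hb hw).cardW
  have hk : Fintype.card B + 1 ≤ Module.finrank ℤ (LinearMap.ker d) := by
    have a := (LinearMap.ker d).finrank_quotient_add_finrank
    have c := LinearMap.finrank_le_finrank_of_injective (f := (LinearMap.ker d).liftQ d le_rfl)
      (by rw [← LinearMap.ker_eq_bot]; exact Submodule.ker_liftQ_eq_bot _ _ _ le_rfl)
    simp only [Module.finrank_prod, Module.finrank_fintype_fun_eq_card, Fintype.card_subtype_compl,
      Fintype.card_unique] at a c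
    have : 0 < Fintype.card B := Fintype.card_pos_iff.2 ⟨t0⟩
    omega
  let bs := Module.finBasis ℤ (LinearMap.ker d)
  let v : (Fin (Module.finrank ℤ (LinearMap.ker d)) → ZMod 2) → LinearMap.ker d :=
    fun c => bs.equivFun.symm fun i => ((c i).val : ℤ)
  let Ψ : (Fin (Module.finrank ℤ (LinearMap.ker d)) → ZMod 2) × ZMod 2 →
      ((S.tri hb hw).faces → ZMod 2) := fun p f => f.1 ⟨(v p.1).1, hd _⟩ + p.2
  obtain ⟨e0, -⟩ := fib_ne ((S.tri hb hw).blk t0)
  have hΨ : Function.Injective Ψ := by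
    rintro ⟨c, a⟩ ⟨c', a'⟩ h
    have h1 : ∀ e, (((v c).1 e : ℤ) : ZMod 2) = ((v c').1 e : ℤ) := by
      intro e
      have p1 := congrFun h ⟨_, (S.tri hb hw).hd_mem_faces e⟩
      have p2 := congrFun h ⟨_, (S.tri hb hw).tl_mem_faces e⟩
      simp only [Ψ, Sys.tri] at p1 p2
      push_cast at p1 p2
      linear_combination p2 - p1
    have h2 : ∀ e, ∃ y, (v c').1 e - (v c).1 e = 2 * y := fun e =>
      (ZMod.intCast_eq_intCast_iff_dvd_sub _ _ 2).1 (h1 e)
    choose y hy using h2
    have h3 : (v c').1 - (v c).1 = (2 : ℤ) • y := by ext e; simpa using hy e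
    have h4 : y ∈ LinearMap.ker d := by
      have : (2 : ℤ) • d y = 0 := by
        rw [← map_smul, ← h3]; exact LinearMap.mem_ker.1 (v c' - v c).2
      exact (smul_eq_zero.1 this).resolve_left (by norm_num)
    have h5 : v c' - v c = (2 : ℤ) • (⟨y, h4⟩ : LinearMap.ker d) := Subtype.ext h3
    have h6 : c = c' := by
      ext i
      have := congrFun (congrArg bs.equivFun h5) i
      simp only [v, map_sub, LinearEquiv.apply_symm_apply, map_smul, Pi.sub_apply, Pi.smul_apply,
        smul_eq_mul] at this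
      have a1 := (c i).val_lt
      have a2 := (c' i).val_lt
      apply ZMod.val_injective
      omega
    subst h6
    have := congrFun h ⟨_, (S.tri hb hw).hd_mem_faces e0⟩
    simp only [Ψ, add_right_inj] at this
    rw [this]
  have := Fintype.card_le_of_injective Ψ hΨ
  simp only [Fintype.card_prod, Fintype.card_fun, ZMod.card, Fintype.card_fin, Fintype.card_coe,
    ← pow_succ] at this
  have := (Nat.pow_le_pow_iff_right (by norm_num)).1 this
  omega

/-- cut sizes without reference to faces -/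
theorem Draw.good (D : Draw b w) (hb : Three b) (hw : Three w)
    (hc : ∀ S : Finset (B ⊕ W), S.Nonempty → S ≠ univ →
      3 ≤ #{e | Sum.inl (b e) ∈ S ∧ Sum.inr (w e) ∉ S} +
        #{e | Sum.inr (w e) ∈ S ∧ Sum.inl (b e) ∉ S}) (e0 : E) :
    ∃ M : Finset E, e0 ∈ M ∧ (∀ t, ∃! e, b e = t ∧ e ∈ M) ∧ (∀ x, ∃! e, w e = x ∧ e ∈ M) ∧
      ∀ S : Finset (B ⊕ W), (∀ e, e ∉ M → (Sum.inl (b e) ∈ S ↔ Sum.inr (w e) ∈ S)) →
        S = ∅ ∨ S = univ := by
  classical
  obtain ⟨S⟩ := D.exists_sys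
  have h1 : (S.tri hb hw).Conn3 := hc
  exact all_good _ _ _ _ _ (S.tri hb hw) rfl h1
    (le_antisymm (h1.conn.faces_le (b e0)) (S.tri_faces hb hw (b e0))) e0

end Vale.Agent.P039
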