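import Vale.Agent.P039.Basic

open Set Complex

namespace Vale.Agent.P039

universe u

set_option linter.unusedSectionVars false

lemma exists_log_convex {U : Set (ℝ × ℝ)} (hU : Convex ℝ U) {g : ℝ × ℝ → ℂ}
    (hgc : ContinuousOn g U) (h0 : ∀ x ∈ U, g x ≠ 0) :
    ∃ f : ℝ × ℝ → ℂ, ContinuousOn f U ∧ ∀ x ∈ U, exp (f x) = g x := by
  classical
  rcases U.eq_empty_or_nonempty with rfl | hne
  · exact ⟨0, continuousOn_empty _, by simp⟩
  have := hU.contractibleSpace hne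
  have := hU.locallyPathConnectedSpace
  obtain ⟨x₀, hx₀U⟩ := hne
  have hx₀ : g x₀ ≠ 0 := h0 _ hx₀U
  lift x₀ to U using hx₀U
  rcases isCoveringMapOn_exp.existsUnique_continuousMap_lifts
    ⟨U.domRestrict g, continuousOn_iff_continuous_domRestrict.mp hgc⟩ (exp_log hx₀)
    (fun x ↦ h0 _ x.2) with ⟨f, ⟨-, hf⟩, -⟩
  obtain ⟨g', hg⟩ : ∃ g' : ℝ × ℝ → ℂ, ∀ z : U, g' z = f z :=
    ⟨fun z ↦ if hz : z ∈ U then f ⟨z, hz⟩ else 0, by simp⟩
  refine ⟨g', ?_, ?_⟩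
  · rw [continuousOn_iff_continuous_domRestrict]
    convert! map_continuous f
    ext z
    exact hg z
  · intro x hx
    lift x to U using hx
    simpa [hg] using congr($hf x)

lemma const_of_exp {A : Type*} [TopologicalSpace A] {s : Set A} (hs : IsPreconnected s)
    {g : A → ℂ} (hg : ContinuousOn g s) {c : ℂ} (h : ∀ a ∈ s, exp (g a) = c) {a a' : A}
    (ha : a ∈ s) (ha' : a' ∈ s) : g a = g a' :=
  isCoveringMap_exp.constOn_of_comp hs hg (fun a ha a' ha' => Subtype.ext (by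
    simp only [h a ha, h a' ha'])) ha ha'

lemma const_of_exp_eq {A : Type*} [TopologicalSpace A] {s : Set A} (hs : IsPreconnected s)
    {f g : A → ℂ} (hf : ContinuousOn f s) (hg : ContinuousOn g s) {c : ℂ}
    (h : ∀ a ∈ s, exp (f a) = c * exp (g a)) {a a' : A}
    (ha : a ∈ s) (ha' : a' ∈ s) : f a - g a = f a' - g a' :=
  const_of_exp hs (hf.sub hg) (c := c) (fun a ha => by
    rw [Pi.sub_apply, exp_sub, h a ha, mul_div_cancel_right₀ _ (exp_ne_zero _)]) ha ha'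

def sq0 : Set (ℝ × ℝ) := {x | 0 ≤ x.1 ∧ x.1 < x.2 ∧ x.2 ≤ 1}
def sqD (f g : ℝ → ℂ) : Set (ℝ × ℝ) := {x | x.1 ∈ Icc (0 : ℝ) 1 ∧ x.2 ∈ Icc (0 : ℝ) 1 ∧ f x.1 ≠ g x.2}

/-- A drawing of a bipartite graph in the plane. -/
structure Draw {E B W : Type u} (b : E → B) (w : E → W) where
  Γ : E → ℝ → ℂ
  pb : B → ℂ
  pw : W → ℂ
  cont : ∀ e, Continuous (Γ e)
  h0 : ∀ e, Γ e 0 = pb (b e)
  h1 : ∀ e, Γ e 1 = pw (w e)
  inj : ∀ e, InjOn (Γ e) (Icc 0 1)
  sep : ∀ e e', e ≠ e' → ∀ s ∈ Icc (0 : ℝ) 1, ∀ t ∈ Icc (0 : ℝ) 1, Γ e s = Γ e' t →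
    (s = 0 ∧ t = 0 ∧ b e = b e') ∨ (s = 1 ∧ t = 1 ∧ w e = w e')
  simple : ∀ e e', b e = b e' → w e = w e' → e = e'

/-- A drawing with chosen logarithms of all secants. -/
structure Sys {E B W : Type u} (b : E → B) (w : E → W) extends Draw b w where
  L : E → E → ℝ × ℝ → ℂ
  L0 : E → ℝ × ℝ → ℂ
  Lc : ∀ e e', e ≠ e' → ContinuousOn (L e e') (sqD (Γ e) (Γ e'))
  Le : ∀ e e', e ≠ e' → ∀ x ∈ sqD (Γ e) (Γ e'), exp (L e e' x) = Γ e' x.2 - Γ e x.1
  L0c : ∀ e, ContinuousOn (L0 e) sq0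
  L0e : ∀ e, ∀ x ∈ sq0, exp (L0 e x) = Γ e x.2 - Γ e x.1

lemma convex_sq0 : Convex ℝ sq0 := by
  rintro x ⟨a1, a2, a3⟩ y ⟨b1, b2, b3⟩ a b ha hb hab
  simp only [sq0, mem_ofPred_eq, Prod.fst_add, Prod.smul_fst, smul_eq_mul, Prod.snd_add,
    Prod.smul_snd]
  refine ⟨by positivity, ?_, by nlinarith⟩
  rcases ha.eq_or_lt with rfl | ha
  · simp only [zero_add] at hab; simp [hab, b2]
  · nlinarith

variable {E B W : Type u} {b : E → B} {w : E → W}

lemma Draw.convex (D : Draw b w) {e e' : E} (h : e ≠ e') : Convex ℝ (sqD (D.Γ e) (D.Γ e')) := by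
  rintro x ⟨a1, a2, a3⟩ y ⟨b1, b2, b3⟩ a c ha hc hac
  have c1 := convex_Icc (0 : ℝ) 1 a1 b1 ha hc hac
  have c2 := convex_Icc (0 : ℝ) 1 a2 b2 ha hc hac
  refine ⟨c1, c2, fun h' => ?_⟩
  obtain ⟨x1, x2⟩ := x
  obtain ⟨y1, y2⟩ := y
  simp only [smul_eq_mul, mem_Icc] at *
  rcases D.sep e e' h _ c1 _ c2 h' with ⟨d1, d2, d3⟩ | ⟨d1, d2, d3⟩
  · rcases ha.eq_or_lt with rfl | ha
    · simp only [zero_add] at hac
      simp only [hac, zero_mul, one_mul, zero_add] at d1 d2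
      exact b3 (by rw [d1, d2, D.h0, D.h0, d3])
    · have e1 : x1 = 0 := by nlinarith [mul_nonneg hc b1.1]
      have e2 : x2 = 0 := by nlinarith [mul_nonneg hc b2.1]
      exact a3 (by rw [e1, e2, D.h0, D.h0, d3])
  · rcases ha.eq_or_lt with rfl | ha
    · simp only [zero_add] at hac
      simp only [hac, zero_mul, one_mul, zero_add] at d1 d2
      exact b3 (by rw [d1, d2, D.h1, D.h1, d3])
    · have e1 : x1 = 1 := by nlinarith [mul_nonneg hc (sub_nonneg.2 b1.2)]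
      have e2 : x2 = 1 := by nlinarith [mul_nonneg hc (sub_nonneg.2 b2.2)]
      exact a3 (by rw [e1, e2, D.h1, D.h1, d3])

lemma Draw.exists_sys (D : Draw b w) : Nonempty (Sys b w) := by
  have h1 : ∀ e e', ∃ f : ℝ × ℝ → ℂ, e ≠ e' → ContinuousOn f (sqD (D.Γ e) (D.Γ e')) ∧
      ∀ x ∈ sqD (D.Γ e) (D.Γ e'), exp (f x) = D.Γ e' x.2 - D.Γ e x.1 := by
    intro e e'
    by_cases h : e = e'
    · exact ⟨0, fun h' => absurd h h'⟩
    obtain ⟨f, hf⟩ := exists_log_convex (D.convex h) (g := fun x => D.Γ e' x.2 - D.Γ e x.1)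
      (by have := D.cont e; have := D.cont e'; fun_prop) (fun x hx => sub_ne_zero.2 hx.2.2.symm)
    exact ⟨f, fun _ => hf⟩
  have h2 : ∀ e, ∃ f : ℝ × ℝ → ℂ, ContinuousOn f sq0 ∧
      ∀ x ∈ sq0, exp (f x) = D.Γ e x.2 - D.Γ e x.1 := by
    intro e
    refine exists_log_convex convex_sq0 (by have := D.cont e; fun_prop) (fun x hx => ?_)
    obtain ⟨a, b, c⟩ := hx
    exact sub_ne_zero.2 fun h => b.ne' (D.inj e ⟨by linarith, c⟩ ⟨a, by linarith⟩ h)
  choose L hL using h1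
  choose L0 hL0 using h2
  exact ⟨⟨D, L, L0, fun e e' h => (hL e e' h).1, fun e e' h => (hL e e' h).2,
    fun e => (hL0 e).1, fun e => (hL0 e).2⟩⟩

def Draw.rev (D : Draw b w) : Draw w b where
  Γ e s := D.Γ e (1 - s)
  pb := D.pw
  pw := D.pb
  cont e := by have := D.cont e; fun_prop
  h0 e := by simp [D.h1]
  h1 e := by simp [D.h0]
  inj e s hs t ht h := by
    have := D.inj e (x₁ := 1 - s) (x₂ := 1 - t) ⟨by linarith [hs.2], by linarith [hs.1]⟩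
      ⟨by linarith [ht.2], by linarith [ht.1]⟩ h
    linarith
  sep e e' h s hs t ht h' := by
    rcases D.sep e e' h (1 - s) ⟨by linarith [hs.2], by linarith [hs.1]⟩ (1 - t)
      ⟨by linarith [ht.2], by linarith [ht.1]⟩ h' with ⟨a, b, c⟩ | ⟨a, b, c⟩
    · exact Or.inr ⟨by linarith, by linarith, c⟩
    · exact Or.inl ⟨by linarith, by linarith, c⟩
  simple e e' h h' := D.simple e e' h' h

noncomputable def Sys.rev (S : Sys b w) : Sys w b where
  toDraw := S.toDraw.rev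
  L e e' x := S.L e e' (1 - x.1, 1 - x.2)
  L0 e x := S.L0 e (1 - x.2, 1 - x.1) + Real.pi * I
  Lc e e' h := (S.Lc e e' h).comp (by fun_prop) (by
    rintro x ⟨a, b, c⟩
    exact ⟨⟨by linarith [a.2], by linarith [a.1]⟩, ⟨by linarith [b.2], by linarith [b.1]⟩, c⟩)
  Le e e' h x hx := S.Le e e' h _ (by
    obtain ⟨a, b, c⟩ := hx
    exact ⟨⟨by linarith [a.2], by linarith [a.1]⟩, ⟨by linarith [b.2], by linarith [b.1]⟩, c⟩)
  L0c e := ((S.L0c e).comp (by fun_prop) (by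
    rintro x ⟨a, b, c⟩
    exact ⟨by simp only; linarith, by simp only; linarith, by simp only; linarith⟩)).add
      continuousOn_const
  L0e e x hx := by
    obtain ⟨a, b, c⟩ := hx
    rw [exp_add, exp_pi_mul_I, S.L0e e _
      ⟨by simp only; linarith, by simp only; linarith, by simp only; linarith⟩]
    simp [Draw.rev]

end Vale.Agent.P039
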