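import Vale.Agent.P039.Wind

open Set Complex

namespace Vale.Agent.P039

universe u

set_option linter.unusedSectionVars false

variable {E B W : Type u} [Fintype E] [Fintype B] [Fintype W] [DecidableEq E] [DecidableEq B]
  [DecidableEq W] {b : E → B} {w : E → W}

def Circ (b : E → B) (w : E → W) (z : E → ℤ) : Prop :=
  (∀ t, ∑ e with b e = t, z e = 0) ∧ ∀ t, ∑ e with w e = t, z e = 0

namespace Sys

variable (S : Sys b w)

lemma mem1 {e e' : E} (h : e ≠ e') {s : ℝ} (hs : s ∈ Ico (0 : ℝ) 1) :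
    (s, (1 : ℝ)) ∈ sqD (S.Γ e) (S.Γ e') := by
  refine ⟨⟨hs.1, hs.2.le⟩, by simp, fun h' => ?_⟩
  rcases S.sep e e' h s ⟨hs.1, hs.2.le⟩ 1 (by simp) h' with ⟨-, a, -⟩ | ⟨a, -⟩
  · simp at a
  · exact hs.2.ne a

lemma mem0 {e e' : E} (h : e ≠ e') {s : ℝ} (hs : s ∈ Icc (0 : ℝ) 1) (h0 : s ≠ 0 ∨ b e ≠ b e') :
    (s, (0 : ℝ)) ∈ sqD (S.Γ e) (S.Γ e') := by
  refine ⟨hs, by simp, fun h' => ?_⟩
  rcases S.sep e e' h s hs 0 (by simp) h' with ⟨a, -, c⟩ | ⟨-, a, -⟩
  · tauto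
  · simp at a

lemma memL {e e' : E} (h : e ≠ e') {s : ℝ} (hs : s ∈ Icc (0 : ℝ) 1) (h0 : s ≠ 0 ∨ b e ≠ b e') :
    ((0 : ℝ), s) ∈ sqD (S.Γ e) (S.Γ e') := by
  refine ⟨by simp, hs, fun h' => ?_⟩
  rcases S.sep e e' h 0 (by simp) s hs h' with ⟨-, a, c⟩ | ⟨a, -⟩
  · tauto
  · simp at a

lemma c1 {e e' : E} (h : e ≠ e') : ContinuousOn (fun s => S.L e e' (s, 1)) (Ico 0 1) :=
  (S.Lc e e' h).comp (by fun_prop) fun _ hs => S.mem1 h hs

lemma c0 {e e' : E} (h : e ≠ e') : ContinuousOn (fun s => S.L e e' (s, 0)) (Ioc 0 1) :=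
  (S.Lc e e' h).comp (by fun_prop) fun _ hs => S.mem0 h ⟨hs.1.le, hs.2⟩ (Or.inl hs.1.ne')

lemma c0' {e e' : E} (h : e ≠ e') (hb : b e ≠ b e') :
    ContinuousOn (fun s => S.L e e' (s, 0)) (Icc 0 1) :=
  (S.Lc e e' h).comp (by fun_prop) fun _ hs => S.mem0 h hs (Or.inr hb)

lemma cL' {e e' : E} (h : e ≠ e') (hb : b e ≠ b e') :
    ContinuousOn (fun s => S.L e e' (0, s)) (Icc 0 1) :=
  (S.Lc e e' h).comp (by fun_prop) fun _ hs => S.memL h hs (Or.inr hb)

lemma d1 (e : E) : ContinuousOn (fun s => S.L0 e (s, 1)) (Ico 0 1) :=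
  (S.L0c e).comp (by fun_prop) fun _ hs => ⟨hs.1, hs.2, le_rfl⟩

lemma d0 (e : E) : ContinuousOn (fun s => S.L0 e (0, s)) (Ioc 0 1) :=
  (S.L0c e).comp (by fun_prop) fun _ hs => ⟨le_rfl, hs.1, hs.2⟩

noncomputable def Δ (e e' : E) (s : ℝ) : ℂ :=
  if e = e' then S.L0 e (s, 1) - S.L0 e (0, s) - Real.pi * I else S.L e e' (s, 1) - S.L e e' (s, 0)

noncomputable def Φ (e : E) (z : E → ℤ) (s : ℝ) : ℂ := ∑ e', (z e' : ℂ) * S.Δ e e' s

lemma Δ_cont (e e' : E) : ContinuousOn (S.Δ e e') (Ioo 0 1) := by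
  unfold Δ
  split_ifs with h
  · exact (((S.d1 e).mono Ioo_subset_Ico_self).sub ((S.d0 e).mono Ioo_subset_Ioc_self)).sub
      continuousOn_const
  · exact ((S.c1 h).mono Ioo_subset_Ico_self).sub ((S.c0 h).mono Ioo_subset_Ioc_self)

lemma Φ_int (e : E) {z : E → ℤ} (hz : Circ b w z) {s : ℝ} (hs : s ∈ Ioo (0 : ℝ) 1) :
    ∃ n : ℤ, S.Φ e z s = n * (2 * Real.pi * I) := by
  have : ∀ e', ∃ k : ℤ, S.Δ e e' s = (log (S.pw (w e') - S.Γ e s) - log (S.pb (b e') - S.Γ e s)) +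
      k * (2 * Real.pi * I) := by
    intro e'
    rw [← exp_eq_exp_iff_exists_int]
    unfold Δ
    split_ifs with h
    · subst h
      have a := S.L0e e (s, 1) ⟨hs.1.le, hs.2, le_rfl⟩
      have c := S.L0e e (0, s) ⟨le_rfl, hs.1, hs.2.le⟩
      simp only [S.h0, S.h1] at a c
      have c' : S.pb (b e) - S.Γ e s ≠ 0 := by
        rw [← neg_sub, ← c]; exact neg_ne_zero.2 (exp_ne_zero _)
      rw [exp_sub, exp_sub, exp_sub, exp_pi_mul_I, exp_log c', exp_log (a ▸ exp_ne_zero _), a, c,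
        div_div]
      congr 1; ring
    · have a := S.Le e e' h _ (S.mem1 h ⟨hs.1.le, hs.2⟩)
      have c := S.Le e e' h _ (S.mem0 h ⟨hs.1.le, hs.2.le⟩ (Or.inl hs.1.ne'))
      simp only [S.h0, S.h1] at a c
      rw [exp_sub, exp_sub, exp_log (a ▸ exp_ne_zero _), exp_log (c ▸ exp_ne_zero _), a, c]
  choose k hk using this
  refine ⟨∑ e', z e' * k e', ?_⟩
  have a : ∀ f : B → ℂ, ∑ e', (z e' : ℂ) * f (b e') = 0 := by
    intro f
    rw [← Finset.sum_fiberwise Finset.univ b]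
    refine Finset.sum_eq_zero fun t _ => ?_
    rw [Finset.sum_congr rfl (g := fun e' => (z e' : ℂ) * f t) (fun e' he' => by
      rw [(Finset.mem_filter.1 he').2]), ← Finset.sum_mul, ← Int.cast_sum, hz.1 t]
    simp
  have c : ∀ f : W → ℂ, ∑ e', (z e' : ℂ) * f (w e') = 0 := by
    intro f
    rw [← Finset.sum_fiberwise Finset.univ w]
    refine Finset.sum_eq_zero fun t _ => ?_
    rw [Finset.sum_congr rfl (g := fun e' => (z e' : ℂ) * f t) (fun e' he' => by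
      rw [(Finset.mem_filter.1 he').2]), ← Finset.sum_mul, ← Int.cast_sum, hz.2 t]
    simp
  simp only [Φ, hk, mul_add, mul_sub, Finset.sum_add_distrib, Finset.sum_sub_distrib]
  rw [a (fun t => log (S.pb t - S.Γ e s)), c (fun t => log (S.pw t - S.Γ e s))]
  push_cast
  simp [Finset.sum_mul, mul_assoc]

lemma exists_N (e : E) (z : E → ℤ) : ∃ n : ℤ, Circ b w z → ∀ s ∈ Ioo (0 : ℝ) 1,
    S.Φ e z s = n * (2 * Real.pi * I) := by
  by_cases hz : Circ b w z
  swap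
  · exact ⟨0, fun h => absurd h hz⟩
  have h2 : (1 / 2 : ℝ) ∈ Ioo (0 : ℝ) 1 := by norm_num
  obtain ⟨n, hn⟩ := S.Φ_int e hz h2
  refine ⟨n, fun _ s hs => ?_⟩
  rw [← hn]
  refine const_of_exp isPreconnected_Ioo (c := 1) ?_ (fun s hs => ?_) hs h2
  · exact continuousOn_finsetSum _ fun e' _ => continuousOn_const.mul (S.Δ_cont e e')
  · exact exp_eq_one_iff.2 (S.Φ_int e hz hs)

noncomputable def N (e : E) (z : E → ℤ) : ℤ := (S.exists_N e z).choose

lemma N_spec (e : E) {z : E → ℤ} (hz : Circ b w z) {s : ℝ} (hs : s ∈ Ioo (0 : ℝ) 1) :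
    S.Φ e z s = S.N e z * (2 * Real.pi * I) := (S.exists_N e z).choose_spec hz s hs

lemma N_rev (e : E) {z : E → ℤ} (hz : Circ b w z) : S.rev.N e z = -S.N e z - z e := by
  have h2 : (1 / 2 : ℝ) ∈ Ioo (0 : ℝ) 1 := by norm_num
  have a := S.N_spec e hz h2
  have c := S.rev.N_spec e ⟨hz.2, hz.1⟩ h2
  have d : S.rev.Φ e z (1 / 2) = -S.Φ e z (1 / 2) - z e * (2 * Real.pi * I) := by
    have : ∀ e', S.rev.Δ e e' (1 / 2) =
        -S.Δ e e' (1 / 2) - if e = e' then (2 * Real.pi * I) else 0 := by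
      intro e'
      simp only [Δ, rev]
      split_ifs
      · norm_num; ring
      · norm_num
    simp only [Φ, this, mul_sub, Finset.sum_sub_distrib, mul_neg, Finset.sum_neg_distrib, mul_ite,
      mul_zero, Finset.sum_ite_eq, Finset.mem_univ, if_true]
  rw [d, a] at c
  have f : ((S.rev.N e z : ℂ) - (-S.N e z - z e)) * (2 * Real.pi * I) = 0 := by
    rw [sub_mul, ← c]; ring
  rw [mul_eq_zero, or_iff_left two_pi_I_ne_zero, sub_eq_zero] at f
  exact_mod_cast f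

noncomputable def c (e e' : E) : ℂ :=
  (S.L e e' (1, 0) - S.L0 e (0, 1)) - (S.L e e' (0, 1) - S.L0 e' (0, 1))

lemma c_anti {e e' : E} (h : e ≠ e') (_hb : b e = b e') : S.c e' e = - S.c e e' := by
  have a := S.mem0 h (s := 1) (by simp) (by simp)
  have a' := S.memL h (s := 1) (by simp) (by simp)
  have := const_of_exp_eq (S.convex h).isPreconnected (f := fun x => S.L e' e (x.2, x.1))
    (g := S.L e e') (c := -1) ((S.Lc e' e h.symm).comp (by fun_prop) (by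
      rintro x ⟨a, b, c⟩; exact ⟨b, a, c.symm⟩)) (S.Lc e e' h) (by
      rintro x ⟨a, b, c⟩
      rw [S.Le e' e h.symm _ ⟨b, a, c.symm⟩, S.Le e e' h _ ⟨a, b, c⟩]; ring) a a'
  simp only [c]
  linear_combination -this

lemma c_odd {e e' : E} (h : e ≠ e') (hb : b e = b e') :
    ∃ k : ℤ, S.c e e' = (2 * k + 1) * (Real.pi * I) := by
  have a := S.Le e e' h _ (S.mem0 h (s := 1) (by simp) (by simp))
  have a' := S.Le e e' h _ (S.memL h (s := 1) (by simp) (by simp))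
  have d := S.L0e e (0, 1) ⟨le_rfl, zero_lt_one, le_rfl⟩
  have d' := S.L0e e' (0, 1) ⟨le_rfl, zero_lt_one, le_rfl⟩
  simp only [S.h0, ← hb] at a a' d d'
  have : exp (S.c e e') = exp (Real.pi * I) := by
    have n1 := exp_ne_zero (S.L0 e (0, 1))
    have n2 := exp_ne_zero (S.L0 e' (0, 1))
    rw [c, exp_sub, exp_sub, exp_sub, exp_pi_mul_I, a', ← d', div_self n2, a, ← neg_sub, ← d,
      neg_div, div_self n1, div_one]
  obtain ⟨k, hk⟩ := exp_eq_exp_iff_exists_int.1 this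
  exact ⟨k, by rw [hk]; ring⟩

lemma Δ_zero {e1 e2 e' : E} (h12 : b e1 = b e2) (h : b e1 ≠ b e') : S.Δ e1 e' 0 = S.Δ e2 e' 0 := by
  have n1 : e1 ≠ e' := fun h' => h (h' ▸ rfl)
  have n2 : e2 ≠ e' := fun h' => h (h12.trans (h' ▸ rfl))
  have := const_of_exp_eq isPreconnected_Icc (S.cL' n1 h) (S.cL' n2 (h12 ▸ h)) (c := 1) (by
    intro s hs
    rw [S.Le _ _ n1 _ (S.memL n1 hs (Or.inr h)), S.Le _ _ n2 _ (S.memL n2 hs (Or.inr (h12 ▸ h))),
      S.h0, S.h0, h12, one_mul]) (a := 0) (a' := 1) (by simp) (by simp)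
  simp only [Δ, if_neg n1, if_neg n2]
  linear_combination -this

lemma formula (e : E) {z : E → ℤ} (hz : Circ b w z) : S.N e z * (2 * Real.pi * I) =
    ∑ e' with b e' ≠ b e, (z e' : ℂ) * S.Δ e e' 0 + ∑ e' with b e' = b e, (z e' : ℂ) *
      (S.L0 e' (0, 1) - if e = e' then Real.pi * I else S.c e e') := by
  let Ψ : ℝ → ℂ := fun s => ∑ e' with b e' ≠ b e, (z e' : ℂ) * S.Δ e e' s +
    ∑ e' with b e' = b e, (z e' : ℂ) * (if e = e' then S.L0 e (s, 1) - Real.pi * I else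
      S.L e e' (s, 1) - (S.L e e' (1, 0) - S.L0 e (0, 1)))
  have h1 : ContinuousOn Ψ (Ico 0 1) := by
    refine (continuousOn_finsetSum _ fun e' he' => continuousOn_const.mul ?_).add
      (continuousOn_finsetSum _ fun e' _ => continuousOn_const.mul ?_)
    · have hb := (Finset.mem_filter.1 he').2.symm
      have n : e ≠ e' := fun h' => hb (h' ▸ rfl)
      unfold Δ
      simp only [if_neg n]
      exact (S.c1 n).sub ((S.c0' n hb).mono Ico_subset_Icc_self)
    · split_ifs with n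
      · exact (S.d1 e).sub continuousOn_const
      · exact (S.c1 n).sub continuousOn_const
  have h2 : EqOn Ψ (fun _ => S.N e z * (2 * Real.pi * I)) (Ioo 0 1) := by
    intro s hs
    simp only [← S.N_spec e hz hs, Φ, Ψ]
    rw [← Finset.sum_filter_add_sum_filter_not Finset.univ (fun e' => b e' = b e), add_comm]
    congr 1
    have : ∀ e' ∈ Finset.univ.filter (fun e' => b e' = b e), (z e' : ℂ) * (if e = e' then
        S.L0 e (s, 1) - Real.pi * I else S.L e e' (s, 1) - (S.L e e' (1, 0) - S.L0 e (0, 1))) =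
        (z e' : ℂ) * S.Δ e e' s + z e' * S.L0 e (0, s) := by
      intro e' he'
      have hb := (Finset.mem_filter.1 he').2
      unfold Δ
      split_ifs with n
      · ring
      · have := const_of_exp_eq isPreconnected_Ioc (S.c0 n) (S.d0 e) (c := -1) (by
          intro s hs
          rw [S.Le _ _ n _ (S.mem0 n ⟨hs.1.le, hs.2⟩ (Or.inl hs.1.ne')),
            S.L0e e _ ⟨le_rfl, hs.1, hs.2⟩, S.h0, S.h0, hb]; ring) (a := s) (a' := 1)
          ⟨hs.1, hs.2.le⟩ (by simp)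
        linear_combination z e' * this
    rw [Finset.sum_congr rfl this, Finset.sum_add_distrib, ← Finset.sum_mul, ← Int.cast_sum, hz.1]
    simp
  have h3 := h2.of_subset_closure h1 continuousOn_const Ioo_subset_Ico_self (by
    rw [closure_Ioo zero_ne_one]; exact Ico_subset_Icc_self) (x := 0) (by simp)
  simp only at h3
  rw [← h3]
  simp only [Ψ]
  congr 1
  refine Finset.sum_congr rfl fun e' _ => ?_
  split_ifs with n
  · rw [n]
  · simp only [c]; ring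

lemma triFib {t : B} {e0 e1 e2 : E} (h01 : e0 ≠ e1) (h12 : e1 ≠ e2) (h02 : e0 ≠ e2)
    (h : ∀ e, b e = t ↔ e = e0 ∨ e = e1 ∨ e = e2) :
    TriFib (F := {z : E → ℤ // Circ b w z} → ZMod 2) b (fun e z => (S.N e z.1 : ℤ))
      (fun e z => (S.N e z.1 + z.1 e : ℤ)) t := by
  have b0 : b e0 = t := (h _).2 (by simp)
  have b1 : b e1 = t := (h _).2 (by simp)
  have b2 : b e2 = t := (h _).2 (by simp)
  obtain ⟨k0, hk0⟩ := S.c_odd h01 (b0.trans b1.symm)
  obtain ⟨k1, hk1⟩ := S.c_odd h12 (b1.trans b2.symm)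
  obtain ⟨k2, hk2⟩ := S.c_odd h02.symm (b2.trans b0.symm)
  have a0 := S.c_anti h01 (b0.trans b1.symm)
  have a1 := S.c_anti h12 (b1.trans b2.symm)
  have a2 := S.c_anti h02.symm (b2.trans b0.symm)
  have key : ∀ z : E → ℤ, Circ b w z → z e0 + z e1 + z e2 = 0 ∧
      S.N e0 z - S.N e1 z = z e2 * (k0 + k1 + k2 + 1) - z e0 ∧
      S.N e1 z - S.N e2 z = z e0 * (k0 + k1 + k2 + 1) - z e1 ∧
      S.N e2 z - S.N e0 z = z e1 * (k0 + k1 + k2 + 1) - z e2 := by
    intro z hz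
    have s0 := hz.1 t
    rw [fib_sum h01 h12 h02 h] at s0
    have f0 := S.formula e0 hz
    have f1 := S.formula e1 hz
    have f2 := S.formula e2 hz
    rw [b0, fib_sum h01 h12 h02 h] at f0
    rw [b1, fib_sum h01 h12 h02 h] at f1
    rw [b2, fib_sum h01 h12 h02 h] at f2
    have g1 : ∑ e' with b e' ≠ t, (z e' : ℂ) * S.Δ e1 e' 0 =
        ∑ e' with b e' ≠ t, (z e' : ℂ) * S.Δ e0 e' 0 := Finset.sum_congr rfl fun e' he' => by
      rw [S.Δ_zero (b1.trans b0.symm) (b1 ▸ (Finset.mem_filter.1 he').2.symm)]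
    have g2 : ∑ e' with b e' ≠ t, (z e' : ℂ) * S.Δ e2 e' 0 =
        ∑ e' with b e' ≠ t, (z e' : ℂ) * S.Δ e0 e' 0 := Finset.sum_congr rfl fun e' he' => by
      rw [S.Δ_zero (b2.trans b0.symm) (b2 ▸ (Finset.mem_filter.1 he').2.symm)]
    rw [g1] at f1
    rw [g2] at f2
    simp only [if_true, if_neg h01, if_neg h12, if_neg h02, if_neg h01.symm, if_neg h12.symm,
      if_neg h02.symm, a0, a1, a2, hk0, hk1, hk2] at f0 f1 f2
    have s0' : (z e0 : ℂ) + z e1 + z e2 = 0 := by exact_mod_cast s0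
    have np : (2 * Real.pi * I : ℂ) ≠ 0 := two_pi_I_ne_zero
    refine ⟨s0, ?_, ?_, ?_⟩
    · have : ((S.N e0 z : ℂ) - S.N e1 z) = z e2 * (k0 + k1 + k2 + 1) - z e0 := by
        apply mul_right_cancel₀ np
        linear_combination f0 - f1 - (2 * k0 * Real.pi * I) * s0'
      exact_mod_cast this
    · have : ((S.N e1 z : ℂ) - S.N e2 z) = z e0 * (k0 + k1 + k2 + 1) - z e1 := by
        apply mul_right_cancel₀ np
        linear_combination f1 - f2 - (2 * k1 * Real.pi * I) * s0'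
      exact_mod_cast this
    · have : ((S.N e2 z : ℂ) - S.N e0 z) = z e1 * (k0 + k1 + k2 + 1) - z e2 := by
        apply mul_right_cancel₀ np
        linear_combination f2 - f0 - (2 * k2 * Real.pi * I) * s0'
      exact_mod_cast this
  have cast : ∀ x y : ℤ, (2 : ℤ) ∣ y - x → ((x : ZMod 2) = y) := fun x y h =>
    (ZMod.intCast_eq_intCast_iff_dvd_sub x y 2).2 h
  rcases Int.even_or_odd' (k0 + k1 + k2 + 1) with ⟨m, hm | hm⟩
  · refine ⟨e0, e2, e1, h02, h12.symm, h01, fun e => by rw [h]; tauto, ?_, ?_, ?_⟩ <;>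
    · funext z
      obtain ⟨p0, p1, p2, p3⟩ := key z.1 z.2
      rw [hm] at p1 p2 p3
      apply cast
      first
        | exact ⟨z.1 e1 * m, by linear_combination p3⟩
        | exact ⟨z.1 e0 * m, by linear_combination p2⟩
        | exact ⟨z.1 e2 * m, by linear_combination p1⟩
  · refine ⟨e0, e1, e2, h01, h12, h02, h, ?_, ?_, ?_⟩ <;>
    · funext z
      obtain ⟨p0, p1, p2, p3⟩ := key z.1 z.2
      rw [hm] at p1 p2 p3
      apply cast
      first
        | exact ⟨-z.1 e2 * m - z.1 e2, by linear_combination p0 - p1⟩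
        | exact ⟨-z.1 e0 * m - z.1 e0, by linear_combination p0 - p2⟩
        | exact ⟨-z.1 e1 * m - z.1 e1, by linear_combination p0 - p3⟩

end Sys

end Vale.Agent.P039
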